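import Vale.Agent.Lib.P037.GFinal

/-!
The 2 x 2 patterns with two equal rows.
-/

namespace Vale.Agent.Lib.P037

open Finset

variable {n : ℕ}

lemma sq_le_pairs (S : Finset (Fin n)) :
    S.card ^ 2 ≤ 2 * ((S ×ˢ S).filter (fun q => q.1 < q.2)).card + S.card := by
  classical
  have h1 : S.card ^ 2 = ((S ×ˢ S).filter (fun q => q.1 < q.2)).card
      + ((S ×ˢ S).filter (fun q => ¬ q.1 < q.2)).card := by
    rw [card_filter_add_card_filter_not, card_product, sq]
  have h2 : (S ×ˢ S).filter (fun q => ¬ q.1 < q.2)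
      ⊆ ((S ×ˢ S).filter (fun q => q.1 < q.2)).image Prod.swap ∪ S.diag := by
    intro q hq
    simp only [mem_filter, mem_product, mem_union, mem_image, mem_diag] at hq ⊢
    rcases lt_trichotomy q.1 q.2 with h | h | h
    · exact absurd h hq.2
    · exact Or.inr ⟨hq.1.1, h⟩
    · exact Or.inl ⟨Prod.swap q, ⟨⟨hq.1.2, hq.1.1⟩, h⟩, by simp⟩
  have h3 := le_trans (card_le_card h2) (card_union_le _ _)
  have h4 : (((S ×ˢ S).filter (fun q => q.1 < q.2)).image Prod.swap).card
      ≤ ((S ×ˢ S).filter (fun q => q.1 < q.2)).card := card_image_le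
  rw [diag_card] at h3
  omega

/-- number of occurrences of the pattern `(a, b)` in a row -/
def rinv (a b : Bool) (x : Fin n → Bool) : ℕ :=
  ((univ ×ˢ univ).filter (fun q : Fin n × Fin n => q.1 < q.2 ∧ x q.1 = a ∧ x q.2 = b)).card

/-- every row is close to a row avoiding `(a, b)`, in terms of the number of occurrences -/
def RowFix (a b : Bool) : Prop :=
  ∀ (n : ℕ) (x : Fin n → Bool), ∃ x' : Fin n → Bool,
    (∀ c1 c2, c1 < c2 → ¬ (x' c1 = a ∧ x' c2 = b)) ∧
    (univ.filter (fun c => x c ≠ x' c)).card ^ 2 ≤ 4 * rinv a b x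

lemma rowFix_tt : RowFix true true := by
  intro n x
  set S := (univ : Finset (Fin n)).filter (fun c => x c = true) with hS
  have hinv : rinv true true x = ((S ×ˢ S).filter (fun q => q.1 < q.2)).card := by
    unfold rinv
    congr 1
    ext q
    simp only [hS, mem_filter, mem_product, mem_univ, true_and]
    tauto
  by_cases hd : 2 ≤ S.card
  · refine ⟨fun _ => false, by simp, ?_⟩
    have e : univ.filter (fun c => x c ≠ false) = S := by
      rw [hS]
      apply filter_congr
      intro c _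
      simp
    rw [e, hinv]
    have h1 := sq_le_pairs S
    nlinarith
  · refine ⟨x, ?_, by simp⟩
    intro c1 c2 hlt ⟨h1, h2⟩
    have hle : S.card ≤ 1 := by omega
    rw [card_le_one] at hle
    have := hle c1 (by simp [hS, h1]) c2 (by simp [hS, h2])
    exact absurd this (ne_of_lt hlt)

lemma rowFix_tf : RowFix true false := by
  intro n x
  have hinj : Set.InjOn (fun c : Fin n => c.val) (univ : Finset (Fin n)) := by
    intro a _ b _ h
    exact Fin.ext h
  obtain ⟨h1, h2⟩ := col_sort (univ : Finset (Fin n)) (fun c : Fin n => c.val) hinj x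
  refine ⟨fun c => decide (rk univ (fun c : Fin n => c.val) c
    < (univ.filter (fun r => x r = true)).card), ?_, ?_⟩
  · intro c1 c2 hlt ⟨e1, e2⟩
    simp only [decide_eq_true_eq, decide_eq_false_iff_not, not_lt] at e1 e2
    have := rk_anti (univ : Finset (Fin n)) (fun c : Fin n => c.val) (r := c1) (r' := c2)
      (le_of_lt hlt)
    omega
  · rw [h1]
    have e : ((univ ×ˢ univ).filter (fun p : Fin n × Fin n => p.1.val < p.2.val ∧ x p.1 = true
        ∧ x p.2 = false)).card = rinv true false x := rfl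
    rw [e] at h2
    nlinarith

lemma easy_arith (n K D T N : ℕ) (hN : 1 ≤ N) (h1 : n ^ 2 < K * D) (h2 : D ^ 2 ≤ n * (4 * T))
    (h3 : T ^ 2 ≤ n ^ 2 * (2 * N + T)) : n ^ 4 ≤ (3 * K) ^ 8 * N := by
  rcases Nat.eq_zero_or_pos n with rfl | hn
  · simp
  have hK : 1 ≤ K := by
    by_contra hcon
    have : K = 0 := by omega
    rw [this] at h1
    simp at h1
  have a1 : n ^ 3 < 4 * K ^ 2 * T := by
    have e1 : (n ^ 2) ^ 2 < (K * D) ^ 2 := Nat.pow_lt_pow_left h1 (by norm_num)
    have e2 : n * n ^ 3 < n * (4 * K ^ 2 * T) := by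
      calc n * n ^ 3 = (n ^ 2) ^ 2 := by ring
        _ < (K * D) ^ 2 := e1
        _ = K ^ 2 * D ^ 2 := by ring
        _ ≤ K ^ 2 * (n * (4 * T)) := by gcongr
        _ = n * (4 * K ^ 2 * T) := by ring
    exact Nat.lt_of_mul_lt_mul_left e2
  rcases Nat.lt_or_ge T (2 * n ^ 2) with hT | hT
  · have b1 : n < 8 * K ^ 2 := by
      have e : n ^ 2 * n < n ^ 2 * (8 * K ^ 2) := by
        calc n ^ 2 * n = n ^ 3 := by ring
          _ < 4 * K ^ 2 * T := a1
          _ ≤ 4 * K ^ 2 * (2 * n ^ 2) := by gcongr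
          _ = n ^ 2 * (8 * K ^ 2) := by ring
      exact Nat.lt_of_mul_lt_mul_left e
    calc n ^ 4 ≤ (8 * K ^ 2) ^ 4 := by gcongr
      _ = 4096 * K ^ 8 * 1 := by ring
      _ ≤ 6561 * K ^ 8 * N := by gcongr; norm_num
      _ = (3 * K) ^ 8 * N := by ring
  · have b1 : T ^ 2 ≤ 4 * n ^ 2 * N := by
      have e : 2 * n ^ 2 * T ≤ T ^ 2 := by
        calc 2 * n ^ 2 * T ≤ T * T := by gcongr
          _ = T ^ 2 := by ring
      nlinarith
    have b2 : (n ^ 3) ^ 2 ≤ (4 * K ^ 2 * T) ^ 2 := by gcongr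
    have b3 : n ^ 2 * n ^ 4 ≤ n ^ 2 * (64 * K ^ 4 * N) := by
      calc n ^ 2 * n ^ 4 = (n ^ 3) ^ 2 := by ring
        _ ≤ (4 * K ^ 2 * T) ^ 2 := b2
        _ = 16 * K ^ 4 * T ^ 2 := by ring
        _ ≤ 16 * K ^ 4 * (4 * n ^ 2 * N) := by gcongr
        _ = n ^ 2 * (64 * K ^ 4 * N) := by ring
    have b4 : n ^ 4 ≤ 64 * K ^ 4 * N := Nat.le_of_mul_le_mul_left b3 (by positivity)
    calc n ^ 4 ≤ 64 * K ^ 4 * N := b4
      _ = 64 * (K ^ 4 * 1) * N := by ring
      _ ≤ 6561 * (K ^ 4 * K ^ 4) * N := by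
          gcongr
          · norm_num
          · exact Nat.one_le_pow _ _ hK
      _ = (3 * K) ^ 8 * N := by ring

theorem polyRemoval_equalRows (a b : Bool) (hfix : RowFix a b) :
    PolyRemoval ![![a, b], ![a, b]] := by
  classical
  apply polyRemoval_of_nat _ 3 8 (by norm_num) (by norm_num)
  intro n A K hK hfar
  set H : Fin 2 → Fin 2 → Bool := ![![a, b], ![a, b]] with hH
  choose B hBfree hBdist using fun r => hfix n (A r)
  have hfree : IsFree H B := by
    intro p hp
    obtain ⟨_, hc, hval⟩ := hp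
    apply hBfree (p.1 0) (p.2 0) (p.2 1) (hc (by decide))
    rw [hval, hval]
    simp [hH]
  have h1 := hfar B hfree
  have hN : 1 ≤ numCopies H A := by
    by_contra hcon
    have h0 : numCopies H A = 0 := by omega
    unfold numCopies at h0
    rw [Set.ncard_eq_zero (Set.toFinite _)] at h0
    have hAfree : IsFree H A := by
      intro p hp
      have : p ∈ ({p | IsCopy H A p} : Set _) := hp
      rw [h0] at this
      exact this
    have := hfar A hAfree
    rw [numDiff_eq_ham', ham_self] at this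
    omega
  -- distance, row by row
  have hD : numDiff A B = ∑ r, (univ.filter (fun c => A r c ≠ B r c)).card := by
    rw [numDiff_eq_ham']
    unfold ham
    rw [← card_filter_product' (univ : Finset (Fin n)) (univ : Finset (Fin n))
      (fun r c => A r c ≠ B r c)]
    exact card_filter_product (univ : Finset (Fin n)) (univ : Finset (Fin n))
      (fun r c => A r c ≠ B r c)
  set Q := ((univ : Finset (Fin n)) ×ˢ (univ : Finset (Fin n))).filter (fun q => q.1 < q.2) with hQ
  set m : Fin n × Fin n → ℕ := fun q => (univ.filter (fun r => A r q.1 = a ∧ A r q.2 = b)).card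
    with hm
  set T := ∑ q ∈ Q, m q with hT
  have hTrows : ∑ r, rinv a b (A r) = T := by
    have e1 : ∀ r, rinv a b (A r) = (Q.filter (fun q => A r q.1 = a ∧ A r q.2 = b)).card := by
      intro r
      unfold rinv
      rw [hQ, filter_filter]
    simp only [e1]
    rw [← card_filter_product (univ : Finset (Fin n)) Q (fun r q => A r q.1 = a ∧ A r q.2 = b)]
    exact card_filter_product' (univ : Finset (Fin n)) Q (fun r q => A r q.1 = a ∧ A r q.2 = b)
  have h2 : (numDiff A B) ^ 2 ≤ n * (4 * T) := by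
    rw [hD]
    calc (∑ r, (univ.filter (fun c => A r c ≠ B r c)).card) ^ 2
        ≤ (univ : Finset (Fin n)).card * ∑ r, (univ.filter (fun c => A r c ≠ B r c)).card ^ 2 :=
          sq_sum_le_card_mul_sum_sq
      _ ≤ (univ : Finset (Fin n)).card * ∑ r, 4 * rinv a b (A r) := by
          apply Nat.mul_le_mul_left
          exact sum_le_sum (fun r _ => hBdist r)
      _ = n * (4 * T) := by
          rw [← mul_sum, hTrows]
          simp
  have hQcard : Q.card ≤ n ^ 2 := by
    rw [hQ]
    refine le_trans (card_filter_le _ _) ?_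
    simp [sq]
  have hcop : ∑ q ∈ Q, m q ^ 2 ≤ 2 * numCopies H A + T := by
    have e1 := sum_le_numCopies H A
    rw [← sum_product' (univ : Finset (Fin n)) (univ : Finset (Fin n))
      (fun c c' => if c < c' then
      ((univ ×ˢ univ).filter (fun q : Fin n × Fin n => q.1 < q.2 ∧ A q.1 c = H 0 0 ∧ A q.1 c' = H 0 1
        ∧ A q.2 c = H 1 0 ∧ A q.2 c' = H 1 1)).card else 0), ← sum_filter, ← hQ] at e1
    have e2 : ∀ q ∈ Q, m q ^ 2 ≤ 2 * ((univ ×ˢ univ).filter (fun z : Fin n × Fin n => z.1 < z.2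
        ∧ A z.1 q.1 = H 0 0 ∧ A z.1 q.2 = H 0 1 ∧ A z.2 q.1 = H 1 0 ∧ A z.2 q.2 = H 1 1)).card
        + m q := by
      intro q _
      have e3 := sq_le_pairs (univ.filter (fun r => A r q.1 = a ∧ A r q.2 = b))
      refine le_trans e3 (Nat.add_le_add_right (Nat.mul_le_mul_left _ (card_le_card ?_)) _)
      intro z hz
      simp only [mem_filter, mem_product, mem_univ, true_and] at hz ⊢
      simp only [hH, Matrix.cons_val_zero, Matrix.cons_val_one]
      exact ⟨hz.2, hz.1.1.1, hz.1.1.2, hz.1.2.1, hz.1.2.2⟩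
    have e4 := sum_le_sum e2
    rw [sum_add_distrib, ← mul_sum] at e4
    have e5 := Nat.mul_le_mul_left 2 e1
    omega
  have h3 : T ^ 2 ≤ n ^ 2 * (2 * numCopies H A + T) := by
    calc T ^ 2 ≤ Q.card * ∑ q ∈ Q, m q ^ 2 := sq_sum_le_card_mul_sum_sq
      _ ≤ n ^ 2 * (2 * numCopies H A + T) := Nat.mul_le_mul hQcard hcop
  have := easy_arith n K (numDiff A B) T (numCopies H A) hN h1 h2 h3
  simpa using this

end Vale.Agent.Lib.P037
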