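import Vale.Agent.Lib.P037.NewTwo
import Vale.Agent.Lib.P037.Easy

namespace Vale.Agent.Lib.P037

lemma pr_TTTT : PolyRemoval ![![true, true], ![true, true]] := polyRemoval_equalRows _ _ rowFix_tt

lemma pr_TFTF : PolyRemoval ![![true, false], ![true, false]] :=
  polyRemoval_equalRows _ _ rowFix_tf

lemma pr_FFFF : PolyRemoval ![![false, false], ![false, false]] := by
  have h := polyRemoval_compl _ pr_TTTT
  have e : mcompl ![![true, true], ![true, true]] = ![![false, false], ![false, false]] := by decide
  rwa [e] at h

lemma pr_FTFT : PolyRemoval ![![false, true], ![false, true]] := by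
  have h := polyRemoval_compl _ pr_TFTF
  have e : mcompl ![![true, false], ![true, false]] = ![![false, true], ![false, true]] := by decide
  rwa [e] at h

lemma pr_TTFF : PolyRemoval ![![true, true], ![false, false]] := by
  have h := polyRemoval_trans _ pr_TFTF
  have e : mtrans ![![true, false], ![true, false]] = ![![true, true], ![false, false]] := by decide
  rwa [e] at h

lemma pr_FFTT : PolyRemoval ![![false, false], ![true, true]] := by
  have h := polyRemoval_trans _ pr_FTFT
  have e : mtrans ![![false, true], ![false, true]] = ![![false, false], ![true, true]] := by decide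
  rwa [e] at h

/-- polynomial removal for every 2 x 2 pattern -/
theorem polyRemoval_two (H : Fin 2 → Fin 2 → Bool) : PolyRemoval H := by
  rw [eq_mk H]
  cases H 0 0 <;> cases H 0 1 <;> cases H 1 0 <;> cases H 1 1
  all_goals first
    | exact pr_TTTT
    | exact pr_TFTF
    | exact pr_FFFF
    | exact pr_FTFT
    | exact pr_TTFF
    | exact pr_FFTT
    | exact pr_TTTF
    | exact pr_TFTT
    | exact pr_TTFT
    | exact pr_FTTT
    | exact pr_FFFT
    | exact pr_FTFF
    | exact pr_FFTF
    | exact pr_TFFF
    | exact pr_TFFT
    | exact pr_FTTF

end Vale.Agent.Lib.P037
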