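import Mathlib

namespace Vale.Agent.Lib.P037

lemma arith (n g M K NNv h0 nb hamv t J Q : ℕ) (hg : 1 ≤ g) (hM : M = 4096 * K) (hK : 1 ≤ K)
    (hX1 : g * M ^ 11 ≤ n) (hX2 : n ≤ 2 * (g * M ^ 11)) (ht : t ≤ 3 * M ^ 4) (hJ : J ≤ 3 * M)
    (hN : M ^ 45 * NNv < n ^ 4) (hQ : Q * g ^ 3 ≤ NNv)
    (h1 : (g * M ^ 9) * (g * M ^ 6) * h0 ≤ 2 * ((g * M ^ 9) * (g * M ^ 6) ^ 2 * (n * t)
      + (g * M ^ 9) ^ 2 * (n * (g * M ^ 7)) + 4 * NNv + 2 * (g * M ^ 7) ^ 2 * n ^ 2))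
    (h2 : M ^ 6 * nb ≤ t * n)
    (h3 : hamv ≤ h0 + n * (t * (M ^ 6 * g)) + n * (nb + (t * J) ^ 2 * (Q + g))) :
    K * hamv ≤ n ^ 2 := by
  have hM1 : 1 ≤ M := by omega
  set X := g * M ^ 11 with hX
  have a1 : NNv * M < 16 * g ^ 4 := by
    have e1 : n ^ 4 ≤ (2 * X) ^ 4 := by gcongr
    have e2 : M ^ 44 * (NNv * M) < M ^ 44 * (16 * g ^ 4) := by
      calc M ^ 44 * (NNv * M) = M ^ 45 * NNv := by ring
        _ < n ^ 4 := hN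
        _ ≤ (2 * X) ^ 4 := e1
        _ = M ^ 44 * (16 * g ^ 4) := by rw [hX]; ring
    exact Nat.lt_of_mul_lt_mul_left e2
  have a2 : Q * M < 16 * g := by
    have e2 : g ^ 3 * (Q * M) < g ^ 3 * (16 * g) := by
      calc g ^ 3 * (Q * M) = (Q * g ^ 3) * M := by ring
        _ ≤ NNv * M := by gcongr
        _ < 16 * g ^ 4 := a1
        _ = g ^ 3 * (16 * g) := by ring
    exact Nat.lt_of_mul_lt_mul_left e2
  have b1 : M * h0 ≤ 160 * X ^ 2 := by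
    have hpos : 0 < g ^ 2 * M ^ 15 := by positivity
    apply Nat.le_of_mul_le_mul_left _ hpos
    have T1 : M * ((g * M ^ 9) * (g * M ^ 6) ^ 2 * (n * t)) ≤ 6 * (g ^ 2 * M ^ 15 * X ^ 2) := by
      calc M * ((g * M ^ 9) * (g * M ^ 6) ^ 2 * (n * t))
          ≤ M * ((g * M ^ 9) * (g * M ^ 6) ^ 2 * ((2 * X) * (3 * M ^ 4))) := by gcongr
        _ = 6 * (g ^ 2 * M ^ 15 * X ^ 2) := by rw [hX]; ring
    have T2 : M * ((g * M ^ 9) ^ 2 * (n * (g * M ^ 7))) ≤ 2 * (g ^ 2 * M ^ 15 * X ^ 2) := by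
      calc M * ((g * M ^ 9) ^ 2 * (n * (g * M ^ 7)))
          ≤ M * ((g * M ^ 9) ^ 2 * ((2 * X) * (g * M ^ 7))) := by gcongr
        _ = 2 * (g ^ 2 * M ^ 15 * X ^ 2) := by rw [hX]; ring
    have T3 : M * (4 * NNv) ≤ 64 * (g ^ 2 * M ^ 15 * X ^ 2) := by
      have e3 : g ^ 4 ≤ g ^ 2 * M ^ 15 * X ^ 2 := by
        calc g ^ 4 = g ^ 4 * 1 := by ring
          _ ≤ g ^ 4 * M ^ 37 := by
            gcongr
            exact Nat.one_le_pow _ _ hM1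
          _ = g ^ 2 * M ^ 15 * X ^ 2 := by rw [hX]; ring
      nlinarith
    have T4 : M * (2 * (g * M ^ 7) ^ 2 * n ^ 2) ≤ 8 * (g ^ 2 * M ^ 15 * X ^ 2) := by
      calc M * (2 * (g * M ^ 7) ^ 2 * n ^ 2) ≤ M * (2 * (g * M ^ 7) ^ 2 * (2 * X) ^ 2) := by gcongr
        _ = 8 * (g ^ 2 * M ^ 15 * X ^ 2) := by ring
    calc g ^ 2 * M ^ 15 * (M * h0) = M * ((g * M ^ 9) * (g * M ^ 6) * h0) := by ring
      _ ≤ M * (2 * ((g * M ^ 9) * (g * M ^ 6) ^ 2 * (n * t)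
      + (g * M ^ 9) ^ 2 * (n * (g * M ^ 7)) + 4 * NNv + 2 * (g * M ^ 7) ^ 2 * n ^ 2)) := by gcongr
      _ = 2 * (M * ((g * M ^ 9) * (g * M ^ 6) ^ 2 * (n * t))
          + M * ((g * M ^ 9) ^ 2 * (n * (g * M ^ 7))) + M * (4 * NNv)
          + M * (2 * (g * M ^ 7) ^ 2 * n ^ 2)) := by ring
      _ ≤ 2 * (6 * (g ^ 2 * M ^ 15 * X ^ 2) + 2 * (g ^ 2 * M ^ 15 * X ^ 2)
          + 64 * (g ^ 2 * M ^ 15 * X ^ 2) + 8 * (g ^ 2 * M ^ 15 * X ^ 2)) := by gcongr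
      _ = g ^ 2 * M ^ 15 * (160 * X ^ 2) := by ring
  have b2 : M * (n * (t * (M ^ 6 * g))) ≤ 6 * X ^ 2 := by
    calc M * (n * (t * (M ^ 6 * g))) ≤ M * ((2 * X) * ((3 * M ^ 4) * (M ^ 6 * g))) := by gcongr
      _ = 6 * X ^ 2 := by rw [hX]; ring
  have b3 : M * (n * nb) ≤ 12 * X ^ 2 := by
    have e1 : M ^ 2 * nb ≤ 6 * X := by
      have hpos : 0 < M ^ 4 := by positivity
      apply Nat.le_of_mul_le_mul_left _ hpos
      calc M ^ 4 * (M ^ 2 * nb) = M ^ 6 * nb := by ring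
        _ ≤ t * n := h2
        _ ≤ (3 * M ^ 4) * (2 * X) := by gcongr
        _ = M ^ 4 * (6 * X) := by ring
    calc M * (n * nb) = (M * 1) * nb * n := by ring
      _ ≤ (M * M) * nb * n := by gcongr
      _ = (M ^ 2 * nb) * n := by ring
      _ ≤ (6 * X) * (2 * X) := by gcongr
      _ = 12 * X ^ 2 := by ring
  have b4 : M * (n * ((t * J) ^ 2 * g)) ≤ 162 * X ^ 2 := by
    calc M * (n * ((t * J) ^ 2 * g)) ≤ M * ((2 * X) * (((3 * M ^ 4) * (3 * M)) ^ 2 * g)) := by gcongr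
      _ = 162 * X ^ 2 := by rw [hX]; ring
  have b5 : M * (n * ((t * J) ^ 2 * Q)) ≤ 2592 * X ^ 2 := by
    calc M * (n * ((t * J) ^ 2 * Q)) ≤ M * ((2 * X) * (((3 * M ^ 4) * (3 * M)) ^ 2 * Q)) := by gcongr
      _ = 162 * X * M ^ 10 * (Q * M) := by ring
      _ ≤ 162 * X * M ^ 10 * (16 * g) := by gcongr
      _ = 2592 * X * (g * (M ^ 10 * 1)) := by ring
      _ ≤ 2592 * X * (g * (M ^ 10 * M)) := by gcongr
      _ = 2592 * X ^ 2 := by rw [hX]; ring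
  have tot : M * hamv ≤ 2932 * X ^ 2 := by
    calc M * hamv ≤ M * (h0 + n * (t * (M ^ 6 * g)) + n * (nb + (t * J) ^ 2 * (Q + g))) := by gcongr
      _ = M * h0 + M * (n * (t * (M ^ 6 * g))) + M * (n * nb) + M * (n * ((t * J) ^ 2 * Q))
          + M * (n * ((t * J) ^ 2 * g)) := by ring
      _ ≤ 160 * X ^ 2 + 6 * X ^ 2 + 12 * X ^ 2 + 2592 * X ^ 2 + 162 * X ^ 2 := by gcongr
      _ = 2932 * X ^ 2 := by ring
  have hXn : X ^ 2 ≤ n ^ 2 := by gcongr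
  rw [hM] at tot
  nlinarith

end Vale.Agent.Lib.P037
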