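import Mathlib

/-!
Definitions for problem P037 (ordered binary matrix removal).
Binary matrices are functions `Fin n → Fin n → Bool` (row index first).
-/

namespace Vale.Agent.Lib.P037

/-- `p = (rows, cols)` is an ordered copy of the `k × k` pattern `H` in the `n × n` matrix `A`:
strictly increasing row indices, strictly increasing column indices, and all `k ^ 2` entries
(zeros as well as ones) agree with `H`. -/
def IsCopy {k n : ℕ} (H : Fin k → Fin k → Bool) (A : Fin n → Fin n → Bool)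
    (p : (Fin k → Fin n) × (Fin k → Fin n)) : Prop :=
  StrictMono p.1 ∧ StrictMono p.2 ∧ ∀ i j, A (p.1 i) (p.2 j) = H i j

/-- `N_H(A)`: the number of ordered copies of `H` in `A`. -/
noncomputable def numCopies {k n : ℕ} (H : Fin k → Fin k → Bool) (A : Fin n → Fin n → Bool) : ℕ :=
  Set.ncard {p : (Fin k → Fin n) × (Fin k → Fin n) | IsCopy H A p}

/-- `A` is `H`-free. -/
def IsFree {k n : ℕ} (H : Fin k → Fin k → Bool) (A : Fin n → Fin n → Bool) : Prop :=
  ∀ p : (Fin k → Fin n) × (Fin k → Fin n), ¬ IsCopy H A p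

/-- the number of entries in which `A` and `B` differ -/
noncomputable def numDiff {n : ℕ} (A B : Fin n → Fin n → Bool) : ℕ :=
  Set.ncard {q : Fin n × Fin n | A q.1 q.2 ≠ B q.1 q.2}

/-- `dist_H(A) ≥ ε`: every `H`-free `n × n` matrix differs from `A` in at least `ε n ^ 2`
entries. -/
def IsFar {k n : ℕ} (H : Fin k → Fin k → Bool) (A : Fin n → Fin n → Bool) (ε : ℝ) : Prop :=
  ∀ B : Fin n → Fin n → Bool, IsFree H B → ε * (n : ℝ) ^ 2 ≤ (numDiff A B : ℝ)

/-- The polynomial removal property of the pattern `H` (the statement of Q1 for this `H`). -/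
def PolyRemoval {k : ℕ} (H : Fin k → Fin k → Bool) : Prop :=
  ∃ c C : ℝ, 0 < c ∧ 0 < C ∧ ∀ n : ℕ, 1 ≤ n → ∀ ε : ℝ, 0 < ε → ε < 1 →
    ∀ A : Fin n → Fin n → Bool, IsFar H A ε →
      c * ε ^ C * (n : ℝ) ^ (2 * k) ≤ (numCopies H A : ℝ)

end Vale.Agent.Lib.P037
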