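import Mathlib

/-!
Generic counting lemmas used for the ordered 2 x 2 removal lemma (problem P037).
-/

namespace Vale.Agent.Lib.P037

open Finset

section Rank

variable {α : Type*} [DecidableEq α]

/-- number of elements of `I` whose key is strictly larger than the key of `r` -/
def rk (I : Finset α) (key : α → ℕ) (r : α) : ℕ :=
  (I.filter (fun r' => key r < key r')).card

lemma rk_anti (I : Finset α) (key : α → ℕ) {r r' : α} (h : key r ≤ key r') :
    rk I key r' ≤ rk I key r := by
  unfold rk
  apply card_le_card
  intro x hx
  simp only [mem_filter] at hx ⊢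
  exact ⟨hx.1, lt_of_le_of_lt h hx.2⟩

lemma rk_lt_of_key_lt (I : Finset α) (key : α → ℕ) {r r' : α} (hr' : r' ∈ I)
    (h : key r < key r') : rk I key r' < rk I key r := by
  unfold rk
  apply card_lt_card
  refine ⟨?_, ?_⟩
  · intro x hx
    simp only [mem_filter] at hx ⊢
    exact ⟨hx.1, lt_trans h hx.2⟩
  · intro hsub
    have : r' ∈ I.filter (fun x => key r' < key x) := hsub (by simp [hr', h])
    simp at this

lemma key_lt_of_rk_lt (I : Finset α) (key : α → ℕ) {r r' : α}
    (h : rk I key r' < rk I key r) : key r < key r' := by
  by_contra hcon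
  push_neg at hcon
  have := rk_anti I key hcon
  omega

lemma rk_lt_card (I : Finset α) (key : α → ℕ) {r : α} (hr : r ∈ I) : rk I key r < I.card := by
  unfold rk
  apply card_lt_card
  refine ⟨filter_subset _ _, ?_⟩
  intro hsub
  have : r ∈ I.filter (fun x => key r < key x) := hsub hr
  simp at this

lemma rk_injOn (I : Finset α) (key : α → ℕ) (hinj : Set.InjOn key I) :
    Set.InjOn (rk I key) I := by
  intro r hr r' hr' h
  by_contra hne
  have hk : key r ≠ key r' := fun hk => hne (hinj hr hr' hk)
  rcases lt_or_gt_of_ne hk with h1 | h1
  · have := rk_lt_of_key_lt I key hr' h1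
    omega
  · have := rk_lt_of_key_lt I key hr h1
    omega

lemma image_rk (I : Finset α) (key : α → ℕ) (hinj : Set.InjOn key I) :
    I.image (rk I key) = range I.card := by
  apply eq_of_subset_of_card_le
  · intro x hx
    simp only [mem_image] at hx
    obtain ⟨r, hr, rfl⟩ := hx
    simpa using rk_lt_card I key hr
  · rw [card_image_of_injOn (rk_injOn I key hinj)]
    simp

lemma card_filter_rk_lt (I : Finset α) (key : α → ℕ) (hinj : Set.InjOn key I) (k : ℕ)
    (hk : k ≤ I.card) : (I.filter (fun r => rk I key r < k)).card = k := by
  have h1 : (I.filter (fun r => rk I key r < k)).image (rk I key) = range k := by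
    ext x
    simp only [mem_image, mem_filter, mem_range]
    constructor
    · rintro ⟨r, ⟨_, hr⟩, rfl⟩
      exact hr
    · intro hx
      have : x ∈ I.image (rk I key) := by
        rw [image_rk I key hinj]
        simp only [mem_range]
        omega
      simp only [mem_image] at this
      obtain ⟨r, hr, rfl⟩ := this
      exact ⟨r, ⟨hr, hx⟩, rfl⟩
  have h2 : ((I.filter (fun r => rk I key r < k)).image (rk I key)).card
      = (I.filter (fun r => rk I key r < k)).card := by
    apply card_image_of_injOn
    intro a ha b hb hab
    simp only [coe_filter, Set.mem_setOf_eq] at ha hb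
    exact rk_injOn I key hinj ha.1 hb.1 hab
  rw [← h2, h1]
  simp

lemma card_filter_rk_lt_le (I : Finset α) (key : α → ℕ) (hinj : Set.InjOn key I) (k : ℕ) :
    (I.filter (fun r => rk I key r < k)).card ≤ k := by
  rcases le_total k I.card with h | h
  · exact le_of_eq (card_filter_rk_lt I key hinj k h)
  · exact le_trans (card_filter_le _ _) h

end Rank

lemma lin_sq (l x : ℕ) : l * x ≤ l ^ 2 + x ^ 2 := by
  nlinarith [sq_nonneg ((l : ℤ) - x)]

/-- cardinality of a filtered product as an iterated sum -/
lemma card_filter_product {α β : Type*} (S : Finset α) (T : Finset β) (P : α → β → Prop)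
    [∀ a b, Decidable (P a b)] :
    ((S ×ˢ T).filter (fun p => P p.1 p.2)).card = ∑ a ∈ S, (T.filter (fun b => P a b)).card := by
  simp only [card_filter]
  rw [sum_product]

lemma card_filter_product' {α β : Type*} (S : Finset α) (T : Finset β) (P : α → β → Prop)
    [∀ a b, Decidable (P a b)] :
    ((S ×ˢ T).filter (fun p => P p.1 p.2)).card = ∑ b ∈ T, (S.filter (fun a => P a b)).card := by
  simp only [card_filter]
  rw [sum_product_right]

section Strip

variable {n : ℕ}

/-- a strip of `L` consecutive indices has at most `L` elements -/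
lemma card_strip_le (L : ℕ) (hL : 0 < L) (a : ℕ) :
    ((univ : Finset (Fin n)).filter (fun r => r.val / L = a)).card ≤ L := by
  have : ((univ : Finset (Fin n)).filter (fun r => r.val / L = a)).card ≤ (range L).card := by
    apply card_le_card_of_injOn (fun r => r.val % L)
    · intro r _
      simpa using Nat.mod_lt _ hL
    · intro r hr r' hr' h
      simp only [coe_filter, mem_univ, true_and, Set.mem_setOf_eq] at hr hr'
      apply Fin.ext
      have h1 := Nat.div_add_mod r.val L
      have h2 := Nat.div_add_mod r'.val L
      simp only at h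
      rw [hr] at h1
      rw [hr', ← h] at h2
      omega
  simpa using this

lemma strip_lt (L : ℕ) (hL : 0 < L) (r : Fin n) : r.val / L < n / L + 1 := by
  have : r.val / L ≤ n / L := Nat.div_le_div_right (le_of_lt r.isLt)
  omega

end Strip

end Vale.Agent.Lib.P037
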