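import Vale.Agent.Lib.P037.Core
import Vale.Agent.Lib.P037.Defs

namespace Vale.Agent.Lib.P037

open Finset

variable {n : ℕ}

/-- relabel the two symbols so that `b` becomes `true` -/
def flip (b : Bool) (A : Fin n → Fin n → Bool) (r c : Fin n) : Bool := decide (A r c = b)

lemma flip_flip (b : Bool) (A : Fin n → Fin n → Bool) : flip b (flip b A) = A := by
  funext r c
  unfold flip
  cases b <;> cases A r c <;> rfl

lemma numDiff_eq_ham (b : Bool) (A B : Fin n → Fin n → Bool) :
    numDiff A B = ham (flip b A) (flip b B) := by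
  classical
  unfold numDiff ham
  rw [← card_filter_product' (univ : Finset (Fin n)) (univ : Finset (Fin n))
    (fun r c => flip b A r c ≠ flip b B r c), Set.ncard_eq_toFinset_card']
  congr 1
  ext q
  rw [Set.mem_toFinset, mem_filter]
  simp only [mem_product, mem_univ, true_and]
  show (A q.1 q.2 ≠ B q.1 q.2) ↔ (flip b A q.1 q.2 ≠ flip b B q.1 q.2)
  unfold flip
  generalize A q.1 q.2 = x
  generalize B q.1 q.2 = y
  cases b <;> cases x <;> cases y <;> simp

lemma free_of_freeI (H : Fin 2 → Fin 2 → Bool) (h1 : H 0 0 = H 1 1) (h2 : H 0 1 = H 1 0)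
    (h3 : H 0 0 ≠ H 0 1) (B : Fin n → Fin n → Bool) (hB : FreeI (flip (H 0 0) B)) :
    IsFree H B := by
  intro p hp
  obtain ⟨hr, hc, hval⟩ := hp
  apply hB (p.1 0) (p.1 1) (p.2 0) (p.2 1) (hr (by decide)) (hc (by decide))
  unfold flip
  rw [hval, hval, hval, hval]
  refine ⟨by simp, ?_, ?_, ?_⟩
  · simpa using fun h => h3 h.symm
  · rw [← h2]
    simpa using fun h => h3 h.symm
  · simp [h1]

lemma NN_le_numCopies (H : Fin 2 → Fin 2 → Bool) (h1 : H 0 0 = H 1 1) (h2 : H 0 1 = H 1 0)
    (h3 : H 0 0 ≠ H 0 1) (A : Fin n → Fin n → Bool) :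
    NN (flip (H 0 0) A) ≤ numCopies H A := by
  classical
  unfold numCopies
  rw [Set.ncard_eq_toFinset_card']
  have hmaps : Set.MapsTo (fun p : (Fin 2 → Fin n) × (Fin 2 → Fin n) => (p.2 0, p.2 1))
      ({p : (Fin 2 → Fin n) × (Fin 2 → Fin n) | IsCopy H A p}.toFinset :
        Finset ((Fin 2 → Fin n) × (Fin 2 → Fin n)))
      ((univ : Finset (Fin n)) ×ˢ (univ : Finset (Fin n)) : Finset (Fin n × Fin n)) := by
    intro p _
    simp
  rw [card_eq_sum_card_fiberwise hmaps, sum_product]
  unfold NN
  apply sum_le_sum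
  intro c _
  apply sum_le_sum
  intro c' _
  split_ifs with hcc
  · unfold vv
    apply card_le_card_of_injOn
      (fun p : Fin n × Fin n => ((![p.1, p.2] : Fin 2 → Fin n), (![c, c'] : Fin 2 → Fin n)))
    · intro p hp
      simp only [coe_filter, mem_product, OO, mem_filter, mem_univ, true_and, flip,
        decide_eq_true_eq, decide_eq_false_iff_not, Set.mem_setOf_eq] at hp
      obtain ⟨⟨⟨e11, e12⟩, e22, e21⟩, hlt⟩ := hp
      simp only [coe_filter, Set.mem_toFinset, Set.mem_setOf_eq, Matrix.cons_val_zero,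
        Matrix.cons_val_one, and_true]
      refine ⟨?_, ?_, ?_⟩
      · intro i j hij
        fin_cases i <;> fin_cases j <;> simp_all
      · intro i j hij
        fin_cases i <;> fin_cases j <;> simp_all
      · have hb : ∀ x : Bool, x ≠ H 0 0 → x = H 0 1 := by
          intro x hx
          revert hx h3
          cases x <;> cases H 0 0 <;> cases H 0 1 <;> simp
        intro i j
        fin_cases i <;> fin_cases j
        · simpa using e11
        · simpa using hb _ e12
        · simpa [← h2] using hb _ e21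
        · simpa [← h1] using e22
    · intro p _ q _ h
      simp only [Prod.mk.injEq, and_true] at h
      have e0 := congrFun h 0
      have e1 := congrFun h 1
      simp only [Matrix.cons_val_zero, Matrix.cons_val_one] at e0 e1
      exact Prod.ext e0 e1
  · exact Nat.zero_le _

end Vale.Agent.Lib.P037
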