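import Vale.Agent.Lib.P037.Basic

namespace Vale.Agent.Lib.P037

open Finset

variable {α : Type*} [DecidableEq α]

/-- Sorting one 0/1 column along a linear order: the number of misplaced entries is twice the
number `x` of misplaced ones, and `x ^ 2` is at most the number of inversions. -/
lemma col_sort (I : Finset α) (key : α → ℕ) (hinj : Set.InjOn key I) (f : α → Bool) :
    (I.filter (fun r => f r ≠ decide (rk I key r < (I.filter (fun r => f r = true)).card))).card
      = 2 * (I.filter (fun r => f r = true ∧
          (I.filter (fun r => f r = true)).card ≤ rk I key r)).card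
    ∧ ((I.filter (fun r => f r = true ∧
          (I.filter (fun r => f r = true)).card ≤ rk I key r)).card) ^ 2
      ≤ ((I ×ˢ I).filter (fun p => key p.1 < key p.2 ∧ f p.1 = true ∧ f p.2 = false)).card := by
  set k := (I.filter (fun r => f r = true)).card with hk
  set X := I.filter (fun r => f r = true ∧ k ≤ rk I key r) with hX
  set Z := I.filter (fun r => f r = false ∧ rk I key r < k) with hZ
  set W := I.filter (fun r => f r = true ∧ rk I key r < k) with hW
  have hkI : k ≤ I.card := card_filter_le _ _
  have h1 : (I.filter (fun r => rk I key r < k)).card = k := card_filter_rk_lt I key hinj k hkI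
  have h2 : (I.filter (fun r => rk I key r < k)).card = W.card + Z.card := by
    rw [← card_union_of_disjoint]
    · congr 1
      ext r
      simp only [hW, hZ, mem_filter, mem_union]
      cases f r <;> simp
    · rw [disjoint_left]
      intro r hr hr'
      simp only [hW, hZ, mem_filter] at hr hr'
      rw [hr.2.1] at hr'
      simp at hr'
  have h3 : k = W.card + X.card := by
    rw [hk, ← card_union_of_disjoint]
    · congr 1
      ext r
      simp only [hW, hX, mem_filter, mem_union]
      constructor
      · rintro ⟨hr, hf⟩
        rcases lt_or_ge (rk I key r) k with h | h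
        · exact Or.inl ⟨hr, hf, h⟩
        · exact Or.inr ⟨hr, hf, h⟩
      · rintro (⟨hr, hf, _⟩ | ⟨hr, hf, _⟩) <;> exact ⟨hr, hf⟩
    · rw [disjoint_left]
      intro r hr hr'
      simp only [hW, hX, mem_filter] at hr hr'
      omega
  have hXZ : X.card = Z.card := by omega
  constructor
  · have : I.filter (fun r => f r ≠ decide (rk I key r < k)) = X ∪ Z := by
      ext r
      simp only [hX, hZ, mem_filter, mem_union]
      by_cases hlt : rk I key r < k
      · cases hf : f r <;> simp [hlt]
      · cases hf : f r <;> simp [hlt]
        omega
    rw [this, card_union_of_disjoint]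
    · omega
    · rw [disjoint_left]
      intro r hr hr'
      simp only [hX, hZ, mem_filter] at hr hr'
      omega
  · have : X ×ˢ Z ⊆ (I ×ˢ I).filter (fun p => key p.1 < key p.2 ∧ f p.1 = true ∧ f p.2 = false) := by
      intro p hp
      simp only [hX, hZ, mem_product, mem_filter] at hp ⊢
      obtain ⟨⟨h1, h2, h3⟩, h4, h5, h6⟩ := hp
      refine ⟨⟨h1, h4⟩, ?_, h2, h5⟩
      apply key_lt_of_rk_lt I key
      omega
    have h4 := card_le_card this
    rw [card_product] at h4
    rw [sq]
    calc X.card * X.card = X.card * Z.card := by rw [hXZ]
      _ ≤ _ := h4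

end Vale.Agent.Lib.P037
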