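import Vale.Agent.Lib.P037.DelSet

namespace Vale.Agent.Lib.P037

open Finset

variable {n : ℕ}

/-- columns having, in some strip, a scaled count congruent to `i` mod `s` -/
noncomputable def NBset (L g s i : ℕ) (A : Fin n → Fin n → Bool) : Finset (Fin n) :=
  open scoped Classical in
  univ.filter (fun c => ∃ a ∈ range (n / L + 1), kk L A a c / g % s = i)

lemma exists_offset (L g s : ℕ) (hs : 0 < s) (A : Fin n → Fin n → Bool) :
    ∃ i < s, s * (NBset L g s i A).card ≤ (n / L + 1) * n := by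
  classical
  set P := range (n / L + 1) ×ˢ (univ : Finset (Fin n)) with hP
  have hPcard : P.card = (n / L + 1) * n := by simp [hP]
  have hmaps : Set.MapsTo (fun q : ℕ × Fin n => kk L A q.1 q.2 / g % s) (P : Finset (ℕ × Fin n))
      (range s : Finset ℕ) := by
    intro q _
    simpa using Nat.mod_lt _ hs
  have hsum := card_eq_sum_card_fiberwise hmaps
  have hex : ∃ i ∈ range s, s * (P.filter (fun q => kk L A q.1 q.2 / g % s = i)).card
      ≤ (n / L + 1) * n := by
    apply exists_le_of_sum_le (by simpa using hs.ne')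
    rw [← mul_sum, ← hsum, hPcard]
    simp
  obtain ⟨i, hi, hle⟩ := hex
  refine ⟨i, by simpa using hi, le_trans (Nat.mul_le_mul_left s ?_) hle⟩
  have hsub : NBset L g s i A ⊆ (P.filter (fun q => kk L A q.1 q.2 / g % s = i)).image Prod.snd := by
    intro c hc
    simp only [NBset, mem_filter, mem_univ, true_and] at hc
    obtain ⟨a, ha, hac⟩ := hc
    simp only [mem_image, mem_filter, hP, mem_product, mem_univ, and_true]
    exact ⟨(a, c), ⟨ha, hac⟩, rfl⟩
  exact le_trans (card_le_card hsub) card_image_le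

/-- first family of columns attached to a pair of (strip, level) -/
noncomputable def CC1 (L g s i : ℕ) (A : Fin n → Fin n → Bool) (τ : (ℕ × ℕ) × (ℕ × ℕ)) : Finset (Fin n) :=
  univ.filter (fun c => c ∉ NBset L g s i A ∧ τ.1.2 * s + i ≤ kk L A τ.1.1 c / g
    ∧ kk L A τ.2.1 c / g < τ.2.2 * s + i)

/-- second family of columns attached to a pair of (strip, level) -/
noncomputable def CC2 (L g s i : ℕ) (A : Fin n → Fin n → Bool) (τ : (ℕ × ℕ) × (ℕ × ℕ)) : Finset (Fin n) :=
  univ.filter (fun c => c ∉ NBset L g s i A ∧ kk L A τ.1.1 c / g < τ.1.2 * s + i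
    ∧ τ.2.2 * s + i ≤ kk L A τ.2.1 c / g)

/-- index set of pairs of (strip, level) with increasing strips -/
def TT (t J : ℕ) : Finset ((ℕ × ℕ) × (ℕ × ℕ)) :=
  ((range t ×ˢ range J) ×ˢ (range t ×ˢ range J)).filter (fun τ => τ.1.1 < τ.2.1)

lemma card_TT_le (t J : ℕ) : (TT t J).card ≤ (t * J) ^ 2 := by
  unfold TT
  refine le_trans (card_filter_le _ _) ?_
  simp [sq]

/-- all deleted columns -/
noncomputable def Del (L g s i p0 J : ℕ) (A : Fin n → Fin n → Bool) : Finset (Fin n) :=
  NBset L g s i A ∪ (TT (n / L + 1) J).biUnion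
    (fun τ => delSet (CC1 L g s i A τ) (CC2 L g s i A τ) p0)

/-- the final matrix -/
noncomputable def BB (L g s i p0 J : ℕ) (A : Fin n → Fin n → Bool) (r c : Fin n) : Bool :=
  decide (c ∉ Del L g s i p0 J A) && B1 L g s i A r c

lemma gap_of_mem (L g s i : ℕ) (hg : 0 < g) (hi : i < s) (A : Fin n → Fin n → Bool)
    {a j : ℕ} (ha : a < n / L + 1) {c1 c2 : Fin n} (h1 : c1 ∉ NBset L g s i A)
    (h2 : j * s + i ≤ kk L A a c1 / g) (h3 : kk L A a c2 / g < j * s + i) :
    kk L A a c2 + g ≤ kk L A a c1 := by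
  have hne : kk L A a c1 / g % s ≠ i := by
    intro h
    apply h1
    simp only [NBset, mem_filter, mem_univ, true_and]
    exact ⟨a, by simpa using ha, h⟩
  have hmod : (j * s + i) % s = i := by
    rw [Nat.mul_add_mod_self_right, Nat.mod_eq_of_lt hi]
  have hne2 : j * s + i ≠ kk L A a c1 / g := by
    intro h
    rw [← h] at hne
    exact hne hmod
  have h4 : j * s + i + 1 ≤ kk L A a c1 / g := by omega
  rw [Nat.le_div_iff_mul_le hg] at h4
  rw [Nat.div_lt_iff_lt_mul hg] at h3
  have h5 : (j * s + i + 1) * g = (j * s + i) * g + g := by ring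
  omega

lemma e_bound (L g s i J : ℕ) (hg : 0 < g) (hi : i < s) (A : Fin n → Fin n → Bool)
    (τ : (ℕ × ℕ) × (ℕ × ℕ)) (hτ : τ ∈ TT (n / L + 1) J) :
    ((CC1 L g s i A τ ×ˢ CC2 L g s i A τ).filter (fun p => p.1 < p.2)).card * g ^ 2 ≤ NN A := by
  simp only [TT, mem_filter, mem_product, mem_range] at hτ
  obtain ⟨⟨⟨ha, _⟩, ha', _⟩, haa⟩ := hτ
  refine le_trans ?_ (sum_vv_le A ((CC1 L g s i A τ ×ˢ CC2 L g s i A τ).filter (fun p => p.1 < p.2))
    (fun p hp => (mem_filter.mp hp).2))
  rw [← smul_eq_mul, ← sum_const]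
  apply sum_le_sum
  intro p hp
  simp only [mem_filter, mem_product, CC1, CC2, mem_univ, true_and] at hp
  obtain ⟨⟨⟨h1, h2, h3⟩, h4, h5, h6⟩, _⟩ := hp
  exact evidence L g A haa p.1 p.2 (gap_of_mem L g s i hg hi A ha h1 h2 h5)
    (gap_of_mem L g s i hg hi A ha' h4 h6 h3)

lemma card_Del_le (L g s i p0 J : ℕ) (hg : 0 < g) (hi : i < s) (hp0 : 0 < p0)
    (A : Fin n → Fin n → Bool) :
    (Del L g s i p0 J A).card
      ≤ (NBset L g s i A).card + ((n / L + 1) * J) ^ 2 * (NN A / g ^ 2 / p0 + p0) := by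
  classical
  unfold Del
  refine le_trans (card_union_le _ _) (Nat.add_le_add_left ?_ _)
  refine le_trans card_biUnion_le ?_
  have hterm : ∀ τ ∈ TT (n / L + 1) J,
      (delSet (CC1 L g s i A τ) (CC2 L g s i A τ) p0).card ≤ NN A / g ^ 2 / p0 + p0 := by
    intro τ hτ
    refine le_trans (delSet_card _ _ p0 hp0) (Nat.add_le_add_right ?_ _)
    apply Nat.div_le_div_right
    rw [Nat.le_div_iff_mul_le (by positivity)]
    exact e_bound L g s i J hg hi A τ hτ
  refine le_trans (sum_le_sum hterm) ?_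
  simp only [sum_const, smul_eq_mul]
  exact Nat.mul_le_mul_right _ (card_TT_le _ _)

/-- no ordered copy of the 2 x 2 identity pattern -/
def FreeI (B : Fin n → Fin n → Bool) : Prop :=
  ∀ r1 r2 c1 c2 : Fin n, r1 < r2 → c1 < c2 →
    ¬ (B r1 c1 = true ∧ B r1 c2 = false ∧ B r2 c1 = false ∧ B r2 c2 = true)

lemma BB_free (L g s i p0 J : ℕ) (hL : 0 < L) (A : Fin n → Fin n → Bool)
    (hJ : ∀ r, jj L g s i A r < J) : FreeI (BB L g s i p0 J A) := by
  intro r1 r2 c1 c2 hr hc ⟨h11, h12, h21, h22⟩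
  unfold BB at h11 h12 h21 h22
  simp only [Bool.and_eq_true, decide_eq_true_eq, Bool.and_eq_false_iff, decide_eq_false_iff_not,
    not_not] at h11 h12 h21 h22
  obtain ⟨hd1, h11⟩ := h11
  obtain ⟨hd2, h22⟩ := h22
  have h12 : B1 L g s i A r1 c2 = false := by
    rcases h12 with h | h
    · exact absurd h hd2
    · exact h
  have h21 : B1 L g s i A r2 c1 = false := by
    rcases h21 with h | h
    · exact absurd h hd1
    · exact h
  unfold B1 at h11 h12 h21 h22
  simp only [decide_eq_true_eq, decide_eq_false_iff_not, not_le] at h11 h12 h21 h22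
  have hle : r1.val / L ≤ r2.val / L := Nat.div_le_div_right (le_of_lt hr)
  rcases Nat.lt_or_ge (r1.val / L) (r2.val / L) with hlt | hge
  · set τ : (ℕ × ℕ) × (ℕ × ℕ) :=
      ((r1.val / L, jj L g s i A r1), (r2.val / L, jj L g s i A r2)) with hτ
    have hτmem : τ ∈ TT (n / L + 1) J := by
      simp only [TT, mem_filter, mem_product, mem_range, hτ]
      exact ⟨⟨⟨strip_lt L hL r1, hJ r1⟩, strip_lt L hL r2, hJ r2⟩, hlt⟩
    have hn1 : c1 ∉ NBset L g s i A := fun h => hd1 (by unfold Del; exact mem_union_left _ h)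
    have hn2 : c2 ∉ NBset L g s i A := fun h => hd2 (by unfold Del; exact mem_union_left _ h)
    have hc1 : c1 ∈ CC1 L g s i A τ := by
      simp only [CC1, mem_filter, mem_univ, true_and, hτ]
      exact ⟨hn1, h11, h21⟩
    have hc2 : c2 ∈ CC2 L g s i A τ := by
      simp only [CC2, mem_filter, mem_univ, true_and, hτ]
      exact ⟨hn2, h12, h22⟩
    rcases delSet_cover _ _ p0 hc1 hc2 hc with h | h
    · apply hd1
      unfold Del
      exact mem_union_right _ (mem_biUnion.mpr ⟨τ, hτmem, h⟩)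
    · apply hd2
      unfold Del
      exact mem_union_right _ (mem_biUnion.mpr ⟨τ, hτmem, h⟩)
  · have heq : r1.val / L = r2.val / L := le_antisymm hle hge
    rw [← heq] at h21 h22
    omega

lemma ham_B1_BB (L g s i p0 J : ℕ) (A : Fin n → Fin n → Bool) :
    ham (B1 L g s i A) (BB L g s i p0 J A) ≤ n * (Del L g s i p0 J A).card := by
  unfold ham
  have hterm : ∀ c ∈ (univ : Finset (Fin n)),
      (univ.filter (fun r => B1 L g s i A r c ≠ BB L g s i p0 J A r c)).card
        ≤ if c ∈ Del L g s i p0 J A then n else 0 := by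
    intro c _
    by_cases hc : c ∈ Del L g s i p0 J A
    · simp only [hc, if_true]
      refine le_trans (card_filter_le _ _) ?_
      simp
    · simp only [hc, if_false, Nat.le_zero, card_eq_zero]
      rw [filter_eq_empty_iff]
      intro r _
      simp [BB, hc]
  refine le_trans (sum_le_sum hterm) ?_
  rw [← sum_filter]
  simp [mul_comm]

lemma ham_triangle (A B C : Fin n → Fin n → Bool) : ham A C ≤ ham A B + ham B C := by
  unfold ham
  rw [← sum_add_distrib]
  apply sum_le_sum
  intro c _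
  rw [← card_union_add_card_inter]
  refine le_trans (card_le_card ?_) (Nat.le_add_right _ _)
  intro r hr
  simp only [mem_filter, mem_univ, true_and, mem_union] at hr ⊢
  by_contra hcon
  push Not at hcon
  exact hr (hcon.1.trans hcon.2)

end Vale.Agent.Lib.P037
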