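import Vale.Agent.Lib.P037.General
import Vale.Agent.Lib.P037.Arith

namespace Vale.Agent.Lib.P037

open Finset

variable {n : ℕ}

/-- Polynomial removal for the 2 x 2 identity pattern, in natural-number form. -/
theorem core (K : ℕ) (hK : 1 ≤ K) (A : Fin n → Fin n → Bool)
    (hfar : ∀ B, FreeI B → n ^ 2 < K * ham A B) : n ^ 4 ≤ (4096 * K) ^ 45 * NN A := by
  set M := 4096 * K with hM
  have hM1 : 1 ≤ M := by omega
  by_contra hcon
  have hN : M ^ 45 * NN A < n ^ 4 := not_le.mp hcon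
  have hNN : 1 ≤ NN A := by
    apply NN_pos_of_not_free
    intro hfree
    have := hfar A hfree
    rw [ham_self] at this
    omega
  by_cases hn : n < M ^ 11
  · have e1 : n ^ 4 ≤ (M ^ 11) ^ 4 := by gcongr
    have e2 : (M ^ 11) ^ 4 * 1 ≤ M ^ 45 * NN A := by
      calc (M ^ 11) ^ 4 * 1 = M ^ 44 * 1 * 1 := by ring
        _ ≤ M ^ 44 * M * NN A := by gcongr
        _ = M ^ 45 * NN A := by ring
    omega
  · have hn' : M ^ 11 ≤ n := not_lt.mp hn
    have hpos : 0 < M ^ 11 := by positivity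
    set g := n / M ^ 11 with hgdef
    have hg : 1 ≤ g := (Nat.one_le_div_iff hpos).mpr hn'
    have hX1 : g * M ^ 11 ≤ n := Nat.div_mul_le_self n (M ^ 11)
    have hX2 : n ≤ 2 * (g * M ^ 11) := by
      have := Nat.lt_mul_div_succ n hpos
      rw [← hgdef] at this
      nlinarith
    obtain ⟨B, h0, nb, hfree, h1, h2, h3⟩ := general_bound (g * M ^ 7) g (M ^ 6) g (g * M ^ 9)
      (g * M ^ 6) (by positivity) hg (by positivity) hg A
    have ht : n / (g * M ^ 7) + 1 ≤ 3 * M ^ 4 := by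
      have e1 : n / (g * M ^ 7) ≤ 2 * M ^ 4 := by
        apply Nat.div_le_of_le_mul
        calc n ≤ 2 * (g * M ^ 11) := hX2
          _ = g * M ^ 7 * (2 * M ^ 4) := by ring
      have e2 : 1 ≤ M ^ 4 := Nat.one_le_pow _ _ hM1
      omega
    have hJ : g * M ^ 7 / g / M ^ 6 + 2 ≤ 3 * M := by
      have e1 : g * M ^ 7 / g = M ^ 7 := Nat.mul_div_cancel_left _ hg
      have e2 : M ^ 7 / M ^ 6 = M := by
        rw [show M ^ 7 = M * M ^ 6 by ring]
        exact Nat.mul_div_cancel _ (by positivity)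
      rw [e1, e2]
      omega
    have hQ : NN A / g ^ 2 / g * g ^ 3 ≤ NN A := by
      calc NN A / g ^ 2 / g * g ^ 3 = (NN A / g ^ 2 / g * g) * g ^ 2 := by ring
        _ ≤ (NN A / g ^ 2) * g ^ 2 := by
          gcongr
          exact Nat.div_mul_le_self _ _
        _ ≤ NN A := Nat.div_mul_le_self _ _
    have := arith n g M K (NN A) h0 nb (ham A B) (n / (g * M ^ 7) + 1) (g * M ^ 7 / g / M ^ 6 + 2)
      (NN A / g ^ 2 / g) hg hM hK hX1 hX2 ht hJ hN hQ h1 h2 h3
    have h4 := hfar B hfree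
    omega

end Vale.Agent.Lib.P037
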