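import Vale.Agent.Lib.P037.Round

namespace Vale.Agent.Lib.P037

open Finset

variable {n : ℕ}

/-- columns to delete so that no element of `C1` precedes an element of `C2` -/
def delSet (C1 C2 : Finset (Fin n)) (p0 : ℕ) : Finset (Fin n) :=
  C1.filter (fun c1 => p0 ≤ (C2.filter (fun c2 => c1 < c2)).card)
    ∪ C2.filter (fun c2 => ∃ c1 ∈ C1, (C2.filter (fun c2 => c1 < c2)).card < p0 ∧ c1 < c2)

lemma delSet_cover (C1 C2 : Finset (Fin n)) (p0 : ℕ) {c1 c2 : Fin n} (h1 : c1 ∈ C1) (h2 : c2 ∈ C2)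
    (h : c1 < c2) : c1 ∈ delSet C1 C2 p0 ∨ c2 ∈ delSet C1 C2 p0 := by
  unfold delSet
  by_cases hp : p0 ≤ (C2.filter (fun c2 => c1 < c2)).card
  · left
    simp only [mem_union, mem_filter]
    exact Or.inl ⟨h1, hp⟩
  · right
    simp only [mem_union, mem_filter]
    exact Or.inr ⟨h2, c1, h1, not_le.mp hp, h⟩

lemma delSet_card (C1 C2 : Finset (Fin n)) (p0 : ℕ) (hp0 : 0 < p0) :
    (delSet C1 C2 p0).card ≤ ((C1 ×ˢ C2).filter (fun p => p.1 < p.2)).card / p0 + p0 := by
  classical
  unfold delSet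
  refine le_trans (card_union_le _ _) ?_
  apply Nat.add_le_add
  · rw [Nat.le_div_iff_mul_le hp0, card_filter_product C1 C2 (fun a b => a < b)]
    calc (C1.filter (fun c1 => p0 ≤ (C2.filter (fun c2 => c1 < c2)).card)).card * p0
        = ∑ _c ∈ C1.filter (fun c1 => p0 ≤ (C2.filter (fun c2 => c1 < c2)).card), p0 := by simp
      _ ≤ ∑ c ∈ C1.filter (fun c1 => p0 ≤ (C2.filter (fun c2 => c1 < c2)).card),
            (C2.filter (fun c2 => c < c2)).card := by
          apply sum_le_sum
          intro c hc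
          simp only [mem_filter] at hc
          exact hc.2
      _ ≤ ∑ c ∈ C1, (C2.filter (fun c2 => c < c2)).card :=
          sum_le_sum_of_subset (filter_subset _ _)
  · set G := C1.filter (fun c1 => (C2.filter (fun c2 => c1 < c2)).card < p0) with hG
    by_cases hne : G.Nonempty
    · have hmem := min'_mem G hne
      have hmin : ∀ c ∈ G, G.min' hne ≤ c := fun c hc => min'_le G c hc
      have hsub : C2.filter (fun c2 => ∃ c1 ∈ C1, (C2.filter (fun c2 => c1 < c2)).card < p0 ∧ c1 < c2)
          ⊆ C2.filter (fun c2 => G.min' hne < c2) := by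
        intro c2 hc2
        simp only [mem_filter] at hc2 ⊢
        obtain ⟨h2, c1, h1, hlt, hc⟩ := hc2
        refine ⟨h2, lt_of_le_of_lt (hmin c1 ?_) hc⟩
        simp only [hG, mem_filter]
        exact ⟨h1, hlt⟩
      have h3 := card_le_card hsub
      have h4 : (C2.filter (fun c2 => G.min' hne < c2)).card < p0 := by
        have := (mem_filter.mp hmem).2
        exact this
      omega
    · have : C2.filter (fun c2 => ∃ c1 ∈ C1, (C2.filter (fun c2 => c1 < c2)).card < p0 ∧ c1 < c2)
          = ∅ := by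
        rw [filter_eq_empty_iff]
        rintro c2 _ ⟨c1, h1, hlt, _⟩
        apply hne
        exact ⟨c1, by simp only [hG, mem_filter]; exact ⟨h1, hlt⟩⟩
      rw [this]
      simp

/-- many rows of a strip see the pattern (1,0) when the column counts differ -/
lemma card_strip_OO (L : ℕ) (A : Fin n → Fin n → Bool) (a : ℕ) (c c' : Fin n) :
    kk L A a c ≤ ((Istrip n L a).filter (fun r => A r c = true ∧ A r c' = false)).card
      + kk L A a c' := by
  unfold kk
  rw [← card_union_of_disjoint]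
  · apply card_le_card
    intro r hr
    simp only [mem_filter, mem_union] at hr ⊢
    cases h : A r c'
    · exact Or.inl ⟨hr.1, hr.2, rfl⟩
    · exact Or.inr ⟨hr.1, rfl⟩
  · rw [disjoint_left]
    intro r hr hr'
    simp only [mem_filter] at hr hr'
    rw [hr.2.2] at hr'
    simp at hr'

lemma evidence (L g : ℕ) (A : Fin n → Fin n → Bool) {a a' : ℕ} (haa : a < a')
    (c1 c2 : Fin n) (h1 : kk L A a c2 + g ≤ kk L A a c1) (h2 : kk L A a' c1 + g ≤ kk L A a' c2) :
    g ^ 2 ≤ vv A c1 c2 := by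
  have e1 := card_strip_OO L A a c1 c2
  have e2 := card_strip_OO L A a' c2 c1
  have hsub : ((Istrip n L a).filter (fun r => A r c1 = true ∧ A r c2 = false))
      ×ˢ ((Istrip n L a').filter (fun r => A r c2 = true ∧ A r c1 = false))
      ⊆ (OO A c1 c2 ×ˢ OO A c2 c1).filter (fun p => p.1 < p.2) := by
    intro p hp
    simp only [mem_product, mem_filter, mem_Istrip, OO, mem_univ, true_and] at hp ⊢
    obtain ⟨⟨h3, h4⟩, h5, h6⟩ := hp
    refine ⟨⟨h4, h6⟩, ?_⟩
    rw [Fin.lt_def]
    apply Nat.lt_of_div_lt_div (c := L)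
    omega
  have h3 := card_le_card hsub
  rw [card_product] at h3
  unfold vv
  have h4 : g ≤ ((Istrip n L a).filter (fun r => A r c1 = true ∧ A r c2 = false)).card := by omega
  have h5 : g ≤ ((Istrip n L a').filter (fun r => A r c2 = true ∧ A r c1 = false)).card := by omega
  calc g ^ 2 = g * g := sq g
    _ ≤ _ := Nat.mul_le_mul h4 h5
    _ ≤ _ := h3

lemma sum_vv_le (A : Fin n → Fin n → Bool) (E : Finset (Fin n × Fin n))
    (hE : ∀ p ∈ E, p.1 < p.2) : ∑ p ∈ E, vv A p.1 p.2 ≤ NN A := by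
  unfold NN
  rw [← sum_product' (univ : Finset (Fin n)) (univ : Finset (Fin n))
    (fun c c' => if c < c' then vv A c c' else 0)]
  calc ∑ p ∈ E, vv A p.1 p.2 = ∑ p ∈ E, (if p.1 < p.2 then vv A p.1 p.2 else 0) := by
        apply sum_congr rfl
        intro p hp
        simp [hE p hp]
    _ ≤ _ := sum_le_sum_of_subset (fun p _ => by simp)

end Vale.Agent.Lib.P037
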