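import Vale.Agent.Lib.P037.Bridge

namespace Vale.Agent.Lib.P037

open Finset

theorem polyRemoval_of_diag (H : Fin 2 → Fin 2 → Bool) (h1 : H 0 0 = H 1 1) (h2 : H 0 1 = H 1 0)
    (h3 : H 0 0 ≠ H 0 1) : PolyRemoval H := by
  refine ⟨(1 / 12288) ^ 45, 45, by positivity, by norm_num, ?_⟩
  intro n hn ε hε0 hε1 A hfar
  set K := ⌈2 / ε⌉₊ with hKdef
  have h2ε : 0 < 2 / ε := by positivity
  have hK1 : 1 ≤ K := Nat.ceil_pos.mpr h2ε
  have hKge : 2 / ε ≤ (K : ℝ) := Nat.le_ceil _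
  have hKle : (K : ℝ) ≤ 3 / ε := by
    have e1 : (K : ℝ) < 2 / ε + 1 := Nat.ceil_lt_add_one (le_of_lt h2ε)
    have e2 : 1 ≤ 1 / ε := by
      rw [le_div_iff₀ hε0]
      linarith
    have e3 : 3 / ε = 2 / ε + 1 / ε := by ring
    linarith
  have hnpos : (0 : ℝ) < (n : ℝ) ^ 2 := by
    have : (0 : ℝ) < n := by exact_mod_cast hn
    positivity
  have hfar' : ∀ B', FreeI B' → n ^ 2 < K * ham (flip (H 0 0) A) B' := by
    intro B' hB'
    have hfree : IsFree H (flip (H 0 0) B') := by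
      apply free_of_freeI H h1 h2 h3
      rw [flip_flip]
      exact hB'
    have e1 := hfar _ hfree
    rw [numDiff_eq_ham (H 0 0), flip_flip] at e1
    have e2 : (2 : ℝ) ≤ K * ε := by
      rw [div_le_iff₀ hε0] at hKge
      exact hKge
    have e3 : ((n : ℝ) ^ 2) < (K : ℝ) * (ham (flip (H 0 0) A) B' : ℝ) := by
      have hKpos : (0 : ℝ) ≤ K := by positivity
      calc (n : ℝ) ^ 2 < 2 * (n : ℝ) ^ 2 := by linarith
        _ ≤ (K * ε) * (n : ℝ) ^ 2 := by gcongr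
        _ = K * (ε * (n : ℝ) ^ 2) := by ring
        _ ≤ K * (ham (flip (H 0 0) A) B' : ℝ) := by gcongr
    exact_mod_cast e3
  have hcore := core K hK1 (flip (H 0 0) A) hfar'
  have hle := NN_le_numCopies H h1 h2 h3 A
  have hcore' : (n : ℝ) ^ 4 ≤ (4096 * (K : ℝ)) ^ 45 * (numCopies H A : ℝ) := by
    have e1 : n ^ 4 ≤ (4096 * K) ^ 45 * numCopies H A :=
      le_trans hcore (Nat.mul_le_mul_left _ hle)
    exact_mod_cast e1
  have hpow : ε ^ (45 : ℝ) = ε ^ (45 : ℕ) := by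
    rw [← Real.rpow_natCast]
    norm_num
  rw [hpow]
  have e4 : (4096 * (K : ℝ)) ^ 45 ≤ (12288 / ε) ^ 45 := by
    have : 4096 * (K : ℝ) ≤ 12288 / ε := by
      calc 4096 * (K : ℝ) ≤ 4096 * (3 / ε) := by gcongr
        _ = 12288 / ε := by ring
    gcongr
  have hNc : (0 : ℝ) ≤ (numCopies H A : ℝ) := by positivity
  calc (1 / 12288 : ℝ) ^ 45 * ε ^ 45 * (n : ℝ) ^ (2 * 2)
      = (1 / 12288 : ℝ) ^ 45 * ε ^ 45 * (n : ℝ) ^ 4 := by norm_num
    _ ≤ (1 / 12288 : ℝ) ^ 45 * ε ^ 45 * ((4096 * (K : ℝ)) ^ 45 * (numCopies H A : ℝ)) := by gcongr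
    _ ≤ (1 / 12288 : ℝ) ^ 45 * ε ^ 45 * ((12288 / ε) ^ 45 * (numCopies H A : ℝ)) := by gcongr
    _ = ((1 / 12288 : ℝ) * ε * (12288 / ε)) ^ 45 * (numCopies H A : ℝ) := by ring
    _ = (numCopies H A : ℝ) := by
      have : (1 / 12288 : ℝ) * ε * (12288 / ε) = 1 := by field_simp
      rw [this]
      ring

end Vale.Agent.Lib.P037
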