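import Mathlib

namespace Vale.Agent.Lib.P037

lemma garith (n g M K GNv q bad nb mis t Q h1 h2 : ℕ) (hg : 1 ≤ g) (hM : M = 8192 * K)
    (hK : 1 ≤ K) (hX1 : g * M ^ 9 ≤ n) (hX2 : n ≤ 2 * (g * M ^ 9)) (ht : t ≤ 3 * M ^ 3)
    (hN : M ^ 37 * GNv < n ^ 4) (hQ : Q * (g ^ 3 * M ^ 2) ≤ 4 * GNv)
    (e0 : g ^ 3 * M ^ 8 * h1 ≤ n * GNv)
    (e1 : q * (g * M ^ 8) ≤ n)
    (e2 : (g * M) ^ 2 * bad ≤ 256 * (q * (g ^ 3 * M ^ 8)))
    (e3 : M ^ 3 * nb ≤ q * n)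
    (e4 : (g * M) * mis ≤ 2 * (q * n * (g * M ^ 6) * (g * M)) + 32 * (q * (g ^ 3 * M ^ 8)))
    (e5 : h2 ≤ n * (bad + nb + (q * t) ^ 2 * (Q + g)) + n * (g * M ^ 8)
      + n * (q * t * (M ^ 3 * (g * M))) + mis + q * n * (g * M ^ 6)) :
    K * (h1 + h2) ≤ n ^ 2 := by
  have hM1 : 1 ≤ M := by omega
  set X := g * M ^ 9 with hX
  have hp : ∀ e, e ≤ 9 → g * M ^ e ≤ X := by
    intro e he
    rw [hX]
    exact Nat.mul_le_mul_left _ (Nat.pow_le_pow_right hM1 he)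
  have hgX : g ≤ X := by simpa using hp 0 (by norm_num)
  have a1 : GNv * M < 16 * g ^ 4 := by
    have e1 : n ^ 4 ≤ (2 * X) ^ 4 := by gcongr
    have e2 : M ^ 36 * (GNv * M) < M ^ 36 * (16 * g ^ 4) := by
      calc M ^ 36 * (GNv * M) = M ^ 37 * GNv := by ring
        _ < n ^ 4 := hN
        _ ≤ (2 * X) ^ 4 := e1
        _ = M ^ 36 * (16 * g ^ 4) := by rw [hX]; ring
    exact Nat.lt_of_mul_lt_mul_left e2
  have aq : q ≤ 2 * M := by
    have hpos : 0 < g * M ^ 8 := by positivity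
    apply Nat.le_of_mul_le_mul_right _ hpos
    calc q * (g * M ^ 8) ≤ n := e1
      _ ≤ 2 * X := hX2
      _ = 2 * M * (g * M ^ 8) := by rw [hX]; ring
  have bbad : bad ≤ 512 * g * M ^ 7 := by
    have hpos : 0 < (g * M) ^ 2 := by positivity
    apply Nat.le_of_mul_le_mul_left _ hpos
    calc (g * M) ^ 2 * bad ≤ 256 * (q * (g ^ 3 * M ^ 8)) := e2
      _ ≤ 256 * ((2 * M) * (g ^ 3 * M ^ 8)) := by gcongr
      _ = (g * M) ^ 2 * (512 * g * M ^ 7) := by ring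
  have bnb : nb ≤ 4 * g * M ^ 7 := by
    have hpos : 0 < M ^ 3 := by positivity
    apply Nat.le_of_mul_le_mul_left _ hpos
    calc M ^ 3 * nb ≤ q * n := e3
      _ ≤ (2 * M) * (2 * X) := by gcongr
      _ = M ^ 3 * (4 * g * M ^ 7) := by rw [hX]; ring
  have bmis : mis ≤ 8 * X * (g * M ^ 7) + 64 * g * (g * M ^ 8) := by
    have hpos : 0 < g * M := by positivity
    apply Nat.le_of_mul_le_mul_left _ hpos
    calc (g * M) * mis ≤ 2 * (q * n * (g * M ^ 6) * (g * M)) + 32 * (q * (g ^ 3 * M ^ 8)) := e4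
      _ ≤ 2 * ((2 * M) * (2 * X) * (g * M ^ 6) * (g * M)) + 32 * ((2 * M) * (g ^ 3 * M ^ 8)) := by
          gcongr
      _ = (g * M) * (8 * X * (g * M ^ 7) + 64 * g * (g * M ^ 8)) := by ring
  have bQ : Q * M ^ 3 ≤ 64 * g := by
    have hpos : 0 < g ^ 3 := by positivity
    apply Nat.le_of_mul_le_mul_left _ hpos
    calc g ^ 3 * (Q * M ^ 3) = (Q * (g ^ 3 * M ^ 2)) * M := by ring
      _ ≤ (4 * GNv) * M := by gcongr
      _ = 4 * (GNv * M) := by ring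
      _ ≤ 4 * (16 * g ^ 4) := by gcongr
      _ = g ^ 3 * (64 * g) := by ring
  have bh1 : M * h1 ≤ 32 * X ^ 2 := by
    have hpos : 0 < g ^ 3 * M ^ 8 := by positivity
    apply Nat.le_of_mul_le_mul_left _ hpos
    calc g ^ 3 * M ^ 8 * (M * h1) = (g ^ 3 * M ^ 8 * h1) * M := by ring
      _ ≤ (n * GNv) * M := by gcongr
      _ = n * (GNv * M) := by ring
      _ ≤ (2 * X) * (16 * g ^ 4) := by gcongr
      _ = 32 * X * (g ^ 4 * 1) := by ring
      _ ≤ 32 * X * (g ^ 4 * M ^ 17) := by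
          gcongr
          exact Nat.one_le_pow _ _ hM1
      _ = g ^ 3 * M ^ 8 * (32 * X ^ 2) := by rw [hX]; ring
  have T1 : M * (n * bad) ≤ 1024 * X ^ 2 := by
    calc M * (n * bad) ≤ M * ((2 * X) * (512 * g * M ^ 7)) := by gcongr
      _ = 1024 * X * (g * M ^ 8) := by ring
      _ ≤ 1024 * X * X := by
          gcongr
          exact hp 8 (by norm_num)
      _ = 1024 * X ^ 2 := by ring
  have T2 : M * (n * nb) ≤ 8 * X ^ 2 := by
    calc M * (n * nb) ≤ M * ((2 * X) * (4 * g * M ^ 7)) := by gcongr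
      _ = 8 * X * (g * M ^ 8) := by ring
      _ ≤ 8 * X * X := by
          gcongr
          exact hp 8 (by norm_num)
      _ = 8 * X ^ 2 := by ring
  have T3 : M * (n * ((q * t) ^ 2 * Q)) ≤ 4608 * X ^ 2 := by
    calc M * (n * ((q * t) ^ 2 * Q)) ≤ M * ((2 * X) * (((2 * M) * (3 * M ^ 3)) ^ 2 * Q)) := by gcongr
      _ = 72 * X * M ^ 6 * (Q * M ^ 3) := by ring
      _ ≤ 72 * X * M ^ 6 * (64 * g) := by gcongr
      _ = 4608 * X * (g * M ^ 6) := by ring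
      _ ≤ 4608 * X * X := by
          gcongr
          exact hp 6 (by norm_num)
      _ = 4608 * X ^ 2 := by ring
  have T4 : M * (n * ((q * t) ^ 2 * g)) ≤ 72 * X ^ 2 := by
    calc M * (n * ((q * t) ^ 2 * g)) ≤ M * ((2 * X) * (((2 * M) * (3 * M ^ 3)) ^ 2 * g)) := by gcongr
      _ = 72 * X ^ 2 := by rw [hX]; ring
  have T5 : M * (n * (g * M ^ 8)) ≤ 2 * X ^ 2 := by
    calc M * (n * (g * M ^ 8)) ≤ M * ((2 * X) * (g * M ^ 8)) := by gcongr
      _ = 2 * X ^ 2 := by rw [hX]; ring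
  have T6 : M * (n * (q * t * (M ^ 3 * (g * M)))) ≤ 12 * X ^ 2 := by
    calc M * (n * (q * t * (M ^ 3 * (g * M))))
        ≤ M * ((2 * X) * ((2 * M) * (3 * M ^ 3) * (M ^ 3 * (g * M)))) := by gcongr
      _ = 12 * X ^ 2 := by rw [hX]; ring
  have T7 : M * mis ≤ 72 * X ^ 2 := by
    calc M * mis ≤ M * (8 * X * (g * M ^ 7) + 64 * g * (g * M ^ 8)) := by gcongr
      _ = 8 * X * (g * M ^ 8) + 64 * g * (g * M ^ 9) := by ring
      _ ≤ 8 * X * X + 64 * X * X := by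
          gcongr
          · exact hp 8 (by norm_num)
      _ = 72 * X ^ 2 := by ring
  have T8 : M * (q * n * (g * M ^ 6)) ≤ 4 * X ^ 2 := by
    calc M * (q * n * (g * M ^ 6)) ≤ M * ((2 * M) * (2 * X) * (g * M ^ 6)) := by gcongr
      _ = 4 * X * (g * M ^ 8) := by ring
      _ ≤ 4 * X * X := by
          gcongr
          exact hp 8 (by norm_num)
      _ = 4 * X ^ 2 := by ring
  have tot : M * (h1 + h2) ≤ 5834 * X ^ 2 := by
    calc M * (h1 + h2) ≤ M * (h1 + (n * (bad + nb + (q * t) ^ 2 * (Q + g)) + n * (g * M ^ 8)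
      + n * (q * t * (M ^ 3 * (g * M))) + mis + q * n * (g * M ^ 6))) := by gcongr
      _ = M * h1 + M * (n * bad) + M * (n * nb) + M * (n * ((q * t) ^ 2 * Q))
          + M * (n * ((q * t) ^ 2 * g)) + M * (n * (g * M ^ 8))
          + M * (n * (q * t * (M ^ 3 * (g * M)))) + M * mis + M * (q * n * (g * M ^ 6)) := by ring
      _ ≤ 32 * X ^ 2 + 1024 * X ^ 2 + 8 * X ^ 2 + 4608 * X ^ 2 + 72 * X ^ 2 + 2 * X ^ 2
          + 12 * X ^ 2 + 72 * X ^ 2 + 4 * X ^ 2 := by gcongr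
      _ = 5834 * X ^ 2 := by ring
  have hXn : X ^ 2 ≤ n ^ 2 := by gcongr
  rw [hM] at tot
  nlinarith

end Vale.Agent.Lib.P037
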