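import Mathlib

/-!
Abstract closure lemma used for the single-odd-entry 2 x 2 patterns (problem P037).
-/

namespace Vale.Agent.Lib.P037

open Relation

variable {n : ℕ}

/-- a relation on a linear order that increases and is `forward coherent` has a forward-linear
transitive closure -/
lemma fwd_linear (R : Fin n → Fin n → Prop) (hlt : ∀ x y, R x y → x < y)
    (hfork : ∀ u z z', R u z → R u z' → z < z' → R z z') :
    ∀ (m : ℕ) (u x y : Fin n), n - u.val ≤ m → TransGen R u x → TransGen R u y → x < y →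
      TransGen R x y := by
  have hlt' : ∀ x y, TransGen R x y → x < y := by
    intro x y h
    induction h with
    | single h => exact hlt _ _ h
    | tail _ h ih => exact lt_trans ih (hlt _ _ h)
  intro m
  induction m with
  | zero =>
    intro u x y hm
    have := u.isLt
    omega
  | succ m ih =>
    intro u x y hm hx hy hxy
    obtain ⟨z1, h1, h1'⟩ := TransGen.head'_iff.mp hx
    obtain ⟨z2, h2, h2'⟩ := TransGen.head'_iff.mp hy
    have hz1 : n - z1.val ≤ m := by
      have := hlt _ _ h1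
      rw [Fin.lt_def] at this
      have := z1.isLt
      omega
    have hz2 : n - z2.val ≤ m := by
      have := hlt _ _ h2
      rw [Fin.lt_def] at this
      have := z2.isLt
      omega
    rcases lt_trichotomy z1 z2 with hz | hz | hz
    · have hy' : TransGen R z1 y := TransGen.head' (hfork u z1 z2 h1 h2 hz) h2'
      rcases reflTransGen_iff_eq_or_transGen.mp h1' with h | h
      · rw [h]
        exact hy'
      · exact ih z1 x y hz1 h hy' hxy
    · subst hz
      rcases reflTransGen_iff_eq_or_transGen.mp h1' with h | h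
      · rcases reflTransGen_iff_eq_or_transGen.mp h2' with h' | h'
        · rw [h, h'] at hxy
          exact absurd hxy (lt_irrefl _)
        · rw [h]
          exact h'
      · rcases reflTransGen_iff_eq_or_transGen.mp h2' with h' | h'
        · have := hlt' _ _ h
          rw [h'] at hxy
          exact absurd (lt_trans this hxy) (lt_irrefl _)
        · exact ih z1 x y hz1 h h' hxy
    · have hx' : TransGen R z2 x := TransGen.head' (hfork u z2 z1 h2 h1 hz) h1'
      rcases reflTransGen_iff_eq_or_transGen.mp h2' with h | h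
      · have := hlt' _ _ hx'
        rw [h] at hxy
        exact absurd (lt_trans this hxy) (lt_irrefl _)
      · exact ih z2 x y hz2 hx' h hxy

section Closure

variable {ι : Type*} (S : Set ι) (st : ι → ℕ) (V : ι → Set (Fin n)) (tri : ι → ι → Prop)

/-- two columns lie together in the set of some cell of the strip `α` -/
def CRel (α : ℕ) (x y : Fin n) : Prop := ∃ G ∈ S, st G = α ∧ x < y ∧ x ∈ V G ∧ y ∈ V G

/-- closure of the column set of a cell inside its strip -/
def Vbar (G : ι) : Set (Fin n) := {y | ∃ x ∈ V G, ReflTransGen (CRel S st V (st G)) x y}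

lemma subset_Vbar (G : ι) : V G ⊆ Vbar S st V G := fun x hx => ⟨x, hx, ReflTransGen.refl⟩

lemma CRel_lt {α : ℕ} {x y : Fin n} (h : CRel S st V α x y) : x < y := by
  obtain ⟨_, _, _, h, _⟩ := h
  exact h

lemma CRel_trans_lt {α : ℕ} {x y : Fin n} (h : TransGen (CRel S st V α) x y) : x < y := by
  induction h with
  | single h => exact CRel_lt S st V h
  | tail _ h ih => exact lt_trans ih (CRel_lt S st V h)

lemma CRel_refl_le {α : ℕ} {x y : Fin n} (h : ReflTransGen (CRel S st V α) x y) : x ≤ y := by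
  rcases reflTransGen_iff_eq_or_transGen.mp h with h | h
  · exact le_of_eq h.symm
  · exact le_of_lt (CRel_trans_lt S st V h)

lemma Vbar_lower {G : ι} {y : Fin n} (h : y ∈ Vbar S st V G) : ∃ x ∈ V G, x ≤ y := by
  obtain ⟨x, hx, hxy⟩ := h
  exact ⟨x, hx, CRel_refl_le S st V hxy⟩

variable (hT1 : ∀ G ∈ S, ∀ G' ∈ S, st G < st G' → tri G G')
  (hT2 : ∀ G ∈ S, ∀ G' ∈ S, st G = st G' → G ≠ G' → tri G G' ∨ tri G' G)
  (hH : ∀ G ∈ S, ∀ G' ∈ S, tri G G' → ∀ x y, x < y → x ∈ V G → y ∈ V G → x ∈ V G' → y ∈ V G')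

include hT2 hH in
lemma CRel_fork (α : ℕ) (u z z' : Fin n) (h1 : CRel S st V α u z) (h2 : CRel S st V α u z')
    (hz : z < z') : CRel S st V α z z' := by
  classical
  obtain ⟨G1, hG1, hs1, hu1, hm1, hm1'⟩ := h1
  obtain ⟨G2, hG2, hs2, hu2, hm2, hm2'⟩ := h2
  by_cases hne : G1 = G2
  · subst hne
    exact ⟨G1, hG1, hs1, hz, hm1', hm2'⟩
  · rcases hT2 G1 hG1 G2 hG2 (by rw [hs1, hs2]) hne with h | h
    · exact ⟨G2, hG2, hs2, hz, hH G1 hG1 G2 hG2 h u z hu1 hm1 hm1' hm2, hm2'⟩
    · exact ⟨G1, hG1, hs1, hz, hm1', hH G2 hG2 G1 hG1 h u z' hu2 hm2 hm2' hm1⟩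

include hT1 hH in
lemma CRel_cross {α : ℕ} {x y : Fin n} (h : TransGen (CRel S st V α) x y) (G : ι) (hG : G ∈ S)
    (hα : α < st G) (hx : x ∈ V G) : y ∈ V G := by
  induction h with
  | single h =>
    obtain ⟨G1, hG1, hs1, hlt, hm, hm'⟩ := h
    exact hH G1 hG1 G hG (hT1 G1 hG1 G hG (by omega)) _ _ hlt hm hm' hx
  | tail _ h ih =>
    obtain ⟨G1, hG1, hs1, hlt, hm, hm'⟩ := h
    exact hH G1 hG1 G hG (hT1 G1 hG1 G hG (by omega)) _ _ hlt hm hm' ih

include hT1 hH in
/-- the closure of a cell is contained in the set of every later cell containing its set -/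
lemma Vbar_sub_later {G G' : ι} (hG' : G' ∈ S) (hlt : st G < st G') (hsub : V G ⊆ V G')
    {y : Fin n} (hy : y ∈ Vbar S st V G) : y ∈ V G' := by
  obtain ⟨x, hx, hxy⟩ := hy
  rcases reflTransGen_iff_eq_or_transGen.mp hxy with h | h
  · rw [h]
    exact hsub hx
  · exact CRel_cross S st V tri hT1 hH h G' hG' hlt (hsub hx)

include hT2 hH in
lemma Vbar_chain {G : ι} (hG : G ∈ S) {x y : Fin n} (hxy : x < y) (hx : x ∈ Vbar S st V G)
    (hy : y ∈ Vbar S st V G) : TransGen (CRel S st V (st G)) x y := by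
  obtain ⟨x0, hx0, hx0x⟩ := hx
  obtain ⟨y0, hy0, hy0y⟩ := hy
  -- a common starting point
  have hcommon : ∃ m, ReflTransGen (CRel S st V (st G)) m x ∧
      ReflTransGen (CRel S st V (st G)) m y := by
    rcases lt_trichotomy x0 y0 with h | h | h
    · exact ⟨x0, hx0x, ReflTransGen.head ⟨G, hG, rfl, h, hx0, hy0⟩ hy0y⟩
    · subst h
      exact ⟨x0, hx0x, hy0y⟩
    · exact ⟨y0, ReflTransGen.head ⟨G, hG, rfl, h, hy0, hx0⟩ hx0x, hy0y⟩
  obtain ⟨m, hmx, hmy⟩ := hcommon
  rcases reflTransGen_iff_eq_or_transGen.mp hmx with h | h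
  · rcases reflTransGen_iff_eq_or_transGen.mp hmy with h' | h'
    · rw [h, h'] at hxy
      exact absurd hxy (lt_irrefl _)
    · rw [h]
      exact h'
  · rcases reflTransGen_iff_eq_or_transGen.mp hmy with h' | h'
    · have := CRel_trans_lt S st V h
      rw [h'] at hxy
      exact absurd (lt_trans this hxy) (lt_irrefl _)
    · exact fwd_linear _ (fun _ _ h => CRel_lt S st V h)
        (CRel_fork S st V tri hT2 hH (st G)) _ m x y le_rfl h h' hxy

include hT1 hT2 hH in
/-- the closed family is coherent from earlier (or equal) strips to later ones -/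
theorem Vbar_coherent {G G' : ι} (hG : G ∈ S) (hG' : G' ∈ S) (hst : st G ≤ st G') {x y : Fin n}
    (hxy : x < y) (hx : x ∈ Vbar S st V G) (hy : y ∈ Vbar S st V G) (hx' : x ∈ Vbar S st V G') :
    y ∈ Vbar S st V G' := by
  have hchain := Vbar_chain S st V tri hT2 hH hG hxy hx hy
  obtain ⟨x0, hx0, hx0x⟩ := hx'
  rcases Nat.lt_or_ge (st G) (st G') with hlt | hge
  · -- find a genuine cell of the later strip containing x
    have hgen : ∃ G'' ∈ S, st G'' = st G' ∧ x ∈ V G'' := by
      rcases reflTransGen_iff_eq_or_transGen.mp hx0x with h | h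
      · rw [h]
        exact ⟨G', hG', rfl, hx0⟩
      · obtain ⟨b, _, hb⟩ := TransGen.tail'_iff.mp h
        obtain ⟨G'', hG'', hs, _, _, hm⟩ := hb
        exact ⟨G'', hG'', hs, hm⟩
    obtain ⟨G'', hG'', hs, hm⟩ := hgen
    have hy'' : y ∈ V G'' := CRel_cross S st V tri hT1 hH hchain G'' hG'' (by omega) hm
    exact ⟨x0, hx0, ReflTransGen.tail hx0x ⟨G'', hG'', hs, hxy, hm, hy''⟩⟩
  · have heq : st G = st G' := le_antisymm hst hge
    rw [heq] at hchain
    exact ⟨x0, hx0, hx0x.trans hchain.to_reflTransGen⟩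

end Closure

end Vale.Agent.Lib.P037
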