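import Vale.Agent.Lib.P037.GCells
import Vale.Agent.Lib.P037.GClosure

/-!
The column sets of the cells, the deleted columns, and the final matrix.
-/

namespace Vale.Agent.Lib.P037

open Finset

variable {n : ℕ}

/-- columns that are dense in the window of `G` -/
def VV (X : GP n) (j : ℕ) (G : Fin n × ℕ) : Finset (Fin n) :=
  univ.filter (fun c => G.1 ≤ c ∧ c ∉ Bad X ∧ c ∉ NB X j ∧ 15 * X.w ≤ 16 * kW X j G c)

/-- at least half of the pairs of window rows are in increasing order -/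
def tri (X : GP n) (j : ℕ) (G G' : Fin n × ℕ) : Prop :=
  X.w ^ 2 ≤ 2 * ((Wn X j G ×ˢ Wn X j G').filter (fun q => q.1 < q.2)).card

instance (X : GP n) (j : ℕ) (G G' : Fin n × ℕ) : Decidable (tri X j G G') := by
  unfold tri
  infer_instance

/-- ordered pairs of large cells -/
def TG (X : GP n) (j : ℕ) : Finset ((Fin n × ℕ) × (Fin n × ℕ)) :=
  (Lg X ×ˢ Lg X).filter (fun τ => tri X j τ.1 τ.2)

/-- all deleted columns -/
def GDel (X : GP n) (j : ℕ) : Finset (Fin n) :=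
  (Bad X ∪ NB X j) ∪ (TG X j).biUnion
    (fun τ => delSet (VV X j τ.1 ∩ VV X j τ.2) (VV X j τ.1 \ VV X j τ.2) X.p0)

/-- surviving dense columns -/
def VP (X : GP n) (j : ℕ) (G : Fin n × ℕ) : Finset (Fin n) :=
  (VV X j G).filter (fun c => c ∉ GDel X j)

lemma tri_of_strip (X : GP n) {j : ℕ} (hj : j < X.s) {G G' : Fin n × ℕ} (hG : G ∈ Lg X)
    (hG' : G' ∈ Lg X) (h : G.2 < G'.2) : tri X j G G' := by
  unfold tri
  rw [filter_true_of_mem, card_product, card_Wn X hj hG, card_Wn X hj hG']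
  · nlinarith
  · intro q hq
    rw [mem_product] at hq
    exact cell_lt_of_strip X h (Wn_sub X _ _ hq.1) (Wn_sub X _ _ hq.2)

lemma tri_total (X : GP n) {j : ℕ} (hj : j < X.s) {G G' : Fin n × ℕ} (hG : G ∈ Lg X)
    (hG' : G' ∈ Lg X) (hne : G ≠ G') : tri X j G G' ∨ tri X j G' G := by
  have hdisj : Disjoint (Wn X j G) (Wn X j G') := by
    rw [disjoint_left]
    intro r hr hr'
    exact hne (cellG_unique X (mem_Lg.mp hG).1.1 (mem_Lg.mp hG').1.1 (Wn_sub X _ _ hr)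
      (Wn_sub X _ _ hr'))
  have h := pairs_total _ _ hdisj
  rw [card_Wn X hj hG, card_Wn X hj hG'] at h
  unfold tri
  have e : X.w ^ 2 = X.w * X.w := sq _
  omega

lemma VP_coherent (X : GP n) (j : ℕ) {G G' : Fin n × ℕ} (hG : G ∈ Lg X) (hG' : G' ∈ Lg X)
    (ht : tri X j G G') {x y : Fin n} (hxy : x < y) (hx : x ∈ VP X j G) (hy : y ∈ VP X j G)
    (hx' : x ∈ VP X j G') : y ∈ VP X j G' := by
  simp only [VP, mem_filter] at hx hy hx' ⊢
  refine ⟨?_, hy.2⟩
  by_contra hcon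
  have hτ : (G, G') ∈ TG X j := by
    simp only [TG, mem_filter, mem_product]
    exact ⟨⟨hG, hG'⟩, ht⟩
  rcases delSet_cover (VV X j G ∩ VV X j G') (VV X j G \ VV X j G') X.p0
    (mem_inter.mpr ⟨hx.1, hx'.1⟩) (mem_sdiff.mpr ⟨hy.1, hcon⟩) hxy with h | h
  · apply hx.2
    unfold GDel
    exact mem_union_right _ (mem_biUnion.mpr ⟨(G, G'), hτ, h⟩)
  · apply hy.2
    unfold GDel
    exact mem_union_right _ (mem_biUnion.mpr ⟨(G, G'), hτ, h⟩)

lemma g_e_bound (X : GP n) {j : ℕ} (hj : j < X.s) (τ : (Fin n × ℕ) × (Fin n × ℕ))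
    (hτ : τ ∈ TG X j) :
    (((VV X j τ.1 ∩ VV X j τ.2) ×ˢ (VV X j τ.1 \ VV X j τ.2)).filter (fun p => p.1 < p.2)).card
      * X.w ^ 2 ≤ 4 * GN X.A := by
  simp only [TG, mem_filter, mem_product] at hτ
  obtain ⟨⟨hG, hG'⟩, ht⟩ := hτ
  refine le_trans ?_ (Nat.mul_le_mul_left 4 (sum_gv_le X.A
    (((VV X j τ.1 ∩ VV X j τ.2) ×ˢ (VV X j τ.1 \ VV X j τ.2)).filter (fun p => p.1 < p.2))
    (fun p hp => (mem_filter.mp hp).2)))
  rw [← smul_eq_mul, ← sum_const, mul_sum]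
  apply sum_le_sum
  intro p hp
  simp only [mem_filter, mem_product, mem_inter, mem_sdiff, VV, mem_univ, true_and, not_and,
    not_le] at hp
  obtain ⟨⟨⟨⟨_, _, _, h1⟩, h0, _, _, h3⟩, ⟨_, hb, hnb, h2⟩, h4⟩, hlt⟩ := hp
  have h5 := h4 (le_trans h0 (le_of_lt hlt)) hb hnb
  have h6 : 16 * kW X j τ.2 p.2 ≤ X.w := by
    by_contra hcon
    apply hnb
    simp only [NB, mem_filter, mem_univ, true_and]
    exact ⟨τ.2, hG', lt_of_le_of_lt h0 hlt, not_le.mp hcon, h5⟩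
  exact tri_evidence X.A p.1 p.2 (Wn X j τ.1) (Wn X j τ.2) X.w (card_Wn X hj hG)
    (card_Wn X hj hG') ht h1 h2 h3 h6

lemma card_GDel_le (X : GP n) {j : ℕ} (hj : j < X.s) (hw : 0 < X.w) (hp0 : 0 < X.p0) :
    (GDel X j).card ≤ (Bad X).card + (NB X j \ Bad X).card
      + (X.P.card * (n / X.L + 1)) ^ 2 * (4 * GN X.A / X.w ^ 2 / X.p0 + X.p0) := by
  classical
  unfold GDel
  refine le_trans (card_union_le _ _) (Nat.add_le_add ?_ ?_)
  · rw [← union_sdiff_self_eq_union]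
    exact card_union_le _ _
  · refine le_trans card_biUnion_le ?_
    have hterm : ∀ τ ∈ TG X j,
        (delSet (VV X j τ.1 ∩ VV X j τ.2) (VV X j τ.1 \ VV X j τ.2) X.p0).card
          ≤ 4 * GN X.A / X.w ^ 2 / X.p0 + X.p0 := by
      intro τ hτ
      refine le_trans (delSet_card _ _ X.p0 hp0) (Nat.add_le_add_right ?_ _)
      apply Nat.div_le_div_right
      rw [Nat.le_div_iff_mul_le (by positivity)]
      exact g_e_bound X hj τ hτ
    refine le_trans (sum_le_sum hterm) ?_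
    simp only [sum_const, smul_eq_mul]
    apply Nat.mul_le_mul_right
    unfold TG
    refine le_trans (card_filter_le _ _) ?_
    rw [card_product, sq]
    exact Nat.mul_le_mul (card_Lg_le X) (card_Lg_le X)

/-- the closed column set of a cell -/
def VB (X : GP n) (j : ℕ) (G : Fin n × ℕ) : Set (Fin n) :=
  Vbar (↑(Lg X) : Set (Fin n × ℕ)) Prod.snd (fun G => (↑(VP X j G) : Set (Fin n))) G

/-- the final matrix -/
noncomputable def GB (X : GP n) (j : ℕ) (r c : Fin n) : Bool :=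
  open scoped Classical in decide (∃ G ∈ Lg X, r ∈ cellG X G ∧ c ∈ VB X j G)

lemma GB_free (X : GP n) {j : ℕ} (hj : j < X.s) : FreeG (GB X j) := by
  intro r1 r2 c1 c2 hr hc ⟨h11, h12, h21, h22⟩
  simp only [GB, decide_eq_true_eq, decide_eq_false_iff_not] at h11 h12 h21 h22
  obtain ⟨G1, hG1, hr1, hc1⟩ := h11
  obtain ⟨G1', hG1', hr1', hc2⟩ := h12
  obtain ⟨G2, hG2, hr2, hc1'⟩ := h21
  have heq : G1' = G1 := cellG_unique X (mem_Lg.mp hG1').1.1 (mem_Lg.mp hG1).1.1 hr1' hr1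
  subst heq
  apply h22
  refine ⟨G2, hG2, hr2, ?_⟩
  have hst : G1'.2 ≤ G2.2 := by
    rw [← cell_strip X hr1, ← cell_strip X hr2]
    exact Nat.div_le_div_right (le_of_lt hr)
  exact Vbar_coherent (↑(Lg X) : Set (Fin n × ℕ)) Prod.snd
    (fun G => (↑(VP X j G) : Set (Fin n))) (tri X j)
    (fun G hG G' hG' h => tri_of_strip X hj hG hG' h)
    (fun G hG G' hG' _ hne => tri_total X hj hG hG' hne)
    (fun G hG G' hG' ht x y hxy hx hy hx' => VP_coherent X j hG hG' ht hxy hx hy hx')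
    hG1 hG2 hst hc hc1 hc2 hc1'

end Vale.Agent.Lib.P037
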