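import Vale.Agent.Lib.P037.GDefs

/-!
Left-to-right choice of pivot columns.
-/

namespace Vale.Agent.Lib.P037

open Finset

variable {n : ℕ}

/-- rows having a one in column `c` and no one in an earlier pivot column -/
def cls (A : Fin n → Fin n → Bool) (P : Finset (Fin n)) (c : Fin n) : Finset (Fin n) :=
  univ.filter (fun r => A r c = true ∧ ∀ p ∈ P, p < c → A r p = false)

lemma cls_congr (A : Fin n → Fin n → Bool) (P P' : Finset (Fin n)) (c : Fin n)
    (h : ∀ p, p < c → (p ∈ P ↔ p ∈ P')) : cls A P c = cls A P' c := by
  unfold cls
  apply filter_congr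
  intro r _
  constructor
  · rintro ⟨h1, h2⟩
    exact ⟨h1, fun p hp hlt => h2 p ((h p hlt).mpr hp) hlt⟩
  · rintro ⟨h1, h2⟩
    exact ⟨h1, fun p hp hlt => h2 p ((h p hlt).mp hp) hlt⟩

lemma exists_pivots_aux (A : Fin n → Fin n → Bool) (u : ℕ) (k : ℕ) :
    ∃ P : Finset (Fin n), (∀ p ∈ P, p.val < k) ∧
      ∀ c : Fin n, c.val < k → (c ∈ P ↔ u ≤ (cls A P c).card) := by
  induction k with
  | zero => exact ⟨∅, by simp, by simp⟩
  | succ k ih =>
    obtain ⟨P, hP1, hP2⟩ := ih
    by_cases hk : k < n
    · by_cases hu : u ≤ (cls A P ⟨k, hk⟩).card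
      · refine ⟨insert ⟨k, hk⟩ P, ?_, ?_⟩
        · intro p hp
          rw [mem_insert] at hp
          rcases hp with rfl | hp
          · simp
          · exact Nat.lt_succ_of_lt (hP1 p hp)
        · intro c hc
          have hcong : cls A (insert ⟨k, hk⟩ P) c = cls A P c := by
            apply cls_congr
            intro p hp
            rw [mem_insert]
            constructor
            · rintro (rfl | h)
              · rw [Fin.lt_def] at hp
                simp only at hp
                omega
              · exact h
            · exact Or.inr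
          rw [hcong, mem_insert]
          rcases Nat.lt_or_ge c.val k with h | h
          · rw [← hP2 c h]
            constructor
            · rintro (rfl | h')
              · simp at h
              · exact h'
            · exact Or.inr
          · have : c = ⟨k, hk⟩ := Fin.ext (by simp only; omega)
            subst this
            simp [hu]
      · refine ⟨P, fun p hp => Nat.lt_succ_of_lt (hP1 p hp), ?_⟩
        intro c hc
        rcases Nat.lt_or_ge c.val k with h | h
        · exact hP2 c h
        · have : c = ⟨k, hk⟩ := Fin.ext (by simp only; omega)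
          subst this
          constructor
          · intro hmem
            have := hP1 _ hmem
            simp at this
          · intro h'
            exact absurd h' hu
    · refine ⟨P, fun p hp => Nat.lt_succ_of_lt (hP1 p hp), ?_⟩
      intro c hc
      have := c.isLt
      exact hP2 c (by omega)

lemma exists_pivots (A : Fin n → Fin n → Bool) (u : ℕ) :
    ∃ P : Finset (Fin n), ∀ c : Fin n, (c ∈ P ↔ u ≤ (cls A P c).card) := by
  obtain ⟨P, _, hP⟩ := exists_pivots_aux A u n
  exact ⟨P, fun c => hP c c.isLt⟩

lemma cls_disjoint (A : Fin n → Fin n → Bool) (P : Finset (Fin n)) {p p' : Fin n} (hp : p ∈ P)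
    (hp' : p' ∈ P) {r : Fin n} (h : r ∈ cls A P p) (h' : r ∈ cls A P p') : p = p' := by
  simp only [cls, mem_filter, mem_univ, true_and] at h h'
  rcases lt_trichotomy p p' with hlt | heq | hlt
  · have := h'.2 p hp hlt
    rw [h.1] at this
    simp at this
  · exact heq
  · have := h.2 p' hp' hlt
    rw [h'.1] at this
    simp at this

lemma card_pivots (A : Fin n → Fin n → Bool) (P : Finset (Fin n)) (u : ℕ)
    (hP : ∀ c : Fin n, (c ∈ P ↔ u ≤ (cls A P c).card)) : P.card * u ≤ n := by
  classical
  have h1 : (P.biUnion (fun p => cls A P p)).card = ∑ p ∈ P, (cls A P p).card := by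
    apply card_biUnion
    intro p hp p' hp' hne
    rw [Function.onFun, disjoint_left]
    intro r hr hr'
    exact hne (cls_disjoint A P hp hp' hr hr')
  have h2 : (P.biUnion (fun p => cls A P p)).card ≤ n := by
    simpa using card_le_univ (P.biUnion (fun p => cls A P p))
  have h3 : P.card * u ≤ ∑ p ∈ P, (cls A P p).card := by
    rw [← smul_eq_mul, ← sum_const]
    exact sum_le_sum (fun p hp => (hP p).mp hp)
  omega

/-- every row with a one in some pivot column belongs to the class of its first pivot -/
lemma exists_cls (A : Fin n → Fin n → Bool) (P : Finset (Fin n)) (r : Fin n)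
    (h : ∃ p ∈ P, A r p = true) : ∃ p ∈ P, r ∈ cls A P p := by
  set Q := P.filter (fun p => A r p = true) with hQ
  have hne : Q.Nonempty := by
    obtain ⟨p, hp, hA⟩ := h
    exact ⟨p, by simp [hQ, hp, hA]⟩
  have hmem := min'_mem Q hne
  simp only [hQ, mem_filter] at hmem
  refine ⟨Q.min' hne, hmem.1, ?_⟩
  simp only [cls, mem_filter, mem_univ, true_and]
  refine ⟨hmem.2, ?_⟩
  intro p hp hlt
  by_contra hcon
  have hpQ : p ∈ Q := by
    simp only [hQ, mem_filter]
    exact ⟨hp, by simpa using hcon⟩
  have := min'_le Q p hpQ
  exact absurd hlt (not_lt.mpr this)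

end Vale.Agent.Lib.P037
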