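import Vale.Agent.Lib.P037.GEvid
import Vale.Agent.Lib.P037.GPivot

/-!
Cells (pivot class x row strip), windows, and the deleted columns.
-/

namespace Vale.Agent.Lib.P037

open Finset

variable {n : ℕ}

/-- the data of the construction -/
structure GP (n : ℕ) where
  /-- the matrix -/
  A : Fin n → Fin n → Bool
  /-- the pivot columns -/
  P : Finset (Fin n)
  /-- height of a strip -/
  L : ℕ
  /-- size of a window -/
  w : ℕ
  /-- number of windows of a large cell -/
  s : ℕ
  /-- threshold used when deleting columns -/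
  p0 : ℕ

/-- the cell of the pivot `G.1` in the strip `G.2` -/
def cellG (X : GP n) (G : Fin n × ℕ) : Finset (Fin n) :=
  (cls X.A X.P G.1).filter (fun r => r.val / X.L = G.2)

/-- the large cells -/
def Lg (X : GP n) : Finset (Fin n × ℕ) :=
  (X.P ×ˢ range (n / X.L + 1)).filter (fun G => X.s * X.w ≤ (cellG X G).card)

/-- the `j`-th window of a cell -/
def Wn (X : GP n) (j : ℕ) (G : Fin n × ℕ) : Finset (Fin n) := wind (cellG X G) X.w j

/-- number of ones of column `c` in the window -/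
def kW (X : GP n) (j : ℕ) (G : Fin n × ℕ) (c : Fin n) : ℕ :=
  ((Wn X j G).filter (fun r => X.A r c = true)).card

/-- columns carrying many copies together with a pivot -/
def Bad (X : GP n) : Finset (Fin n) :=
  univ.filter (fun c => ∃ p ∈ X.P, p < c ∧ X.w ^ 2 ≤ 256 * gv X.A p c)

/-- columns of intermediate density in some window -/
def NB (X : GP n) (j : ℕ) : Finset (Fin n) :=
  univ.filter (fun c => ∃ G ∈ Lg X, G.1 < c ∧ X.w < 16 * kW X j G c ∧ 16 * kW X j G c < 15 * X.w)

lemma mem_Lg {X : GP n} {G : Fin n × ℕ} :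
    G ∈ Lg X ↔ (G.1 ∈ X.P ∧ G.2 < n / X.L + 1) ∧ X.s * X.w ≤ (cellG X G).card := by
  simp [Lg]

lemma card_Lg_le (X : GP n) : (Lg X).card ≤ X.P.card * (n / X.L + 1) := by
  unfold Lg
  refine le_trans (card_filter_le _ _) ?_
  simp

lemma cellG_unique (X : GP n) {G G' : Fin n × ℕ} (hG : G.1 ∈ X.P) (hG' : G'.1 ∈ X.P) {r : Fin n}
    (h : r ∈ cellG X G) (h' : r ∈ cellG X G') : G = G' := by
  simp only [cellG, mem_filter] at h h'
  apply Prod.ext
  · exact cls_disjoint X.A X.P hG hG' h.1 h'.1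
  · rw [← h.2, ← h'.2]

lemma card_Wn (X : GP n) {j : ℕ} (hj : j < X.s) {G : Fin n × ℕ} (hG : G ∈ Lg X) :
    (Wn X j G).card = X.w := by
  apply card_wind
  exact le_trans (Nat.mul_le_mul_right _ hj) (mem_Lg.mp hG).2

lemma Wn_sub (X : GP n) (j : ℕ) (G : Fin n × ℕ) : Wn X j G ⊆ cellG X G := wind_subset _ _ _

lemma cell_pivot (X : GP n) {G : Fin n × ℕ} {r : Fin n} (h : r ∈ cellG X G) :
    X.A r G.1 = true := by
  simp only [cellG, cls, mem_filter, mem_univ, true_and] at h
  exact h.1.1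

lemma cell_strip (X : GP n) {G : Fin n × ℕ} {r : Fin n} (h : r ∈ cellG X G) :
    r.val / X.L = G.2 := by
  simp only [cellG, mem_filter] at h
  exact h.2

lemma card_cellG_le (X : GP n) (hL : 0 < X.L) (G : Fin n × ℕ) : (cellG X G).card ≤ X.L := by
  refine le_trans (card_le_card ?_) (card_strip_le (n := n) X.L hL G.2)
  intro r hr
  simp only [mem_filter, mem_univ, true_and]
  exact cell_strip X hr

lemma cell_lt_of_strip (X : GP n) {G G' : Fin n × ℕ} (h : G.2 < G'.2) {r r' : Fin n}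
    (hr : r ∈ cellG X G) (hr' : r' ∈ cellG X G') : r < r' := by
  rw [Fin.lt_def]
  apply Nat.lt_of_div_lt_div (c := X.L)
  rw [cell_strip X hr, cell_strip X hr']
  exact h

lemma kW_pivot (X : GP n) (j : ℕ) (G : Fin n × ℕ) : kW X j G G.1 = (Wn X j G).card := by
  unfold kW
  rw [filter_true_of_mem]
  intro r hr
  exact cell_pivot X (Wn_sub X j G hr)

/-- windows of the same pivot class are linearly ordered -/
lemma Wn_ordered (X : GP n) (p : Fin n) {a a' j j' : ℕ} (h : a < a' ∨ (a = a' ∧ j < j'))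
    {r r' : Fin n} (hr : r ∈ Wn X j (p, a)) (hr' : r' ∈ Wn X j' (p, a')) : r < r' := by
  rcases h with h | ⟨rfl, h⟩
  · exact cell_lt_of_strip X (G := (p, a)) (G' := (p, a')) h (Wn_sub X _ _ hr) (Wn_sub X _ _ hr')
  · exact wind_lt _ _ h hr hr'

lemma card_Bad (X : GP n) (Lam : ℕ) (hlight : ∀ c, gl X.A c ≤ Lam) :
    X.w ^ 2 * (Bad X).card ≤ 256 * (X.P.card * Lam) := by
  classical
  have hsub : Bad X ⊆ X.P.biUnion (fun p => univ.filter (fun c => p < c ∧ X.w ^ 2 ≤ 256 * gv X.A p c)) := by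
    intro c hc
    simp only [Bad, mem_filter, mem_univ, true_and] at hc
    obtain ⟨p, hp, h⟩ := hc
    simp only [mem_biUnion, mem_filter, mem_univ, true_and]
    exact ⟨p, hp, h⟩
  have h1 := le_trans (card_le_card hsub) card_biUnion_le
  have hterm : ∀ p ∈ X.P,
      X.w ^ 2 * (univ.filter (fun c => p < c ∧ X.w ^ 2 ≤ 256 * gv X.A p c)).card ≤ 256 * Lam := by
    intro p _
    calc X.w ^ 2 * (univ.filter (fun c => p < c ∧ X.w ^ 2 ≤ 256 * gv X.A p c)).card
        = ∑ _c ∈ univ.filter (fun c => p < c ∧ X.w ^ 2 ≤ 256 * gv X.A p c), X.w ^ 2 := by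
          simp [mul_comm]
      _ ≤ ∑ c ∈ univ.filter (fun c => p < c ∧ X.w ^ 2 ≤ 256 * gv X.A p c),
            256 * (if p < c then gv X.A p c else 0) := by
          apply sum_le_sum
          intro c hc
          simp only [mem_filter, mem_univ, true_and] at hc
          simp [hc.1, hc.2]
      _ ≤ ∑ c, 256 * (if p < c then gv X.A p c else 0) := sum_le_sum_of_subset (subset_univ _)
      _ = 256 * gl X.A p := by rw [← mul_sum]; rfl
      _ ≤ 256 * Lam := Nat.mul_le_mul_left _ (hlight p)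
  calc X.w ^ 2 * (Bad X).card
      ≤ X.w ^ 2 * ∑ p ∈ X.P, (univ.filter (fun c => p < c ∧ X.w ^ 2 ≤ 256 * gv X.A p c)).card :=
        Nat.mul_le_mul_left _ h1
    _ = ∑ p ∈ X.P, X.w ^ 2 * (univ.filter (fun c => p < c ∧ X.w ^ 2 ≤ 256 * gv X.A p c)).card := by
        rw [mul_sum]
    _ ≤ ∑ _p ∈ X.P, 256 * Lam := sum_le_sum hterm
    _ = 256 * (X.P.card * Lam) := by simp; ring

/-- two different windows of one pivot class cannot both be intermediate in a good column -/
lemma inter_unique (X : GP n) {p c : Fin n} (hp : p ∈ X.P) (hpc : p < c) (hc : c ∉ Bad X)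
    {a a' j j' : ℕ} (hj : j < X.s) (hj' : j' < X.s) (hG : (p, a) ∈ Lg X) (hG' : (p, a') ∈ Lg X)
    (h1 : X.w < 16 * kW X j (p, a) c) (h2 : 16 * kW X j (p, a) c < 15 * X.w)
    (h1' : X.w < 16 * kW X j' (p, a') c) (h2' : 16 * kW X j' (p, a') c < 15 * X.w) :
    j = j' := by
  by_contra hne
  apply hc
  simp only [Bad, mem_filter, mem_univ, true_and]
  refine ⟨p, hp, hpc, ?_⟩
  have hpiv : ∀ (j : ℕ) (a : ℕ), ∀ r ∈ Wn X j (p, a), X.A r p = true :=
    fun j a r hr => cell_pivot X (G := (p, a)) (Wn_sub X _ _ hr)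
  have hcase : (a < a' ∨ (a = a' ∧ j < j')) ∨ (a' < a ∨ (a' = a ∧ j' < j)) := by omega
  rcases hcase with h | h
  · exact inter_inter_bad X.A p c (Wn X j (p, a)) (Wn X j' (p, a')) X.w (hpiv _ _) (hpiv _ _)
      (fun r hr r' hr' => Wn_ordered X p h hr hr') (card_Wn X hj' hG') (le_of_lt h1) (le_of_lt h2')
  · exact inter_inter_bad X.A p c (Wn X j' (p, a')) (Wn X j (p, a)) X.w (hpiv _ _) (hpiv _ _)
      (fun r hr r' hr' => Wn_ordered X p h hr hr') (card_Wn X hj hG) (le_of_lt h1') (le_of_lt h2)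

lemma exists_window (X : GP n) (hs : 0 < X.s) :
    ∃ j < X.s, X.s * (NB X j \ Bad X).card ≤ X.P.card * n := by
  classical
  set T := (range X.s ×ˢ (univ : Finset (Fin n))).filter
    (fun q => q.2 ∈ NB X q.1 \ Bad X) with hT
  have hTcard : T.card ≤ (X.P ×ˢ (univ : Finset (Fin n))).card := by
    apply card_le_card_of_forall_subsingleton
      (fun (q : ℕ × Fin n) (b : Fin n × Fin n) => b.2 = q.2 ∧ ∃ a, (b.1, a) ∈ Lg X ∧ b.1 < q.2 ∧
        X.w < 16 * kW X q.1 (b.1, a) q.2 ∧ 16 * kW X q.1 (b.1, a) q.2 < 15 * X.w)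
    · intro q hq
      simp only [hT, mem_filter, mem_product, mem_range, mem_univ, and_true, mem_sdiff, NB,
        true_and] at hq
      obtain ⟨_, ⟨G, hG, h1, h2, h3⟩, _⟩ := hq
      refine ⟨(G.1, q.2), ?_, rfl, G.2, hG, h1, h2, h3⟩
      simp only [mem_product, mem_univ, and_true]
      exact (mem_Lg.mp hG).1.1
    · intro b hb q hq q' hq'
      simp only [hT, mem_filter, mem_product, mem_range, mem_univ, and_true, mem_sdiff,
        Set.mem_ofPred_eq] at hq hq' hb
      obtain ⟨⟨hj, _, hbad⟩, hc, a, hG, h1, h2, h3⟩ := hq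
      obtain ⟨⟨hj', _, _⟩, hc', a', hG', h1', h2', h3'⟩ := hq'
      have hcc : q.2 = q'.2 := by rw [← hc, ← hc']
      rw [← hcc] at h1' h2' h3'
      exact Prod.ext (inter_unique X hb h1 hbad hj hj' hG hG' h2 h3 h2' h3') hcc
  rw [card_product, card_univ, Fintype.card_fin] at hTcard
  have hsum : T.card = ∑ j ∈ range X.s, (NB X j \ Bad X).card := by
    rw [hT, card_filter_product (range X.s) (univ : Finset (Fin n))
      (fun j c => c ∈ NB X j \ Bad X)]
    apply sum_congr rfl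
    intro j _
    congr 1
    ext c
    simp
  have hex : ∃ j ∈ range X.s, X.s * (NB X j \ Bad X).card ≤ X.P.card * n := by
    apply exists_le_of_sum_le (by simpa using hs.ne')
    rw [← mul_sum, ← hsum]
    simp only [sum_const, card_range, smul_eq_mul]
    exact Nat.mul_le_mul_left _ hTcard
  obtain ⟨j, hj, hle⟩ := hex
  exact ⟨j, by simpa using hj, hle⟩

end Vale.Agent.Lib.P037
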