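import Vale.Agent.Lib.P037.GDefs

/-!
Zeroing the columns that start too many copies.
-/

namespace Vale.Agent.Lib.P037

open Finset

variable {n : ℕ}

/-- zero all columns `c` that are the first column of more than `Lam` copies -/
def lighten (Lam : ℕ) (A : Fin n → Fin n → Bool) (r c : Fin n) : Bool :=
  A r c && decide (gl A c ≤ Lam)

lemma gv_lighten_le (Lam : ℕ) (A : Fin n → Fin n → Bool) (x y : Fin n) :
    gv (lighten Lam A) x y ≤ gv A x y := by
  unfold gv
  apply card_le_card
  intro q hq
  simp only [mem_filter, mem_product, mem_univ, true_and, lighten, Bool.and_eq_true,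
    decide_eq_true_eq, Bool.and_eq_false_iff, decide_eq_false_iff_not] at hq ⊢
  obtain ⟨h0, ⟨h1, _⟩, ⟨h2, h2'⟩, ⟨h3, _⟩, h4⟩ := hq
  refine ⟨h0, h1, h2, h3, ?_⟩
  rcases h4 with h | h
  · exact h
  · exact absurd h2' h

lemma gl_lighten_le' (Lam : ℕ) (A : Fin n → Fin n → Bool) (x : Fin n) :
    gl (lighten Lam A) x ≤ gl A x := by
  unfold gl
  apply sum_le_sum
  intro y _
  split_ifs
  · exact gv_lighten_le Lam A x y
  · exact le_rfl

lemma gl_lighten_le (Lam : ℕ) (A : Fin n → Fin n → Bool) (x : Fin n) :
    gl (lighten Lam A) x ≤ Lam := by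
  by_cases hx : gl A x ≤ Lam
  · exact le_trans (gl_lighten_le' Lam A x) hx
  · have : gl (lighten Lam A) x = 0 := by
      unfold gl
      apply sum_eq_zero
      intro y _
      split_ifs
      · unfold gv
        rw [card_eq_zero, filter_eq_empty_iff]
        intro q _
        simp [lighten, hx]
      · rfl
    omega

lemma GN_lighten_le (Lam : ℕ) (A : Fin n → Fin n → Bool) : GN (lighten Lam A) ≤ GN A := by
  unfold GN
  exact sum_le_sum (fun x _ => gl_lighten_le' Lam A x)

lemma ham_lighten (Lam : ℕ) (A : Fin n → Fin n → Bool) :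
    Lam * ham A (lighten Lam A) ≤ n * GN A := by
  set Hv := (univ : Finset (Fin n)).filter (fun c => Lam < gl A c) with hHv
  have h1 : ham A (lighten Lam A) ≤ n * Hv.card := by
    unfold ham
    have hterm : ∀ c ∈ (univ : Finset (Fin n)),
        (univ.filter (fun r => A r c ≠ lighten Lam A r c)).card ≤ if c ∈ Hv then n else 0 := by
      intro c _
      by_cases hc : c ∈ Hv
      · simp only [hc, if_true]
        refine le_trans (card_filter_le _ _) ?_
        simp
      · simp only [hc, if_false, Nat.le_zero, card_eq_zero]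
        rw [filter_eq_empty_iff]
        intro r _
        simp only [hHv, mem_filter, mem_univ, true_and, not_lt] at hc
        simp [lighten, hc]
    refine le_trans (sum_le_sum hterm) ?_
    rw [← sum_filter]
    simp [mul_comm]
  have h2 : Hv.card * Lam ≤ GN A := by
    unfold GN
    calc Hv.card * Lam = ∑ _c ∈ Hv, Lam := by simp
      _ ≤ ∑ c ∈ Hv, gl A c := by
          apply sum_le_sum
          intro c hc
          simp only [hHv, mem_filter, mem_univ, true_and] at hc
          exact le_of_lt hc
      _ ≤ ∑ c, gl A c := sum_le_sum_of_subset (subset_univ _)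
  calc Lam * ham A (lighten Lam A) ≤ Lam * (n * Hv.card) := Nat.mul_le_mul_left _ h1
    _ = n * (Hv.card * Lam) := by ring
    _ ≤ n * GN A := Nat.mul_le_mul_left _ h2

end Vale.Agent.Lib.P037
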