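import Vale.Agent.Lib.P037.GTotal
import Vale.Agent.Lib.P037.GLight
import Vale.Agent.Lib.P037.GArith

namespace Vale.Agent.Lib.P037

open Finset

variable {n : ℕ}

/-- Polynomial removal for the pattern `[[1,1],[1,0]]`, in natural-number form. -/
theorem gcore (K : ℕ) (hK : 1 ≤ K) (A : Fin n → Fin n → Bool)
    (hfar : ∀ B, FreeG B → n ^ 2 < K * ham A B) : n ^ 4 ≤ (8192 * K) ^ 37 * GN A := by
  set M := 8192 * K with hM
  have hM1 : 1 ≤ M := by omega
  by_contra hcon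
  have hN : M ^ 37 * GN A < n ^ 4 := not_le.mp hcon
  have hNN : 1 ≤ GN A := by
    apply GN_pos_of_not_free
    intro hfree
    have := hfar A hfree
    rw [ham_self] at this
    omega
  by_cases hn : n < M ^ 9
  · have e1 : n ^ 4 ≤ (M ^ 9) ^ 4 := by gcongr
    have e2 : (M ^ 9) ^ 4 * 1 ≤ M ^ 37 * GN A := by
      calc (M ^ 9) ^ 4 * 1 = M ^ 36 * 1 * 1 := by ring
        _ ≤ M ^ 36 * M * GN A := by gcongr
        _ = M ^ 37 * GN A := by ring
    omega
  · have hn' : M ^ 9 ≤ n := not_lt.mp hn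
    have hpos : 0 < M ^ 9 := by positivity
    set g := n / M ^ 9 with hgdef
    have hg : 1 ≤ g := (Nat.one_le_div_iff hpos).mpr hn'
    have hX1 : g * M ^ 9 ≤ n := Nat.div_mul_le_self n (M ^ 9)
    have hX2 : n ≤ 2 * (g * M ^ 9) := by
      have := Nat.lt_mul_div_succ n hpos
      rw [← hgdef] at this
      nlinarith
    set A0 := lighten (g ^ 3 * M ^ 8) A with hA0
    obtain ⟨B, q, bad, nb, mis, hfree, e1, e2, e3, e4, e5⟩ :=
      gamma_general A0 (g * M ^ 6) (g * M) (M ^ 3) g (g * M ^ 8) (g ^ 3 * M ^ 8)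
        (by positivity) (by positivity) (by positivity) hg (gl_lighten_le _ A)
    have ht : n / (g * M ^ 6) + 1 ≤ 3 * M ^ 3 := by
      have e1 : n / (g * M ^ 6) ≤ 2 * M ^ 3 := by
        apply Nat.div_le_of_le_mul
        calc n ≤ 2 * (g * M ^ 9) := hX2
          _ = g * M ^ 6 * (2 * M ^ 3) := by ring
      have e2 : 1 ≤ M ^ 3 := Nat.one_le_pow _ _ hM1
      omega
    have hQ : 4 * GN A0 / (g * M) ^ 2 / g * (g ^ 3 * M ^ 2) ≤ 4 * GN A := by
      calc 4 * GN A0 / (g * M) ^ 2 / g * (g ^ 3 * M ^ 2)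
          = (4 * GN A0 / (g * M) ^ 2 / g * g) * (g * M) ^ 2 := by ring
        _ ≤ (4 * GN A0 / (g * M) ^ 2) * (g * M) ^ 2 := by
          gcongr
          exact Nat.div_mul_le_self _ _
        _ ≤ 4 * GN A0 := Nat.div_mul_le_self _ _
        _ ≤ 4 * GN A := Nat.mul_le_mul_left _ (GN_lighten_le _ A)
    have := garith n g M K (GN A) q bad nb mis (n / (g * M ^ 6) + 1)
      (4 * GN A0 / (g * M) ^ 2 / g) (ham A A0) (ham A0 B) hg hM hK hX1 hX2 ht hN hQ
      (ham_lighten _ A) e1 e2 e3 e4 e5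
    have h4 := hfar B hfree
    have h5 := Nat.mul_le_mul_left K (ham_triangle A A0 B)
    omega

end Vale.Agent.Lib.P037
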