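import Vale.Agent.Lib.P037.GBuild

/-!
Cost of the construction, part 1: the individual error sets.
-/

namespace Vale.Agent.Lib.P037

open Finset

variable {n : ℕ}

lemma card_le_of_same_strip (S : Finset (Fin n)) (L : ℕ) (hL : 0 < L)
    (h : ∀ r ∈ S, ∀ r' ∈ S, r.val / L = r'.val / L) : S.card ≤ L := by
  rcases S.eq_empty_or_nonempty with rfl | ⟨r0, hr0⟩
  · simp
  · refine le_trans (card_le_card ?_) (card_strip_le (n := n) L hL (r0.val / L))
    intro r hr
    simp only [mem_filter, mem_univ, true_and]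
    exact h r hr r0 hr0

lemma gv_ge_rows (A : Fin n → Fin n → Bool) (p c : Fin n) (S : Finset (Fin n)) (m : ℕ)
    (h : ∀ r ∈ S, A r p = true ∧ A r c = true ∧
      m ≤ 16 * (univ.filter (fun r2 => r < r2 ∧ A r2 p = true ∧ A r2 c = false)).card) :
    S.card * m ≤ 16 * gv A p c := by
  unfold gv
  rw [card_filter_product (univ : Finset (Fin n)) (univ : Finset (Fin n))
    (fun r1 r2 => r1 < r2 ∧ A r1 p = true ∧ A r1 c = true ∧ A r2 p = true ∧ A r2 c = false),
    mul_sum]
  calc S.card * m = ∑ _r ∈ S, m := by simp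
    _ ≤ ∑ r ∈ S, 16 * (univ.filter (fun r2 => r < r2 ∧ A r p = true ∧ A r c = true
          ∧ A r2 p = true ∧ A r2 c = false)).card := by
        apply sum_le_sum
        intro r hr
        obtain ⟨h1, h2, h3⟩ := h r hr
        refine le_trans h3 (Nat.mul_le_mul_left _ (card_le_card ?_))
        intro r2 hr2
        simp only [mem_filter, mem_univ, true_and] at hr2 ⊢
        exact ⟨hr2.1, h1, h2, hr2.2⟩
    _ ≤ _ := sum_le_sum_of_subset (subset_univ _)

lemma gv_ge_rows' (A : Fin n → Fin n → Bool) (p c : Fin n) (S : Finset (Fin n)) (m : ℕ)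
    (h : ∀ r ∈ S, A r p = true ∧ A r c = false ∧
      m ≤ 16 * (univ.filter (fun r1 => r1 < r ∧ A r1 p = true ∧ A r1 c = true)).card) :
    S.card * m ≤ 16 * gv A p c := by
  unfold gv
  rw [card_filter_product' (univ : Finset (Fin n)) (univ : Finset (Fin n))
    (fun r1 r2 => r1 < r2 ∧ A r1 p = true ∧ A r1 c = true ∧ A r2 p = true ∧ A r2 c = false),
    mul_sum]
  calc S.card * m = ∑ _r ∈ S, m := by simp
    _ ≤ ∑ r ∈ S, 16 * (univ.filter (fun r1 => r1 < r ∧ A r1 p = true ∧ A r1 c = true
          ∧ A r p = true ∧ A r c = false)).card := by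
        apply sum_le_sum
        intro r hr
        obtain ⟨h1, h2, h3⟩ := h r hr
        refine le_trans h3 (Nat.mul_le_mul_left _ (card_le_card ?_))
        intro r1 hr1
        simp only [mem_filter, mem_univ, true_and] at hr1 ⊢
        exact ⟨hr1.1, hr1.2.1, hr1.2.2, h1, h2⟩
    _ ≤ _ := sum_le_sum_of_subset (subset_univ _)

lemma mem_cell_of_cls (X : GP n) {p r : Fin n} (h : r ∈ cls X.A X.P p) :
    r ∈ cellG X (p, r.val / X.L) := by
  simp only [cellG, mem_filter]
  exact ⟨h, trivial⟩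

/-- ones of column `c` in cells whose window is not dense -/
def UU (X : GP n) (j : ℕ) (p c : Fin n) : Finset (Fin n) :=
  (cls X.A X.P p).filter (fun r => p < c ∧ (p, r.val / X.L) ∈ Lg X ∧ X.A r c = true
    ∧ 16 * kW X j (p, r.val / X.L) c < 15 * X.w)

/-- zeros of column `c` in cells whose window is dense -/
def ZZ (X : GP n) (j : ℕ) (p c : Fin n) : Finset (Fin n) :=
  (cls X.A X.P p).filter (fun r => p < c ∧ (p, r.val / X.L) ∈ Lg X ∧ X.A r c = false
    ∧ 15 * X.w ≤ 16 * kW X j (p, r.val / X.L) c)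

lemma cls_pivot (X : GP n) {p r : Fin n} (h : r ∈ cls X.A X.P p) : X.A r p = true := by
  simp only [cls, mem_filter, mem_univ, true_and] at h
  exact h.1

lemma UU_bound (X : GP n) {j : ℕ} (hj : j < X.s) (hL : 0 < X.L) (p c : Fin n) :
    X.w * (UU X j p c).card ≤ X.w * X.L + 16 * (if p < c then gv X.A p c else 0) := by
  classical
  by_cases hpc : p < c
  swap
  · have : UU X j p c = ∅ := by
      unfold UU
      rw [filter_eq_empty_iff]
      intro r _ h
      exact hpc h.1
    simp [this]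
  simp only [hpc, if_true]
  set U := UU X j p c with hU
  set U1 := U.filter (fun r => ∃ r' ∈ U, r.val / X.L < r'.val / X.L) with hU1
  set U2 := U.filter (fun r => ¬ ∃ r' ∈ U, r.val / X.L < r'.val / X.L) with hU2
  have hsplit : U.card = U1.card + U2.card :=
    (card_filter_add_card_filter_not (s := U) (fun r => ∃ r' ∈ U, r.val / X.L < r'.val / X.L)).symm
  have h2 : U2.card ≤ X.L := by
    apply card_le_of_same_strip _ _ hL
    intro r hr r' hr'
    simp only [hU2, mem_filter, not_exists, not_and, not_lt] at hr hr'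
    exact le_antisymm (hr'.2 r hr.1) (hr.2 r' hr'.1)
  have h1 : U1.card * X.w ≤ 16 * gv X.A p c := by
    apply gv_ge_rows
    intro r hr
    simp only [hU1, mem_filter] at hr
    obtain ⟨hrU, r', hr'U, hlt⟩ := hr
    simp only [hU, UU, mem_filter] at hrU hr'U
    refine ⟨cls_pivot X hrU.1, hrU.2.2.2.1, ?_⟩
    obtain ⟨_, _, hLg', _, hnd⟩ := hr'U
    have e1 := card_true_add_false (Wn X j (p, r'.val / X.L)) (fun r => X.A r c)
    rw [card_Wn X hj hLg'] at e1
    have e2 : X.w ≤ 16 * ((Wn X j (p, r'.val / X.L)).filter (fun r => X.A r c = false)).card := by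
      unfold kW at hnd
      omega
    refine le_trans e2 (Nat.mul_le_mul_left _ (card_le_card ?_))
    intro r2 hr2
    simp only [mem_filter, mem_univ, true_and] at hr2 ⊢
    have hcell := Wn_sub X _ _ hr2.1
    exact ⟨cell_lt_of_strip X (G := (p, r.val / X.L)) (G' := (p, r'.val / X.L)) hlt
      (mem_cell_of_cls X hrU.1) hcell, cell_pivot X hcell, hr2.2⟩
  calc X.w * U.card = U1.card * X.w + X.w * U2.card := by rw [hsplit]; ring
    _ ≤ 16 * gv X.A p c + X.w * X.L := Nat.add_le_add h1 (Nat.mul_le_mul_left _ h2)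
    _ = _ := by ring

lemma ZZ_bound (X : GP n) {j : ℕ} (hL : 0 < X.L) (p c : Fin n) :
    X.w * (ZZ X j p c).card ≤ X.w * X.L + 16 * (if p < c then gv X.A p c else 0) := by
  classical
  by_cases hpc : p < c
  swap
  · have : ZZ X j p c = ∅ := by
      unfold ZZ
      rw [filter_eq_empty_iff]
      intro r _ h
      exact hpc h.1
    simp [this]
  simp only [hpc, if_true]
  set U := ZZ X j p c with hU
  set U1 := U.filter (fun r => ∃ r' ∈ U, r'.val / X.L < r.val / X.L) with hU1
  set U2 := U.filter (fun r => ¬ ∃ r' ∈ U, r'.val / X.L < r.val / X.L) with hU2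
  have hsplit : U.card = U1.card + U2.card :=
    (card_filter_add_card_filter_not (s := U) (fun r => ∃ r' ∈ U, r'.val / X.L < r.val / X.L)).symm
  have h2 : U2.card ≤ X.L := by
    apply card_le_of_same_strip _ _ hL
    intro r hr r' hr'
    simp only [hU2, mem_filter, not_exists, not_and, not_lt] at hr hr'
    exact le_antisymm (hr.2 r' hr'.1) (hr'.2 r hr.1)
  have h1 : U1.card * X.w ≤ 16 * gv X.A p c := by
    apply gv_ge_rows'
    intro r hr
    simp only [hU1, mem_filter] at hr
    obtain ⟨hrU, r', hr'U, hlt⟩ := hr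
    simp only [hU, ZZ, mem_filter] at hrU hr'U
    refine ⟨cls_pivot X hrU.1, hrU.2.2.2.1, ?_⟩
    obtain ⟨_, _, hLg', _, hnd⟩ := hr'U
    have e2 : X.w ≤ 16 * ((Wn X j (p, r'.val / X.L)).filter (fun r => X.A r c = true)).card := by
      unfold kW at hnd
      omega
    refine le_trans e2 (Nat.mul_le_mul_left _ (card_le_card ?_))
    intro r2 hr2
    simp only [mem_filter, mem_univ, true_and] at hr2 ⊢
    have hcell := Wn_sub X _ _ hr2.1
    exact ⟨cell_lt_of_strip X (G := (p, r'.val / X.L)) (G' := (p, r.val / X.L)) hlt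
      hcell (mem_cell_of_cls X hrU.1), cell_pivot X hcell, hr2.2⟩
  calc X.w * U.card = U1.card * X.w + X.w * U2.card := by rw [hsplit]; ring
    _ ≤ 16 * gv X.A p c + X.w * X.L := Nat.add_le_add h1 (Nat.mul_le_mul_left _ h2)
    _ = _ := by ring

lemma VP_mono (X : GP n) {j : ℕ} (hj : j < X.s) {p : Fin n} {a a' : ℕ} (hG : (p, a) ∈ Lg X)
    (hG' : (p, a') ∈ Lg X) (h : a < a') : VP X j (p, a) ⊆ VP X j (p, a') := by
  intro c hc
  simp only [VP, VV, mem_filter, mem_univ, true_and] at hc ⊢
  obtain ⟨⟨hpc, hbad, hnb, hd⟩, hdel⟩ := hc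
  refine ⟨⟨hpc, hbad, hnb, ?_⟩, hdel⟩
  by_contra hcon
  rcases eq_or_lt_of_le hpc with heq | hlt
  · have e1 := kW_pivot X j (p, a')
    rw [card_Wn X hj hG'] at e1
    simp only at e1 heq
    rw [← heq, e1] at hcon
    omega
  · have h6 : 16 * kW X j (p, a') c ≤ X.w := by
      by_contra hcon2
      apply hnb
      simp only [NB, mem_filter, mem_univ, true_and]
      exact ⟨(p, a'), hG', hlt, not_le.mp hcon2, not_le.mp hcon⟩
    apply hbad
    simp only [Bad, mem_filter, mem_univ, true_and]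
    refine ⟨p, (mem_Lg.mp hG).1.1, hlt, ?_⟩
    apply inter_inter_bad X.A p c (Wn X j (p, a)) (Wn X j (p, a')) X.w
      (fun r hr => cell_pivot X (G := (p, a)) (Wn_sub X _ _ hr))
      (fun r hr => cell_pivot X (G := (p, a')) (Wn_sub X _ _ hr))
      (fun r hr r' hr' => Wn_ordered X p (Or.inl h) hr hr') (card_Wn X hj hG')
    · unfold kW at hd
      omega
    · unfold kW at h6
      omega

/-- entries added by the closure -/
noncomputable def X5 (X : GP n) (j : ℕ) (p c : Fin n) : Finset (Fin n) :=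
  open scoped Classical in
  (cls X.A X.P p).filter (fun r => (p, r.val / X.L) ∈ Lg X ∧ c ∈ VB X j (p, r.val / X.L)
    ∧ c ∉ VP X j (p, r.val / X.L))

lemma X5_bound (X : GP n) {j : ℕ} (hj : j < X.s) (hL : 0 < X.L) (p c : Fin n) :
    (X5 X j p c).card ≤ X.L := by
  have key : ∀ r ∈ X5 X j p c, ∀ r' ∈ X5 X j p c, ¬ r.val / X.L < r'.val / X.L := by
    intro r hr r' hr' hlt
    simp only [X5, mem_filter] at hr hr'
    obtain ⟨_, hG, hvb, _⟩ := hr
    obtain ⟨_, hG', _, hnv⟩ := hr'
    apply hnv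
    have := Vbar_sub_later (↑(Lg X) : Set (Fin n × ℕ)) Prod.snd
      (fun G => (↑(VP X j G) : Set (Fin n))) (tri X j)
      (fun G hG G' hG' h => tri_of_strip X hj hG hG' h)
      (fun G hG G' hG' ht x y hxy hx hy hx' => VP_coherent X j hG hG' ht hxy hx hy hx')
      (G := (p, r.val / X.L)) (G' := (p, r'.val / X.L)) hG' hlt
      (by
        intro x hx
        exact VP_mono X hj hG hG' hlt hx) hvb
    exact this
  apply card_le_of_same_strip _ _ hL
  intro r hr r' hr'
  have h1 := key r hr r' hr'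
  have h2 := key r' hr' r hr
  omega

/-- rows lying in small cells -/
def Small (X : GP n) : Finset (Fin n) :=
  univ.filter (fun r => ∃ p ∈ X.P, r ∈ cls X.A X.P p ∧ (p, r.val / X.L) ∉ Lg X)

lemma card_Small (X : GP n) (hL : 0 < X.L) :
    (Small X).card ≤ X.P.card * (n / X.L + 1) * (X.s * X.w) := by
  classical
  have hsub : Small X ⊆ ((X.P ×ˢ range (n / X.L + 1)).filter (fun G => G ∉ Lg X)).biUnion
      (fun G => cellG X G) := by
    intro r hr
    simp only [Small, mem_filter, mem_univ, true_and] at hr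
    obtain ⟨p, hp, hcl, hn⟩ := hr
    simp only [mem_biUnion, mem_filter, mem_product, mem_range]
    exact ⟨(p, r.val / X.L), ⟨⟨hp, strip_lt X.L hL r⟩, hn⟩, mem_cell_of_cls X hcl⟩
  refine le_trans (card_le_card hsub) (le_trans card_biUnion_le ?_)
  have hterm : ∀ G ∈ (X.P ×ˢ range (n / X.L + 1)).filter (fun G => G ∉ Lg X),
      (cellG X G).card ≤ X.s * X.w := by
    intro G hG
    simp only [mem_filter, mem_product, mem_range] at hG
    by_contra hcon
    exact hG.2 (mem_Lg.mpr ⟨hG.1, le_of_lt (not_le.mp hcon)⟩)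
  refine le_trans (sum_le_sum hterm) ?_
  simp only [sum_const, smul_eq_mul]
  apply Nat.mul_le_mul_right
  refine le_trans (card_filter_le _ _) ?_
  simp

end Vale.Agent.Lib.P037
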