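import Vale.Agent.Lib.P037.General

/-!
Counting copies of the pattern `[[1,1],[1,0]]` (problem P037), and rank windows.
-/

namespace Vale.Agent.Lib.P037

open Finset

variable {n : ℕ}

/-- number of copies of `[[1,1],[1,0]]` on the columns `x`, `y` -/
def gv (A : Fin n → Fin n → Bool) (x y : Fin n) : ℕ :=
  ((univ ×ˢ univ).filter (fun q : Fin n × Fin n => q.1 < q.2 ∧ A q.1 x = true ∧ A q.1 y = true
    ∧ A q.2 x = true ∧ A q.2 y = false)).card

/-- number of copies whose first column is `x` -/
def gl (A : Fin n → Fin n → Bool) (x : Fin n) : ℕ := ∑ y, if x < y then gv A x y else 0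

/-- number of copies of `[[1,1],[1,0]]` -/
def GN (A : Fin n → Fin n → Bool) : ℕ := ∑ x, gl A x

/-- no ordered copy of `[[1,1],[1,0]]` -/
def FreeG (B : Fin n → Fin n → Bool) : Prop :=
  ∀ r1 r2 c1 c2 : Fin n, r1 < r2 → c1 < c2 →
    ¬ (B r1 c1 = true ∧ B r1 c2 = true ∧ B r2 c1 = true ∧ B r2 c2 = false)

lemma gv_le_gl (A : Fin n → Fin n → Bool) {x y : Fin n} (h : x < y) : gv A x y ≤ gl A x := by
  unfold gl
  have := single_le_sum (f := fun y => if x < y then gv A x y else 0)
    (fun i _ => Nat.zero_le _) (mem_univ y)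
  simpa [h] using this

lemma sum_gv_le (A : Fin n → Fin n → Bool) (E : Finset (Fin n × Fin n))
    (hE : ∀ p ∈ E, p.1 < p.2) : ∑ p ∈ E, gv A p.1 p.2 ≤ GN A := by
  unfold GN gl
  rw [← sum_product' (univ : Finset (Fin n)) (univ : Finset (Fin n))
    (fun c c' => if c < c' then gv A c c' else 0)]
  calc ∑ p ∈ E, gv A p.1 p.2 = ∑ p ∈ E, (if p.1 < p.2 then gv A p.1 p.2 else 0) := by
        apply sum_congr rfl
        intro p hp
        simp [hE p hp]
    _ ≤ _ := sum_le_sum_of_subset (fun p _ => by simp)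

lemma GN_pos_of_not_free (A : Fin n → Fin n → Bool) (h : ¬ FreeG A) : 1 ≤ GN A := by
  unfold FreeG at h
  push Not at h
  obtain ⟨r1, r2, c1, c2, hr, hc, h11, h12, h21, h22⟩ := h
  have h1 := sum_gv_le A {(c1, c2)} (by simpa using hc)
  simp only [sum_singleton] at h1
  refine le_trans ?_ h1
  unfold gv
  rw [Nat.succ_le_iff, card_pos]
  exact ⟨(r1, r2), by simp [h11, h12, h21, h22, hr]⟩

/-- basic evidence: ordered pairs between a set of `(1,1)` rows and a set of `(1,0)` rows -/
lemma gv_ge_pairs (A : Fin n → Fin n → Bool) (x y : Fin n) (X Y : Finset (Fin n))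
    (hX : ∀ r ∈ X, A r x = true ∧ A r y = true) (hY : ∀ r ∈ Y, A r x = true ∧ A r y = false) :
    ((X ×ˢ Y).filter (fun q => q.1 < q.2)).card ≤ gv A x y := by
  unfold gv
  apply card_le_card
  intro q hq
  simp only [mem_filter, mem_product, mem_univ, true_and] at hq ⊢
  exact ⟨hq.2, (hX _ hq.1.1).1, (hX _ hq.1.1).2, (hY _ hq.1.2).1, (hY _ hq.1.2).2⟩

/-- evidence when all rows of `X` precede all rows of `Y` -/
lemma gv_ge_mul (A : Fin n → Fin n → Bool) (x y : Fin n) (X Y : Finset (Fin n))
    (hX : ∀ r ∈ X, A r x = true ∧ A r y = true) (hY : ∀ r ∈ Y, A r x = true ∧ A r y = false)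
    (hlt : ∀ r ∈ X, ∀ r' ∈ Y, r < r') : X.card * Y.card ≤ gv A x y := by
  refine le_trans (le_of_eq ?_) (gv_ge_pairs A x y X Y hX hY)
  rw [← card_product, filter_true_of_mem]
  intro q hq
  rw [mem_product] at hq
  exact hlt _ hq.1 _ hq.2

/-- rank of `r` inside `O` (number of smaller elements) -/
def prk (O : Finset (Fin n)) (r : Fin n) : ℕ := (O.filter (fun o => o < r)).card

lemma prk_mono (O : Finset (Fin n)) {r r' : Fin n} (h : r ≤ r') : prk O r ≤ prk O r' := by
  unfold prk
  apply card_le_card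
  intro o ho
  simp only [mem_filter] at ho ⊢
  exact ⟨ho.1, lt_of_lt_of_le ho.2 h⟩

lemma card_filter_prk_lt (O : Finset (Fin n)) (m : ℕ) (hm : m ≤ O.card) :
    (O.filter (fun o => prk O o < m)).card = m := by
  have h := card_filter_rk_lt O (fun o : Fin n => n - o.val)
    (by
      intro a _ b _ hab
      apply Fin.ext
      have := a.isLt
      have := b.isLt
      simp only at hab
      omega) m hm
  have hrk : ∀ o : Fin n, rk O (fun o : Fin n => n - o.val) o = prk O o := by
    intro o
    unfold rk prk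
    congr 1
    apply filter_congr
    intro x _
    have := x.isLt
    have := o.isLt
    rw [Fin.lt_def]
    show n - o.val < n - x.val ↔ x.val < o.val
    omega
  simpa [hrk] using h

/-- the `j`-th window of `w` consecutive elements of `O` -/
def wind (O : Finset (Fin n)) (w j : ℕ) : Finset (Fin n) :=
  O.filter (fun r => j * w ≤ prk O r ∧ prk O r < (j + 1) * w)

lemma wind_subset (O : Finset (Fin n)) (w j : ℕ) : wind O w j ⊆ O := filter_subset _ _

lemma card_wind (O : Finset (Fin n)) (w j : ℕ) (h : (j + 1) * w ≤ O.card) :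
    (wind O w j).card = w := by
  have h1 := card_filter_prk_lt O ((j + 1) * w) h
  have hle : j * w ≤ (j + 1) * w := Nat.mul_le_mul_right _ (Nat.le_succ j)
  have h2 := card_filter_prk_lt O (j * w) (le_trans hle h)
  have h3 : O.filter (fun o => prk O o < (j + 1) * w)
      = O.filter (fun o => prk O o < j * w) ∪ wind O w j := by
    ext r
    simp only [wind, mem_filter, mem_union]
    constructor
    · rintro ⟨hr, hlt⟩
      rcases Nat.lt_or_ge (prk O r) (j * w) with h | h
      · exact Or.inl ⟨hr, h⟩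
      · exact Or.inr ⟨hr, h, hlt⟩
    · rintro (⟨hr, hlt⟩ | ⟨hr, _, hlt⟩)
      · exact ⟨hr, lt_of_lt_of_le hlt hle⟩
      · exact ⟨hr, hlt⟩
  have h4 : Disjoint (O.filter (fun o => prk O o < j * w)) (wind O w j) := by
    rw [disjoint_left]
    intro r hr hr'
    simp only [wind, mem_filter] at hr hr'
    omega
  rw [h3, card_union_of_disjoint h4, h2] at h1
  have h5 : (j + 1) * w = j * w + w := by ring
  omega

lemma wind_lt (O : Finset (Fin n)) (w : ℕ) {j j' : ℕ} (hj : j < j') {r r' : Fin n}
    (hr : r ∈ wind O w j) (hr' : r' ∈ wind O w j') : r < r' := by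
  simp only [wind, mem_filter] at hr hr'
  by_contra hcon
  have h1 := prk_mono O (not_lt.mp hcon)
  have h2 : (j + 1) * w ≤ j' * w := Nat.mul_le_mul_right _ hj
  omega

end Vale.Agent.Lib.P037
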