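import Vale.Agent.Lib.P037.GDefs

/-!
Evidence lemmas: dense / sparse windows force copies of `[[1,1],[1,0]]`.
-/

namespace Vale.Agent.Lib.P037

open Finset

variable {n : ℕ}

lemma card_true_add_false (W : Finset (Fin n)) (f : Fin n → Bool) :
    (W.filter (fun r => f r = true)).card + (W.filter (fun r => f r = false)).card = W.card := by
  rw [← card_union_of_disjoint]
  · congr 1
    ext r
    simp only [mem_union, mem_filter]
    cases f r <;> simp
  · rw [disjoint_left]
    intro r hr hr'
    simp only [mem_filter] at hr hr'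
    rw [hr.2] at hr'
    simp at hr'

/-- ones in an earlier window times zeros in a later window, all rows having a one at `p` -/
lemma ones_zeros_le (A : Fin n → Fin n → Bool) (p c : Fin n) (W1 W2 : Finset (Fin n))
    (h1 : ∀ r ∈ W1, A r p = true) (h2 : ∀ r ∈ W2, A r p = true)
    (hlt : ∀ r ∈ W1, ∀ r' ∈ W2, r < r') :
    (W1.filter (fun r => A r c = true)).card * (W2.filter (fun r => A r c = false)).card
      ≤ gv A p c := by
  apply gv_ge_mul
  · intro r hr
    rw [mem_filter] at hr
    exact ⟨h1 r hr.1, hr.2⟩
  · intro r hr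
    rw [mem_filter] at hr
    exact ⟨h2 r hr.1, hr.2⟩
  · intro r hr r' hr'
    rw [mem_filter] at hr hr'
    exact hlt r hr.1 r' hr'.1

lemma inter_inter_bad (A : Fin n → Fin n → Bool) (p c : Fin n) (W1 W2 : Finset (Fin n)) (w : ℕ)
    (h1 : ∀ r ∈ W1, A r p = true) (h2 : ∀ r ∈ W2, A r p = true)
    (hlt : ∀ r ∈ W1, ∀ r' ∈ W2, r < r') (hW2 : W2.card = w)
    (ha : w ≤ 16 * (W1.filter (fun r => A r c = true)).card)
    (hb : 16 * (W2.filter (fun r => A r c = true)).card ≤ 15 * w) :
    w ^ 2 ≤ 256 * gv A p c := by
  have e1 := ones_zeros_le A p c W1 W2 h1 h2 hlt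
  have e2 := card_true_add_false W2 (fun r => A r c)
  have e3 : w ≤ 16 * (W2.filter (fun r => A r c = false)).card := by omega
  calc w ^ 2 = w * w := sq w
    _ ≤ (16 * (W1.filter (fun r => A r c = true)).card)
        * (16 * (W2.filter (fun r => A r c = false)).card) := Nat.mul_le_mul ha e3
    _ = 256 * ((W1.filter (fun r => A r c = true)).card
        * (W2.filter (fun r => A r c = false)).card) := by ring
    _ ≤ 256 * gv A p c := Nat.mul_le_mul_left _ e1

lemma tri_evidence (A : Fin n → Fin n → Bool) (x y : Fin n) (W W' : Finset (Fin n)) (w : ℕ)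
    (hW : W.card = w) (hW' : W'.card = w)
    (htri : w ^ 2 ≤ 2 * ((W ×ˢ W').filter (fun q => q.1 < q.2)).card)
    (h1 : 15 * w ≤ 16 * (W.filter (fun r => A r x = true)).card)
    (h2 : 15 * w ≤ 16 * (W.filter (fun r => A r y = true)).card)
    (h3 : 15 * w ≤ 16 * (W'.filter (fun r => A r x = true)).card)
    (h4 : 16 * (W'.filter (fun r => A r y = true)).card ≤ w) :
    w ^ 2 ≤ 4 * gv A x y := by
  classical
  set X := W.filter (fun r => A r x = true ∧ A r y = true) with hX
  set Y := W'.filter (fun r => A r x = true ∧ A r y = false) with hY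
  set X' := W.filter (fun r => A r x = false) ∪ W.filter (fun r => A r y = false) with hX'
  set Y' := W'.filter (fun r => A r x = false) ∪ W'.filter (fun r => A r y = true) with hY'
  have e1 := card_true_add_false W (fun r => A r x)
  have e2 := card_true_add_false W (fun r => A r y)
  have e3 := card_true_add_false W' (fun r => A r x)
  have a1 : 16 * X'.card ≤ 2 * w := by
    have : X'.card ≤ (W.filter (fun r => A r x = false)).card
        + (W.filter (fun r => A r y = false)).card := card_union_le _ _
    omega
  have a2 : 16 * Y'.card ≤ 2 * w := by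
    have : Y'.card ≤ (W'.filter (fun r => A r x = false)).card
        + (W'.filter (fun r => A r y = true)).card := card_union_le _ _
    omega
  have hsub : (W ×ˢ W').filter (fun q => q.1 < q.2)
      ⊆ (X ×ˢ Y).filter (fun q => q.1 < q.2) ∪ (X' ×ˢ W' ∪ W ×ˢ Y') := by
    intro q hq
    simp only [mem_filter, mem_product, mem_union, hX, hY, hX', hY'] at hq ⊢
    obtain ⟨⟨hq1, hq2⟩, hlt⟩ := hq
    cases hx1 : A q.1 x <;> cases hy1 : A q.1 y <;> cases hx2 : A q.2 x <;> cases hy2 : A q.2 y <;>
      simp [hq1, hq2, hlt]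
  have e4 := le_trans (card_le_card hsub) (le_trans (card_union_le _ _)
    (Nat.add_le_add_left (card_union_le _ _) _))
  rw [card_product, card_product, hW, hW'] at e4
  have e5 : ((X ×ˢ Y).filter (fun q => q.1 < q.2)).card ≤ gv A x y := by
    apply gv_ge_pairs
    · intro r hr
      simp only [hX, mem_filter] at hr
      exact hr.2
    · intro r hr
      simp only [hY, mem_filter] at hr
      exact hr.2
  have e6 : 16 * (X'.card * w) ≤ 2 * (w * w) := by
    calc 16 * (X'.card * w) = (16 * X'.card) * w := by ring
      _ ≤ 2 * w * w := Nat.mul_le_mul_right _ a1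
      _ = 2 * (w * w) := by ring
  have e7 : 16 * (w * Y'.card) ≤ 2 * (w * w) := by
    calc 16 * (w * Y'.card) = (16 * Y'.card) * w := by ring
      _ ≤ 2 * w * w := Nat.mul_le_mul_right _ a2
      _ = 2 * (w * w) := by ring
  have e8 : w ^ 2 = w * w := sq w
  generalize w * w = ww at *
  omega

/-- for disjoint sets, one of the two orders carries at least half of the pairs -/
lemma pairs_total (W W' : Finset (Fin n)) (hdisj : Disjoint W W') :
    W.card * W'.card ≤ ((W ×ˢ W').filter (fun q => q.1 < q.2)).card
      + ((W' ×ˢ W).filter (fun q => q.1 < q.2)).card := by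
  rw [← card_product, ← card_filter_add_card_filter_not (s := W ×ˢ W') (fun q => q.1 < q.2)]
  apply Nat.add_le_add_left
  apply card_le_card_of_injOn Prod.swap
  · intro q hq
    simp only [coe_filter, mem_product, Set.mem_ofPred_eq, Prod.fst_swap, Prod.snd_swap] at hq ⊢
    refine ⟨⟨hq.1.2, hq.1.1⟩, ?_⟩
    rcases lt_trichotomy q.1 q.2 with h | h | h
    · exact absurd h hq.2
    · exfalso
      have := (disjoint_left.mp hdisj) hq.1.1
      rw [h] at this
      exact this hq.1.2
    · exact h
  · intro a _ b _ h
    exact Prod.swap_injective h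

end Vale.Agent.Lib.P037
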