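import Vale.Agent.Lib.P037.Defs

/-!
From a natural-number inequality to the removal property.
-/

namespace Vale.Agent.Lib.P037

theorem polyRemoval_of_nat {k : ℕ} (H : Fin k → Fin k → Bool) (c0 e : ℕ) (hc0 : 1 ≤ c0)
    (he : 1 ≤ e)
    (h : ∀ (n : ℕ) (A : Fin n → Fin n → Bool) (K : ℕ), 1 ≤ K →
      (∀ B, IsFree H B → n ^ 2 < K * numDiff A B) → n ^ (2 * k) ≤ (c0 * K) ^ e * numCopies H A) :
    PolyRemoval H := by
  have hc0' : (0 : ℝ) < c0 := by exact_mod_cast hc0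
  refine ⟨(1 / (3 * c0)) ^ e, e, by positivity, by exact_mod_cast he, ?_⟩
  intro n hn ε hε0 hε1 A hfar
  set K := ⌈2 / ε⌉₊ with hKdef
  have h2ε : 0 < 2 / ε := by positivity
  have hK1 : 1 ≤ K := Nat.ceil_pos.mpr h2ε
  have hKge : 2 / ε ≤ (K : ℝ) := Nat.le_ceil _
  have hKle : (K : ℝ) ≤ 3 / ε := by
    have e1 : (K : ℝ) < 2 / ε + 1 := Nat.ceil_lt_add_one (le_of_lt h2ε)
    have e2 : 1 ≤ 1 / ε := by
      rw [le_div_iff₀ hε0]
      linarith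
    have e3 : 3 / ε = 2 / ε + 1 / ε := by ring
    linarith
  have hnpos : (0 : ℝ) < (n : ℝ) ^ 2 := by
    have : (0 : ℝ) < n := by exact_mod_cast hn
    positivity
  have hfar' : ∀ B, IsFree H B → n ^ 2 < K * numDiff A B := by
    intro B hB
    have e1 := hfar _ hB
    have e2 : (2 : ℝ) ≤ K * ε := by
      rw [div_le_iff₀ hε0] at hKge
      exact hKge
    have e3 : ((n : ℝ) ^ 2) < (K : ℝ) * (numDiff A B : ℝ) := by
      have hKpos : (0 : ℝ) ≤ K := by positivity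
      calc (n : ℝ) ^ 2 < 2 * (n : ℝ) ^ 2 := by linarith
        _ ≤ (K * ε) * (n : ℝ) ^ 2 := by gcongr
        _ = K * (ε * (n : ℝ) ^ 2) := by ring
        _ ≤ K * (numDiff A B : ℝ) := by gcongr
    exact_mod_cast e3
  have hcore := h n A K hK1 hfar'
  have hcore' : (n : ℝ) ^ (2 * k) ≤ ((c0 : ℝ) * (K : ℝ)) ^ e * (numCopies H A : ℝ) := by
    exact_mod_cast hcore
  have hpow : ε ^ ((e : ℕ) : ℝ) = ε ^ e := Real.rpow_natCast ε e
  rw [hpow]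
  have e4 : ((c0 : ℝ) * (K : ℝ)) ^ e ≤ (3 * c0 / ε) ^ e := by
    have : (c0 : ℝ) * (K : ℝ) ≤ 3 * c0 / ε := by
      calc (c0 : ℝ) * (K : ℝ) ≤ c0 * (3 / ε) := by gcongr
        _ = 3 * c0 / ε := by ring
    gcongr
  have hNc : (0 : ℝ) ≤ (numCopies H A : ℝ) := by positivity
  calc (1 / (3 * (c0 : ℝ))) ^ e * ε ^ e * (n : ℝ) ^ (2 * k)
      ≤ (1 / (3 * (c0 : ℝ))) ^ e * ε ^ e * (((c0 : ℝ) * (K : ℝ)) ^ e * (numCopies H A : ℝ)) := by
        gcongr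
    _ ≤ (1 / (3 * (c0 : ℝ))) ^ e * ε ^ e * ((3 * c0 / ε) ^ e * (numCopies H A : ℝ)) := by gcongr
    _ = ((1 / (3 * (c0 : ℝ))) * ε * (3 * c0 / ε)) ^ e * (numCopies H A : ℝ) := by
        rw [mul_pow, mul_pow]
        ring
    _ = (numCopies H A : ℝ) := by
      have : (1 / (3 * (c0 : ℝ))) * ε * (3 * c0 / ε) = 1 := by field_simp
      rw [this]
      simp

end Vale.Agent.Lib.P037
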