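import Vale.Agent.Lib.P037.GCore
import Vale.Agent.Lib.P037.NatForm

namespace Vale.Agent.Lib.P037

open Finset

variable {n : ℕ}

lemma numDiff_eq_ham' (A B : Fin n → Fin n → Bool) : numDiff A B = ham A B := by
  classical
  unfold numDiff ham
  rw [← card_filter_product' (univ : Finset (Fin n)) (univ : Finset (Fin n))
    (fun r c => A r c ≠ B r c), Set.ncard_eq_toFinset_card']
  congr 1
  ext q
  rw [Set.mem_toFinset, mem_filter]
  simp only [mem_product, mem_univ, true_and]
  rfl

/-- a 2 x 2 copy, spelled out -/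
lemma isCopy_two (H : Fin 2 → Fin 2 → Bool) (A : Fin n → Fin n → Bool) (r1 r2 c1 c2 : Fin n)
    (hr : r1 < r2) (hc : c1 < c2) (h11 : A r1 c1 = H 0 0) (h12 : A r1 c2 = H 0 1)
    (h21 : A r2 c1 = H 1 0) (h22 : A r2 c2 = H 1 1) :
    IsCopy H A ((![r1, r2] : Fin 2 → Fin n), (![c1, c2] : Fin 2 → Fin n)) := by
  refine ⟨?_, ?_, ?_⟩
  · intro i j hij
    fin_cases i <;> fin_cases j <;> simp_all
  · intro i j hij
    fin_cases i <;> fin_cases j <;> simp_all
  · intro i j
    fin_cases i <;> fin_cases j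
    · simpa using h11
    · simpa using h12
    · simpa using h21
    · simpa using h22

/-- counting 2 x 2 copies column pair by column pair -/
lemma sum_le_numCopies (H : Fin 2 → Fin 2 → Bool) (A : Fin n → Fin n → Bool) :
    ∑ c : Fin n, ∑ c' : Fin n, (if c < c' then
      ((univ ×ˢ univ).filter (fun q : Fin n × Fin n => q.1 < q.2 ∧ A q.1 c = H 0 0 ∧ A q.1 c' = H 0 1
        ∧ A q.2 c = H 1 0 ∧ A q.2 c' = H 1 1)).card else 0) ≤ numCopies H A := by
  classical
  unfold numCopies
  rw [Set.ncard_eq_toFinset_card']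
  have hmaps : Set.MapsTo (fun p : (Fin 2 → Fin n) × (Fin 2 → Fin n) => (p.2 0, p.2 1))
      ({p : (Fin 2 → Fin n) × (Fin 2 → Fin n) | IsCopy H A p}.toFinset :
        Finset ((Fin 2 → Fin n) × (Fin 2 → Fin n)))
      ((univ : Finset (Fin n)) ×ˢ (univ : Finset (Fin n)) : Finset (Fin n × Fin n)) := by
    intro p _
    simp
  rw [card_eq_sum_card_fiberwise hmaps, sum_product]
  apply sum_le_sum
  intro c _
  apply sum_le_sum
  intro c' _
  split_ifs with hcc
  · apply card_le_card_of_injOn
      (fun p : Fin n × Fin n => ((![p.1, p.2] : Fin 2 → Fin n), (![c, c'] : Fin 2 → Fin n)))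
    · intro p hp
      simp only [coe_filter, mem_product, mem_univ, true_and, Set.mem_ofPred_eq] at hp
      obtain ⟨hlt, e11, e12, e21, e22⟩ := hp
      simp only [coe_filter, Set.mem_toFinset, Set.mem_ofPred_eq, Matrix.cons_val_zero,
        Matrix.cons_val_one, and_true]
      exact isCopy_two H A p.1 p.2 c c' hlt hcc e11 e12 e21 e22
    · intro p _ q _ h
      simp only [Prod.mk.injEq, and_true] at h
      have e0 := congrFun h 0
      have e1 := congrFun h 1
      simp only [Matrix.cons_val_zero, Matrix.cons_val_one] at e0 e1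
      exact Prod.ext e0 e1
  · exact Nat.zero_le _

/-- the pattern `[[1,1],[1,0]]` -/
def patG : Fin 2 → Fin 2 → Bool := ![![true, true], ![true, false]]

lemma isFree_of_freeG (B : Fin n → Fin n → Bool) (h : FreeG B) : IsFree patG B := by
  intro p hp
  obtain ⟨hr, hc, hval⟩ := hp
  apply h (p.1 0) (p.1 1) (p.2 0) (p.2 1) (hr (by decide)) (hc (by decide))
  rw [hval, hval, hval, hval]
  simp [patG]

lemma GN_le_numCopies (A : Fin n → Fin n → Bool) : GN A ≤ numCopies patG A := by
  refine le_trans (le_of_eq ?_) (sum_le_numCopies patG A)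
  rfl

theorem polyRemoval_gamma : PolyRemoval patG := by
  apply polyRemoval_of_nat patG 8192 37 (by norm_num) (by norm_num)
  intro n A K hK hfar
  have h1 := gcore K hK A (fun B hB => by
    have := hfar B (isFree_of_freeG B hB)
    rwa [numDiff_eq_ham'] at this)
  calc n ^ (2 * 2) = n ^ 4 := by norm_num
    _ ≤ (8192 * K) ^ 37 * GN A := h1
    _ ≤ (8192 * K) ^ 37 * numCopies patG A := Nat.mul_le_mul_left _ (GN_le_numCopies A)

end Vale.Agent.Lib.P037
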