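import Vale.Agent.Lib.P037.GCost

/-!
Cost of the construction, part 2: the total.
-/

namespace Vale.Agent.Lib.P037

open Finset

variable {n : ℕ}

lemma GB_eq (X : GP n) (j : ℕ) {G : Fin n × ℕ} (hG : G ∈ Lg X) {r : Fin n} (hr : r ∈ cellG X G)
    (c : Fin n) : GB X j r c = true ↔ c ∈ VB X j G := by
  simp only [GB, decide_eq_true_eq]
  constructor
  · rintro ⟨G', hG', hr', hc⟩
    have := cellG_unique X (mem_Lg.mp hG').1.1 (mem_Lg.mp hG).1.1 hr' hr
    rw [← this]
    exact hc
  · intro hc
    exact ⟨G, hG, hr, hc⟩

lemma VB_lower (X : GP n) (j : ℕ) {G : Fin n × ℕ} {c : Fin n} (h : c ∈ VB X j G) : G.1 ≤ c := by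
  obtain ⟨x, hx, hxc⟩ := Vbar_lower _ _ _ h
  have hx' : x ∈ VP X j G := hx
  simp only [VP, VV, mem_filter, mem_univ, true_and] at hx'
  exact le_trans hx'.1.1 hxc

lemma VP_sub_VB (X : GP n) (j : ℕ) {G : Fin n × ℕ} {c : Fin n} (h : c ∈ VP X j G) :
    c ∈ VB X j G :=
  subset_Vbar _ _ _ G h

lemma column_cover (X : GP n) {j : ℕ} (hj : j < X.s) (c : Fin n) :
    univ.filter (fun r => X.A r c ≠ GB X j r c)
      ⊆ (((if c ∈ GDel X j then univ else ∅) ∪ (if c ∈ X.P then ∅ else cls X.A X.P c)) ∪ Small X)
        ∪ (X.P.biUnion (fun p => UU X j p c ∪ ZZ X j p c) ∪ X.P.biUnion (fun p => X5 X j p c)) := by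
  classical
  intro r hr
  simp only [mem_filter, mem_univ, true_and] at hr
  by_cases hdel : c ∈ GDel X j
  · simp [hdel]
  have hnd0 : c ∉ Bad X ∧ c ∉ NB X j := by
    constructor
    · intro h
      exact hdel (by unfold GDel; exact mem_union_left _ (mem_union_left _ h))
    · intro h
      exact hdel (by unfold GDel; exact mem_union_left _ (mem_union_right _ h))
  by_cases hpiv : ∃ p ∈ X.P, X.A r p = true
  · obtain ⟨p, hp, hcl⟩ := exists_cls X.A X.P r hpiv
    have hcell := mem_cell_of_cls X hcl
    by_cases hLg : (p, r.val / X.L) ∈ Lg X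
    · have hGB := GB_eq X j hLg hcell c
      rcases lt_or_ge c p with hcp | hpc
      · -- before the pivot
        have hB : GB X j r c = false := by
          by_contra hcon
          have := VB_lower X j (hGB.mp (by simpa using hcon))
          exact absurd hcp (not_lt.mpr this)
        have hA : X.A r c = true := by
          rw [hB] at hr
          simpa using hr
        have hcl' := hcl
        simp only [cls, mem_filter, mem_univ, true_and] at hcl'
        have hcP : c ∉ X.P := by
          intro h
          have := hcl'.2 c h hcp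
          rw [hA] at this
          simp at this
        have : r ∈ cls X.A X.P c := by
          simp only [cls, mem_filter, mem_univ, true_and]
          exact ⟨hA, fun p' hp' hlt => hcl'.2 p' hp' (lt_trans hlt hcp)⟩
        simp [hcP, this]
      · by_cases hd : 15 * X.w ≤ 16 * kW X j (p, r.val / X.L) c
        · have hVP : c ∈ VP X j (p, r.val / X.L) := by
            simp only [VP, VV, mem_filter, mem_univ, true_and]
            exact ⟨⟨hpc, hnd0.1, hnd0.2, hd⟩, hdel⟩
          have hB : GB X j r c = true := hGB.mpr (VP_sub_VB X j hVP)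
          have hA : X.A r c = false := by
            rw [hB] at hr
            simpa using hr
          have hlt : p < c := by
            rcases eq_or_lt_of_le hpc with h | h
            · rw [← h, cls_pivot X hcl] at hA
              simp at hA
            · exact h
          have : r ∈ ZZ X j p c := by
            simp only [ZZ, mem_filter]
            exact ⟨hcl, hlt, hLg, hA, hd⟩
          apply mem_union_right
          apply mem_union_left
          exact mem_biUnion.mpr ⟨p, hp, mem_union_right _ this⟩
        · have hVP : c ∉ VP X j (p, r.val / X.L) := by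
            simp only [VP, VV, mem_filter, mem_univ, true_and]
            intro h
            exact hd h.1.2.2.2
          cases hA : X.A r c
          · have hB : GB X j r c = true := by
              rw [hA] at hr
              simpa using hr.symm
            have : r ∈ X5 X j p c := by
              simp only [X5, mem_filter]
              exact ⟨hcl, hLg, hGB.mp hB, hVP⟩
            apply mem_union_right
            apply mem_union_right
            exact mem_biUnion.mpr ⟨p, hp, this⟩
          · have hlt : p < c := by
              rcases eq_or_lt_of_le hpc with h | h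
              · exfalso
                apply hd
                have e1 := kW_pivot X j (p, r.val / X.L)
                rw [card_Wn X hj hLg] at e1
                simp only at e1
                rw [← h, e1]
                omega
              · exact h
            have : r ∈ UU X j p c := by
              simp only [UU, mem_filter]
              exact ⟨hcl, hlt, hLg, hA, not_le.mp hd⟩
            apply mem_union_right
            apply mem_union_left
            exact mem_biUnion.mpr ⟨p, hp, mem_union_left _ this⟩
    · have : r ∈ Small X := by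
        simp only [Small, mem_filter, mem_univ, true_and]
        exact ⟨p, hp, hcl, hLg⟩
      apply mem_union_left
      exact mem_union_right _ this
  · push Not at hpiv
    have hB : GB X j r c = false := by
      simp only [GB, decide_eq_false_iff_not]
      rintro ⟨G, hG, hrG, _⟩
      exact hpiv G.1 (mem_Lg.mp hG).1.1 (cell_pivot X hrG)
    have hA : X.A r c = true := by
      rw [hB] at hr
      simpa using hr
    have hcP : c ∉ X.P := fun h => hpiv c h hA
    have : r ∈ cls X.A X.P c := by
      simp only [cls, mem_filter, mem_univ, true_and]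
      exact ⟨hA, fun p' hp' _ => by simpa using hpiv p' hp'⟩
    simp [hcP, this]

/-- total number of mismatches between the matrix and the window majorities -/
def misT (X : GP n) (j : ℕ) : ℕ :=
  ∑ c, ∑ p ∈ X.P, ((UU X j p c).card + (ZZ X j p c).card)

lemma misT_bound (X : GP n) {j : ℕ} (hj : j < X.s) (hL : 0 < X.L) (Lam : ℕ)
    (hlight : ∀ c, gl X.A c ≤ Lam) :
    X.w * misT X j ≤ 2 * (X.P.card * n * X.L * X.w) + 32 * (X.P.card * Lam) := by
  unfold misT
  rw [sum_comm, mul_sum]
  have hterm : ∀ p ∈ X.P, X.w * ∑ c, ((UU X j p c).card + (ZZ X j p c).card)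
      ≤ 2 * (n * X.L * X.w) + 32 * Lam := by
    intro p _
    rw [mul_sum]
    calc ∑ c, X.w * ((UU X j p c).card + (ZZ X j p c).card)
        ≤ ∑ c : Fin n, (2 * (X.w * X.L) + 32 * (if p < c then gv X.A p c else 0)) := by
          apply sum_le_sum
          intro c _
          have h1 := UU_bound X hj hL p c
          have h2 := ZZ_bound X (j := j) hL p c
          rw [mul_add]
          omega
      _ = 2 * (n * X.L * X.w) + 32 * gl X.A p := by
          have e : ∑ c : Fin n, 32 * (if p < c then gv X.A p c else 0) = 32 * gl X.A p := by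
            rw [← mul_sum]
            rfl
          rw [sum_add_distrib, e]
          simp only [sum_const, card_univ, Fintype.card_fin, smul_eq_mul]
          ring
      _ ≤ _ := Nat.add_le_add_left (Nat.mul_le_mul_left _ (hlight p)) _
  refine le_trans (sum_le_sum hterm) ?_
  simp only [sum_const, smul_eq_mul]
  apply le_of_eq
  ring

lemma ham_GB (X : GP n) {j : ℕ} (hj : j < X.s) (hL : 0 < X.L) (u : ℕ)
    (hP : ∀ c : Fin n, (c ∈ X.P ↔ u ≤ (cls X.A X.P c).card)) :
    ham X.A (GB X j) ≤ n * (GDel X j).card + n * u
      + n * (X.P.card * (n / X.L + 1) * (X.s * X.w)) + misT X j + X.P.card * n * X.L := by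
  classical
  unfold ham
  have hterm : ∀ c ∈ (univ : Finset (Fin n)), (univ.filter (fun r => X.A r c ≠ GB X j r c)).card
      ≤ (if c ∈ GDel X j then n else 0) + u + X.P.card * (n / X.L + 1) * (X.s * X.w)
        + ∑ p ∈ X.P, ((UU X j p c).card + (ZZ X j p c).card) + X.P.card * X.L := by
    intro c _
    refine le_trans (card_le_card (column_cover X hj c)) ?_
    refine le_trans (card_union_le _ _) ?_
    have a1 : ((if c ∈ GDel X j then (univ : Finset (Fin n)) else ∅)).card
        = if c ∈ GDel X j then n else 0 := by
      split_ifs <;> simp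
    have a2 : ((if c ∈ X.P then (∅ : Finset (Fin n)) else cls X.A X.P c)).card ≤ u := by
      split_ifs with h
      · simp
      · have := (hP c).not.mp h
        omega
    have a3 := card_Small X hL
    have a4 : (X.P.biUnion (fun p => UU X j p c ∪ ZZ X j p c)).card
        ≤ ∑ p ∈ X.P, ((UU X j p c).card + (ZZ X j p c).card) :=
      le_trans card_biUnion_le (sum_le_sum (fun p _ => card_union_le _ _))
    have a5 : (X.P.biUnion (fun p => X5 X j p c)).card ≤ X.P.card * X.L := by
      refine le_trans card_biUnion_le ?_
      refine le_trans (sum_le_sum (fun p _ => X5_bound X hj hL p c)) ?_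
      simp
    have b1 := card_union_le (((if c ∈ GDel X j then (univ : Finset (Fin n)) else ∅)
      ∪ (if c ∈ X.P then ∅ else cls X.A X.P c))) (Small X)
    have b2 := card_union_le (if c ∈ GDel X j then (univ : Finset (Fin n)) else ∅)
      (if c ∈ X.P then ∅ else cls X.A X.P c)
    have b3 := card_union_le (X.P.biUnion (fun p => UU X j p c ∪ ZZ X j p c))
      (X.P.biUnion (fun p => X5 X j p c))
    omega
  refine le_trans (sum_le_sum hterm) ?_
  unfold misT
  simp only [sum_add_distrib, sum_const, card_univ, Fintype.card_fin, smul_eq_mul]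
  rw [← sum_filter]
  simp only [sum_const, smul_eq_mul, filter_mem_eq_inter, univ_inter]
  apply le_of_eq
  ring

/-- the general inequality for a matrix all of whose columns start few copies -/
theorem gamma_general (A : Fin n → Fin n → Bool) (L w s p0 u Lam : ℕ) (hL : 0 < L) (hw : 0 < w)
    (hs : 0 < s) (hp0 : 0 < p0) (hlight : ∀ c, gl A c ≤ Lam) :
    ∃ (B : Fin n → Fin n → Bool) (q bad nb mis : ℕ), FreeG B ∧ q * u ≤ n ∧
      w ^ 2 * bad ≤ 256 * (q * Lam) ∧ s * nb ≤ q * n ∧
      w * mis ≤ 2 * (q * n * L * w) + 32 * (q * Lam) ∧
      ham A B ≤ n * (bad + nb + (q * (n / L + 1)) ^ 2 * (4 * GN A / w ^ 2 / p0 + p0)) + n * u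
        + n * (q * (n / L + 1) * (s * w)) + mis + q * n * L := by
  obtain ⟨P, hP⟩ := exists_pivots A u
  set X : GP n := ⟨A, P, L, w, s, p0⟩ with hX
  obtain ⟨j, hj, hnb⟩ := exists_window X hs
  refine ⟨GB X j, P.card, (Bad X).card, (NB X j \ Bad X).card, misT X j, GB_free X hj,
    card_pivots A P u hP, card_Bad X Lam hlight, hnb, misT_bound X hj hL Lam hlight, ?_⟩
  have h1 := ham_GB X hj hL u hP
  have h2 := Nat.mul_le_mul_left n (card_GDel_le X hj hw hp0)
  exact le_trans h1 (by
    have : X.A = A ∧ X.P = P ∧ X.L = L ∧ X.w = w ∧ X.s = s ∧ X.p0 = p0 := ⟨rfl, rfl, rfl, rfl, rfl, rfl⟩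
    simp only [this.1, this.2.1, this.2.2.1, this.2.2.2.1, this.2.2.2.2.1, this.2.2.2.2.2] at h2 ⊢
    omega)

end Vale.Agent.Lib.P037
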