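import Vale.Agent.Lib.P037.Construct

namespace Vale.Agent.Lib.P037

open Finset

variable {n : ℕ}

lemma NN_pos_of_not_free (A : Fin n → Fin n → Bool) (h : ¬ FreeI A) : 1 ≤ NN A := by
  unfold FreeI at h
  push Not at h
  obtain ⟨r1, r2, c1, c2, hr, hc, h11, h12, h21, h22⟩ := h
  have h1 := sum_vv_le A {(c1, c2)} (by simpa using hc)
  simp only [sum_singleton] at h1
  refine le_trans ?_ h1
  unfold vv
  rw [Nat.succ_le_iff, card_pos]
  exact ⟨(r1, r2), by simp [OO, h11, h12, h21, h22, hr]⟩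

lemma ham_self (A : Fin n → Fin n → Bool) : ham A A = 0 := by
  simp [ham]

/-- the general inequality, before the choice of parameters -/
theorem general_bound (L g s p0 lam lam' : ℕ) (hL : 0 < L) (hg : 0 < g) (hs : 0 < s)
    (hp0 : 0 < p0) (A : Fin n → Fin n → Bool) :
    ∃ (B : Fin n → Fin n → Bool) (h0 nb : ℕ), FreeI B ∧
      lam * lam' * h0 ≤ 2 * (lam * lam' ^ 2 * (n * (n / L + 1)) + lam ^ 2 * (n * L)
          + 4 * NN A + 2 * L ^ 2 * n ^ 2) ∧
      s * nb ≤ (n / L + 1) * n ∧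
      ham A B ≤ h0 + n * ((n / L + 1) * (s * g))
        + n * (nb + ((n / L + 1) * (L / g / s + 2)) ^ 2 * (NN A / g ^ 2 / p0 + p0)) := by
  obtain ⟨i, hi, hnb⟩ := exists_offset L g s hs A
  refine ⟨BB L g s i p0 (L / g / s + 2) A, ham A (B0 L A), (NBset L g s i A).card,
    BB_free L g s i p0 _ hL A (fun r => jj_lt L g s i hL hs A r), E_bound L lam lam' hL A, hnb, ?_⟩
  have t1 := ham_triangle A (B0 L A) (BB L g s i p0 (L / g / s + 2) A)
  have t2 := ham_triangle (B0 L A) (B1 L g s i A) (BB L g s i p0 (L / g / s + 2) A)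
  have t3 := round_bound L g s i hL hg hi A
  have t4 := ham_B1_BB L g s i p0 (L / g / s + 2) A
  have t5 := Nat.mul_le_mul_left n (card_Del_le L g s i p0 (L / g / s + 2) hg hi hp0 A)
  omega

end Vale.Agent.Lib.P037
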