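import Vale.Agent.Lib.P037.TBound
import Vale.Agent.Lib.P037.ColSort

namespace Vale.Agent.Lib.P037

open Finset

variable {n : ℕ}

/-- the rows of the `a`-th strip of height `L` -/
def Istrip (n L a : ℕ) : Finset (Fin n) := univ.filter (fun r => r.val / L = a)

lemma mem_Istrip {n L a : ℕ} {r : Fin n} : r ∈ Istrip n L a ↔ r.val / L = a := by
  simp [Istrip]

/-- number of ones in a row -/
def deg (A : Fin n → Fin n → Bool) (r : Fin n) : ℕ := (univ.filter (fun c => A r c = true)).card

/-- injective key ordering the rows by number of ones -/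
def key (A : Fin n → Fin n → Bool) (r : Fin n) : ℕ := deg A r * n + r.val

/-- number of rows of the same strip with a larger key -/
def rho (L : ℕ) (A : Fin n → Fin n → Bool) (r : Fin n) : ℕ :=
  rk (Istrip n L (r.val / L)) (key A) r

/-- number of ones of column `c` inside strip `a` -/
def kk (L : ℕ) (A : Fin n → Fin n → Bool) (a : ℕ) (c : Fin n) : ℕ :=
  ((Istrip n L a).filter (fun r => A r c = true)).card

/-- rows with a one in column `c` and a zero in column `c'` -/
def OO (A : Fin n → Fin n → Bool) (c c' : Fin n) : Finset (Fin n) :=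
  univ.filter (fun r => A r c = true ∧ A r c' = false)

/-- number of copies of the identity pattern on the columns `c`, `c'` -/
def vv (A : Fin n → Fin n → Bool) (c c' : Fin n) : ℕ :=
  ((OO A c c' ×ˢ OO A c' c).filter (fun p => p.1 < p.2)).card

/-- number of copies of the identity pattern -/
def NN (A : Fin n → Fin n → Bool) : ℕ := ∑ c, ∑ c', if c < c' then vv A c c' else 0

/-- Hamming distance, counted column by column -/
def ham (A B : Fin n → Fin n → Bool) : ℕ := ∑ c, (univ.filter (fun r => A r c ≠ B r c)).card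

/-- the strip-wise sorted matrix -/
def B0 (L : ℕ) (A : Fin n → Fin n → Bool) (r c : Fin n) : Bool :=
  decide (rho L A r < kk L A (r.val / L) c)

lemma key_inj (A : Fin n → Fin n → Bool) (I : Finset (Fin n)) : Set.InjOn (key A) I := by
  intro r _ r' _ h
  unfold key at h
  apply Fin.ext
  have h1 : (deg A r * n + r.val) % n = r.val := by
    rw [Nat.mul_add_mod_self_right, Nat.mod_eq_of_lt r.isLt]
  have h2 : (deg A r' * n + r'.val) % n = r'.val := by
    rw [Nat.mul_add_mod_self_right, Nat.mod_eq_of_lt r'.isLt]
  rw [← h1, ← h2, h]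

lemma deg_le_of_key_lt (A : Fin n → Fin n → Bool) {r r' : Fin n} (h : key A r < key A r') :
    deg A r ≤ deg A r' := by
  by_contra hcon
  have h1 : deg A r' + 1 ≤ deg A r := by omega
  have h2 := Nat.mul_le_mul_right n h1
  unfold key at h
  have := r'.isLt
  nlinarith

/-- pairs of rows of the same strip, ordered by key -/
def Pairs (L : ℕ) (A : Fin n → Fin n → Bool) : Finset (Fin n × Fin n) :=
  (univ ×ˢ univ).filter (fun p => p.1.val / L = p.2.val / L ∧ key A p.1 < key A p.2)

lemma stepAB (L lam' : ℕ) (hL : 0 < L) (A : Fin n → Fin n → Bool) (c : Fin n) :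
    lam' * (univ.filter (fun r => A r c ≠ B0 L A r c)).card
      ≤ 2 * (lam' ^ 2 * (n / L + 1)
        + ((Pairs L A).filter (fun p => A p.1 c = true ∧ A p.2 c = false)).card) := by
  classical
  have hmaps : Set.MapsTo (fun r : Fin n => r.val / L)
      (univ.filter (fun r => A r c ≠ B0 L A r c) : Finset (Fin n)) (range (n / L + 1) : Finset ℕ) := by
    intro r _
    simpa using strip_lt L hL r
  rw [card_eq_sum_card_fiberwise hmaps]
  have hmaps2 : Set.MapsTo (fun p : Fin n × Fin n => p.1.val / L)
      ((Pairs L A).filter (fun p => A p.1 c = true ∧ A p.2 c = false) : Finset (Fin n × Fin n))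
      (range (n / L + 1) : Finset ℕ) := by
    intro p _
    simpa using strip_lt L hL p.1
  rw [card_eq_sum_card_fiberwise hmaps2]
  have hterm : ∀ a ∈ range (n / L + 1),
      lam' * ((univ.filter (fun r => A r c ≠ B0 L A r c)).filter (fun r => r.val / L = a)).card
      ≤ 2 * (lam' ^ 2 + (((Pairs L A).filter (fun p => A p.1 c = true ∧ A p.2 c = false)).filter
          (fun p => p.1.val / L = a)).card) := by
    intro a _
    obtain ⟨h1, h2⟩ := col_sort (Istrip n L a) (key A) (key_inj A _) (fun r => A r c)
    have e1 : (univ.filter (fun r => A r c ≠ B0 L A r c)).filter (fun r => r.val / L = a)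
        = (Istrip n L a).filter (fun r => A r c ≠ decide (rk (Istrip n L a) (key A) r
            < ((Istrip n L a).filter (fun r => A r c = true)).card)) := by
      ext r
      simp only [mem_filter, mem_univ, true_and, mem_Istrip]
      constructor
      · rintro ⟨h, rfl⟩
        exact ⟨rfl, h⟩
      · rintro ⟨rfl, h⟩
        exact ⟨h, rfl⟩
    have e2 : ((Pairs L A).filter (fun p => A p.1 c = true ∧ A p.2 c = false)).filter
          (fun p => p.1.val / L = a)
        = (Istrip n L a ×ˢ Istrip n L a).filter
          (fun p => key A p.1 < key A p.2 ∧ A p.1 c = true ∧ A p.2 c = false) := by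
      ext p
      simp only [mem_filter, mem_univ, true_and, mem_Istrip, Pairs, mem_product]
      constructor
      · rintro ⟨⟨⟨h1, h2⟩, h3⟩, h4⟩
        exact ⟨⟨h4, by omega⟩, h2, h3⟩
      · rintro ⟨⟨h1, h2⟩, h3, h4⟩
        exact ⟨⟨⟨by omega, h3⟩, h4⟩, h1⟩
    rw [e1, e2, h1]
    have h3 := lin_sq lam' ((Istrip n L a).filter (fun r => A r c = true ∧
          ((Istrip n L a).filter (fun r => A r c = true)).card ≤ rk (Istrip n L a) (key A) r)).card
    nlinarith
  have hsum := sum_le_sum hterm
  rw [← mul_sum, ← mul_sum, sum_add_distrib] at hsum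
  simpa [mul_comm] using hsum

lemma deg_split (A : Fin n → Fin n → Bool) (r r' : Fin n) :
    deg A r = (univ.filter (fun c => A r c = true ∧ A r' c = true)).card
      + (univ.filter (fun c => A r c = true ∧ A r' c = false)).card := by
  unfold deg
  rw [← card_union_of_disjoint]
  · congr 1
    ext c
    simp only [mem_filter, mem_univ, true_and, mem_union]
    cases A r' c <;> simp
  · rw [disjoint_left]
    intro c hc hc'
    simp only [mem_filter, mem_univ, true_and] at hc hc'
    rw [hc.2] at hc'
    simp at hc'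

lemma card_Pairs_le (L : ℕ) (hL : 0 < L) (A : Fin n → Fin n → Bool) :
    (Pairs L A).card ≤ n * L := by
  have h1 : (Pairs L A).card
      ≤ (((univ : Finset (Fin n)) ×ˢ (univ : Finset (Fin n))).filter
          (fun p => p.1.val / L = p.2.val / L)).card := by
    apply card_le_card
    intro p hp
    simp only [Pairs, mem_filter] at hp ⊢
    exact ⟨hp.1, hp.2.1⟩
  rw [card_filter_product (univ : Finset (Fin n)) (univ : Finset (Fin n))
    (fun r r' => r.val / L = r'.val / L)] at h1
  have h2 : ∀ r ∈ (univ : Finset (Fin n)),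
      ((univ : Finset (Fin n)).filter (fun r' => r.val / L = r'.val / L)).card ≤ L := by
    intro r _
    refine le_trans (card_le_card ?_) (card_strip_le (n := n) L hL (r.val / L))
    intro z hz
    simp only [mem_filter, mem_univ, true_and] at hz ⊢
    exact hz.symm
  have h3 := sum_le_sum h2
  simp only [sum_const, smul_eq_mul, card_univ, Fintype.card_fin] at h3
  omega

/-- same-strip pairs of rows showing the two mixed patterns on the columns `c`, `c'` -/
def ff (L : ℕ) (A : Fin n → Fin n → Bool) (c c' : Fin n) : ℕ :=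
  ((OO A c c' ×ˢ OO A c' c).filter (fun p => p.1.val / L = p.2.val / L)).card

lemma stepDEF (L lam : ℕ) (hL : 0 < L) (A : Fin n → Fin n → Bool) :
    lam * ∑ c, ((Pairs L A).filter (fun p => A p.1 c = true ∧ A p.2 c = false)).card
      ≤ lam ^ 2 * (n * L) + ∑ c, ∑ c', ff L A c c' := by
  classical
  have e1 : ∑ c, ((Pairs L A).filter (fun p => A p.1 c = true ∧ A p.2 c = false)).card
      = ∑ p ∈ Pairs L A, (univ.filter (fun c => A p.1 c = true ∧ A p.2 c = false)).card := by
    rw [← card_filter_product (univ : Finset (Fin n)) (Pairs L A)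
      (fun c p => A p.1 c = true ∧ A p.2 c = false),
      card_filter_product' (univ : Finset (Fin n)) (Pairs L A)
      (fun c p => A p.1 c = true ∧ A p.2 c = false)]
  rw [e1, mul_sum]
  have hterm : ∀ p ∈ Pairs L A,
      lam * (univ.filter (fun c => A p.1 c = true ∧ A p.2 c = false)).card
      ≤ lam ^ 2 + (((univ : Finset (Fin n)) ×ˢ (univ : Finset (Fin n))).filter
          (fun q => (A p.1 q.1 = true ∧ A p.2 q.1 = false)
            ∧ (A p.2 q.2 = true ∧ A p.1 q.2 = false))).card := by
    intro p hp
    simp only [Pairs, mem_filter] at hp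
    have hdeg := deg_le_of_key_lt A hp.2.2
    have s1 := deg_split A p.1 p.2
    have s2 := deg_split A p.2 p.1
    have s3 : (univ.filter (fun c => A p.1 c = true ∧ A p.2 c = true)).card
        = (univ.filter (fun c => A p.2 c = true ∧ A p.1 c = true)).card := by
      congr 1
      ext c
      simp only [mem_filter, mem_univ, true_and]
      exact and_comm
    have hmM : (univ.filter (fun c => A p.1 c = true ∧ A p.2 c = false)).card
        ≤ (univ.filter (fun c => A p.2 c = true ∧ A p.1 c = false)).card := by omega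
    have e2 : (((univ : Finset (Fin n)) ×ˢ (univ : Finset (Fin n))).filter
          (fun q => (A p.1 q.1 = true ∧ A p.2 q.1 = false)
            ∧ (A p.2 q.2 = true ∧ A p.1 q.2 = false))).card
        = (univ.filter (fun c => A p.1 c = true ∧ A p.2 c = false)).card
          * (univ.filter (fun c => A p.2 c = true ∧ A p.1 c = false)).card := by
      rw [← card_product, ← filter_product]
    rw [e2]
    have h3 := lin_sq lam (univ.filter (fun c => A p.1 c = true ∧ A p.2 c = false)).card
    nlinarith
  have hsum := sum_le_sum hterm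
  rw [sum_add_distrib] at hsum
  simp only [sum_const, smul_eq_mul] at hsum
  have hP := card_Pairs_le L hL A
  have e3 : ∑ p ∈ Pairs L A, (((univ : Finset (Fin n)) ×ˢ (univ : Finset (Fin n))).filter
          (fun q => (A p.1 q.1 = true ∧ A p.2 q.1 = false)
            ∧ (A p.2 q.2 = true ∧ A p.1 q.2 = false))).card
      ≤ ∑ c, ∑ c', ff L A c c' := by
    rw [← card_filter_product (Pairs L A) ((univ : Finset (Fin n)) ×ˢ (univ : Finset (Fin n)))
      (fun p q => (A p.1 q.1 = true ∧ A p.2 q.1 = false)
            ∧ (A p.2 q.2 = true ∧ A p.1 q.2 = false)),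
      card_filter_product' (Pairs L A) ((univ : Finset (Fin n)) ×ˢ (univ : Finset (Fin n)))
      (fun p q => (A p.1 q.1 = true ∧ A p.2 q.1 = false)
            ∧ (A p.2 q.2 = true ∧ A p.1 q.2 = false)), sum_product]
    apply sum_le_sum
    intro c _
    apply sum_le_sum
    intro c' _
    unfold ff
    apply card_le_card
    intro p hp
    simp only [Pairs, OO, mem_filter, mem_product, mem_univ, true_and] at hp ⊢
    tauto
  have h5 : (Pairs L A).card * lam ^ 2 ≤ lam ^ 2 * (n * L) := by
    rw [mul_comm]
    exact Nat.mul_le_mul_left _ hP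
  omega

lemma OO_disj (A : Fin n → Fin n → Bool) (c c' : Fin n) : Disjoint (OO A c c') (OO A c' c) := by
  rw [disjoint_left]
  intro r hr hr'
  simp only [OO, mem_filter, mem_univ, true_and] at hr hr'
  rw [hr.1] at hr'
  simp at hr'

lemma ff_symm (L : ℕ) (A : Fin n → Fin n → Bool) (c c' : Fin n) : ff L A c c' = ff L A c' c := by
  unfold ff
  apply card_bij (fun p _ => (p.2, p.1))
  · intro p hp
    simp only [mem_filter, mem_product] at hp ⊢
    exact ⟨⟨hp.1.2, hp.1.1⟩, hp.2.symm⟩
  · intro p _ q _ h
    simp only [Prod.mk.injEq] at h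
    exact Prod.ext h.2 h.1
  · intro p hp
    simp only [mem_filter, mem_product] at hp
    exact ⟨(p.2, p.1), by simp only [mem_filter, mem_product]; exact ⟨⟨hp.1.2, hp.1.1⟩, hp.2.symm⟩, rfl⟩

lemma stepG (L : ℕ) (hL : 0 < L) (A : Fin n → Fin n → Bool) :
    ∑ c, ∑ c', ff L A c c' ≤ 4 * NN A + 2 * L ^ 2 * n ^ 2 := by
  have hpt : ∀ c c' : Fin n, ff L A c c'
      ≤ 2 * (if c < c' then vv A c c' else 0) + 2 * (if c' < c then vv A c' c else 0) + 2 * L ^ 2 := by
    intro c c'
    rcases lt_trichotomy c c' with h | h | h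
    · have := T_bound L hL (OO A c c') (OO A c' c) (OO_disj A c c')
      simp only [h, if_true]
      unfold ff vv
      omega
    · subst h
      have : ff L A c c = 0 := by
        unfold ff OO
        rw [card_eq_zero]
        ext p
        simp only [mem_filter, mem_product, mem_univ, true_and, notMem_empty, iff_false]
        rintro ⟨⟨⟨h1, h2⟩, _⟩, _⟩
        rw [h1] at h2
        simp at h2
      omega
    · have := T_bound L hL (OO A c' c) (OO A c c') (OO_disj A c' c)
      rw [ff_symm]
      simp only [h, if_true]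
      unfold ff vv
      omega
  have h1 : ∑ c, ∑ c', ff L A c c' ≤ ∑ c : Fin n, ∑ c' : Fin n,
      (2 * (if c < c' then vv A c c' else 0) + 2 * (if c' < c then vv A c' c else 0) + 2 * L ^ 2) :=
    sum_le_sum (fun c _ => sum_le_sum (fun c' _ => hpt c c'))
  have h2 : ∑ c : Fin n, ∑ c' : Fin n,
      (2 * (if c < c' then vv A c c' else 0) + 2 * (if c' < c then vv A c' c else 0) + 2 * L ^ 2)
      = 4 * NN A + 2 * L ^ 2 * n ^ 2 := by
    simp only [sum_add_distrib, ← mul_sum]
    have h3 : ∑ c : Fin n, ∑ c' : Fin n, (if c' < c then vv A c' c else 0) = NN A := by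
      rw [sum_comm]
      rfl
    rw [h3]
    simp only [sum_const, smul_eq_mul, card_univ, Fintype.card_fin]
    unfold NN
    ring
  omega

theorem E_bound (L lam lam' : ℕ) (hL : 0 < L) (A : Fin n → Fin n → Bool) :
    lam * lam' * ham A (B0 L A)
      ≤ 2 * (lam * lam' ^ 2 * (n * (n / L + 1)) + lam ^ 2 * (n * L)
          + 4 * NN A + 2 * L ^ 2 * n ^ 2) := by
  have h1 : lam' * ham A (B0 L A) ≤ 2 * (lam' ^ 2 * (n / L + 1) * n
      + ∑ c, ((Pairs L A).filter (fun p => A p.1 c = true ∧ A p.2 c = false)).card) := by
    unfold ham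
    rw [mul_sum]
    have := sum_le_sum (fun c (_ : c ∈ (univ : Finset (Fin n))) => stepAB L lam' hL A c)
    rw [← mul_sum (univ : Finset (Fin n)) _ 2, sum_add_distrib] at this
    simpa [mul_comm] using this
  have h2 := stepDEF L lam hL A
  have h3 := stepG L hL A
  have h4 := Nat.mul_le_mul_left lam h1
  calc lam * lam' * ham A (B0 L A) = lam * (lam' * ham A (B0 L A)) := by ring
    _ ≤ lam * (2 * (lam' ^ 2 * (n / L + 1) * n
      + ∑ c, ((Pairs L A).filter (fun p => A p.1 c = true ∧ A p.2 c = false)).card)) := h4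
    _ = 2 * (lam * lam' ^ 2 * (n * (n / L + 1)) + lam * ∑ c, ((Pairs L A).filter
          (fun p => A p.1 c = true ∧ A p.2 c = false)).card) := by ring
    _ ≤ _ := by omega

end Vale.Agent.Lib.P037
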