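import Vale.Agent.Lib.P037.Defs

/-!
Symmetries of the polynomial removal property: complement, transposition, row reversal.
-/

namespace Vale.Agent.Lib.P037

/-- transfer of the removal property along an involution of the host matrices -/
lemma polyRemoval_transfer {k : ℕ} (H H' : Fin k → Fin k → Bool)
    (Φ : ∀ n : ℕ, (Fin n → Fin n → Bool) → (Fin n → Fin n → Bool))
    (hinv : ∀ n A, Φ n (Φ n A) = A)
    (hdiff : ∀ n A B, numDiff (Φ n A) (Φ n B) = numDiff A B)
    (ψ : ∀ n : ℕ, ((Fin k → Fin n) × (Fin k → Fin n)) → ((Fin k → Fin n) × (Fin k → Fin n)))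
    (hψ : ∀ n, Function.Injective (ψ n))
    (hcopy : ∀ n A p, IsCopy H (Φ n A) p → IsCopy H' A (ψ n p))
    (hcopy' : ∀ n A p, IsCopy H' (Φ n A) p → ∃ p', IsCopy H A p')
    (h : PolyRemoval H) : PolyRemoval H' := by
  obtain ⟨c, C, hc, hC, hmain⟩ := h
  refine ⟨c, C, hc, hC, ?_⟩
  intro n hn ε hε0 hε1 A hfar
  have hfar' : IsFar H (Φ n A) ε := by
    intro B hB
    have hfree : IsFree H' (Φ n B) := by
      intro p hp
      obtain ⟨p', hp'⟩ := hcopy' n B p hp
      exact hB p' hp'
    have := hfar _ hfree
    rw [← hdiff n A (Φ n B), hinv] at this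
    exact this
  refine le_trans (hmain n hn ε hε0 hε1 (Φ n A) hfar') ?_
  have : numCopies H (Φ n A) ≤ numCopies H' A := by
    unfold numCopies
    apply Set.ncard_le_ncard_of_injOn (ψ n)
    · intro p hp
      exact hcopy n A p hp
    · intro p _ q _ hpq
      exact hψ n hpq
  exact_mod_cast this

/-- complement of a matrix -/
def mcompl {n : ℕ} (A : Fin n → Fin n → Bool) (r c : Fin n) : Bool := !(A r c)

/-- transpose of a matrix -/
def mtrans {n : ℕ} (A : Fin n → Fin n → Bool) (r c : Fin n) : Bool := A c r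

/-- reversal of the rows of a matrix -/
def mrev {n : ℕ} (A : Fin n → Fin n → Bool) (r c : Fin n) : Bool := A (Fin.rev r) c

lemma polyRemoval_compl {k : ℕ} (H : Fin k → Fin k → Bool) (h : PolyRemoval H) :
    PolyRemoval (mcompl H) := by
  apply polyRemoval_transfer H (mcompl H) (fun _ A => mcompl A) _ _ (fun _ p => p)
    (fun _ => Function.injective_id) _ _ h
  · intro n A
    funext r c
    simp [mcompl]
  · intro n A B
    unfold numDiff
    congr 1
    ext q
    simp [mcompl]
  · intro n A p hp
    refine ⟨hp.1, hp.2.1, ?_⟩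
    intro i j
    have := hp.2.2 i j
    simp only [mcompl] at this ⊢
    rw [← this]
    simp
  · intro n A p hp
    refine ⟨p, hp.1, hp.2.1, ?_⟩
    intro i j
    have := hp.2.2 i j
    simp only [mcompl] at this
    simpa using this

lemma polyRemoval_trans {k : ℕ} (H : Fin k → Fin k → Bool) (h : PolyRemoval H) :
    PolyRemoval (mtrans H) := by
  apply polyRemoval_transfer H (mtrans H) (fun _ A => mtrans A) _ _ (fun _ p => Prod.swap p)
    (fun _ => Prod.swap_injective) _ _ h
  · intro n A
    rfl
  · intro n A B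
    unfold numDiff
    apply Set.ncard_congr (fun q _ => Prod.swap q)
    · intro q hq
      exact hq
    · intro a b _ _ hab
      exact Prod.swap_injective hab
    · intro q hq
      exact ⟨Prod.swap q, hq, by simp⟩
  · intro n A p hp
    exact ⟨hp.2.1, hp.1, fun i j => hp.2.2 j i⟩
  · intro n A p hp
    exact ⟨Prod.swap p, hp.2.1, hp.1, fun i j => hp.2.2 j i⟩

lemma rev_comp_strictMono {k n : ℕ} (f : Fin k → Fin n) (hf : StrictMono f) :
    StrictMono (fun i => Fin.rev (f (Fin.rev i))) := by
  intro i j hij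
  exact Fin.rev_lt_rev.mpr (hf (Fin.rev_lt_rev.mpr hij))

lemma polyRemoval_rev {k : ℕ} (H : Fin k → Fin k → Bool) (h : PolyRemoval H) :
    PolyRemoval (mrev H) := by
  apply polyRemoval_transfer H (mrev H) (fun _ A => mrev A) _ _
    (fun _ p => (fun i => Fin.rev (p.1 (Fin.rev i)), p.2)) _ _ _ h
  · intro n A
    funext r c
    simp [mrev]
  · intro n A B
    unfold numDiff
    apply Set.ncard_congr (fun q _ => (Fin.rev q.1, q.2))
    · intro q hq
      exact hq
    · intro a b _ _ hab
      simp only [Prod.mk.injEq] at hab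
      exact Prod.ext (Fin.rev_injective hab.1) hab.2
    · intro q hq
      refine ⟨(Fin.rev q.1, q.2), ?_, by simp⟩
      simpa [mrev] using hq
  · intro n p q hpq
    simp only [Prod.mk.injEq] at hpq
    apply Prod.ext
    · funext i
      have := congrFun hpq.1 (Fin.rev i)
      simpa using this
    · exact hpq.2
  · intro n A p hp
    refine ⟨rev_comp_strictMono _ hp.1, hp.2.1, ?_⟩
    intro i j
    have := hp.2.2 (Fin.rev i) j
    simp only [mrev] at this ⊢
    exact this
  · intro n A p hp
    refine ⟨(fun i => Fin.rev (p.1 (Fin.rev i)), p.2), rev_comp_strictMono _ hp.1, hp.2.1, ?_⟩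
    intro i j
    have := hp.2.2 (Fin.rev i) j
    simp only [mrev, Fin.rev_rev] at this ⊢
    exact this

end Vale.Agent.Lib.P037
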