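import Vale.Agent.Lib.P037.GFinal
import Vale.Agent.Lib.P037.Sym
import Vale.Agent.Lib.P037.Final

namespace Vale.Agent.Lib.P037

lemma eq_mk (H : Fin 2 → Fin 2 → Bool) : H = ![![H 0 0, H 0 1], ![H 1 0, H 1 1]] := by
  funext i j
  fin_cases i <;> fin_cases j <;> rfl

lemma pr_TTTF : PolyRemoval ![![true, true], ![true, false]] := polyRemoval_gamma

lemma pr_TFTT : PolyRemoval ![![true, false], ![true, true]] := by
  have h := polyRemoval_rev _ pr_TTTF
  have e : mrev ![![true, true], ![true, false]] = ![![true, false], ![true, true]] := by decide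
  rwa [e] at h

lemma pr_TTFT : PolyRemoval ![![true, true], ![false, true]] := by
  have h := polyRemoval_trans _ pr_TFTT
  have e : mtrans ![![true, false], ![true, true]] = ![![true, true], ![false, true]] := by decide
  rwa [e] at h

lemma pr_FTTT : PolyRemoval ![![false, true], ![true, true]] := by
  have h := polyRemoval_rev _ pr_TTFT
  have e : mrev ![![true, true], ![false, true]] = ![![false, true], ![true, true]] := by decide
  rwa [e] at h

lemma pr_FFFT : PolyRemoval ![![false, false], ![false, true]] := by
  have h := polyRemoval_compl _ pr_TTTF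
  have e : mcompl ![![true, true], ![true, false]] = ![![false, false], ![false, true]] := by decide
  rwa [e] at h

lemma pr_FTFF : PolyRemoval ![![false, true], ![false, false]] := by
  have h := polyRemoval_compl _ pr_TFTT
  have e : mcompl ![![true, false], ![true, true]] = ![![false, true], ![false, false]] := by decide
  rwa [e] at h

lemma pr_FFTF : PolyRemoval ![![false, false], ![true, false]] := by
  have h := polyRemoval_compl _ pr_TTFT
  have e : mcompl ![![true, true], ![false, true]] = ![![false, false], ![true, false]] := by decide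
  rwa [e] at h

lemma pr_TFFF : PolyRemoval ![![true, false], ![false, false]] := by
  have h := polyRemoval_compl _ pr_FTTT
  have e : mcompl ![![false, true], ![true, true]] = ![![true, false], ![false, false]] := by decide
  rwa [e] at h

lemma pr_TFFT : PolyRemoval ![![true, false], ![false, true]] :=
  polyRemoval_of_diag _ rfl rfl (by decide)

lemma pr_FTTF : PolyRemoval ![![false, true], ![true, false]] :=
  polyRemoval_of_diag _ rfl rfl (by decide)

/-- polynomial removal for every 2 x 2 pattern with distinct rows and distinct columns -/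
theorem polyRemoval_two_new (H : Fin 2 → Fin 2 → Bool) (hrow : H 0 ≠ H 1)
    (hcol : (fun i => H i 0) ≠ (fun i => H i 1)) : PolyRemoval H := by
  have hrow' : ¬ (H 0 0 = H 1 0 ∧ H 0 1 = H 1 1) := by
    rintro ⟨h1, h2⟩
    apply hrow
    funext j
    fin_cases j
    · exact h1
    · exact h2
  have hcol' : ¬ (H 0 0 = H 0 1 ∧ H 1 0 = H 1 1) := by
    rintro ⟨h1, h2⟩
    apply hcol
    funext i
    fin_cases i
    · exact h1
    · exact h2
  rw [eq_mk H]
  revert hrow' hcol'
  cases H 0 0 <;> cases H 0 1 <;> cases H 1 0 <;> cases H 1 1 <;> intro hrow' hcol'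
  all_goals first
    | exact absurd ⟨rfl, rfl⟩ hrow'
    | exact absurd ⟨rfl, rfl⟩ hcol'
    | exact pr_TTTF
    | exact pr_TFTT
    | exact pr_TTFT
    | exact pr_FTTT
    | exact pr_FFFT
    | exact pr_FTFF
    | exact pr_FFTF
    | exact pr_TFFF
    | exact pr_TFFT
    | exact pr_FTTF

end Vale.Agent.Lib.P037
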