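import Vale.Agent.Lib.P037.Nested

namespace Vale.Agent.Lib.P037

open Finset

variable {n : ℕ}

/-- level index of a row -/
def jj (L g s i : ℕ) (A : Fin n → Fin n → Bool) (r : Fin n) : ℕ := (rho L A r / g + s - i) / s

/-- level of a row: the least number congruent to `i` mod `s` above `rho / g` -/
def mm (L g s i : ℕ) (A : Fin n → Fin n → Bool) (r : Fin n) : ℕ := jj L g s i A r * s + i

/-- the rounded strip-wise sorted matrix -/
def B1 (L g s i : ℕ) (A : Fin n → Fin n → Bool) (r c : Fin n) : Bool :=
  decide (mm L g s i A r ≤ kk L A (r.val / L) c / g)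

lemma mm_gt (L g s i : ℕ) (hi : i < s) (A : Fin n → Fin n → Bool) (r : Fin n) :
    rho L A r / g < mm L g s i A r := by
  unfold mm jj
  generalize rho L A r / g = q
  have h1 := Nat.div_add_mod (q + s - i) s
  have h2 := Nat.mod_lt (q + s - i) (by omega : s > 0)
  have h3 : s * ((q + s - i) / s) = (q + s - i) / s * s := mul_comm _ _
  omega

lemma mm_le (L g s i : ℕ) (hi : i < s) (A : Fin n → Fin n → Bool) (r : Fin n) :
    mm L g s i A r ≤ rho L A r / g + s := by
  unfold mm jj
  generalize rho L A r / g = q
  have h1 := Nat.div_add_mod (q + s - i) s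
  have h3 : s * ((q + s - i) / s) = (q + s - i) / s * s := mul_comm _ _
  omega

lemma rho_lt (L : ℕ) (hL : 0 < L) (A : Fin n → Fin n → Bool) (r : Fin n) : rho L A r < L := by
  unfold rho
  have h1 := rk_lt_card (Istrip n L (r.val / L)) (key A) (r := r) (by simp [mem_Istrip])
  have h2 : (Istrip n L (r.val / L)).card ≤ L := card_strip_le L hL _
  omega

lemma jj_lt (L g s i : ℕ) (hL : 0 < L) (hs : 0 < s) (A : Fin n → Fin n → Bool) (r : Fin n) :
    jj L g s i A r < L / g / s + 2 := by
  unfold jj
  have h1 : rho L A r / g ≤ L / g := Nat.div_le_div_right (le_of_lt (rho_lt L hL A r))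
  generalize rho L A r / g = q at h1
  generalize L / g = q' at h1
  have h2 : (q + s - i) / s ≤ (q' + s) / s := Nat.div_le_div_right (by omega)
  have h3 : (q' + s) / s = q' / s + 1 := Nat.add_div_right _ hs
  omega

lemma round_bound (L g s i : ℕ) (hL : 0 < L) (hg : 0 < g) (hi : i < s)
    (A : Fin n → Fin n → Bool) :
    ham (B0 L A) (B1 L g s i A) ≤ n * ((n / L + 1) * (s * g)) := by
  unfold ham
  have hcol : ∀ c ∈ (univ : Finset (Fin n)),
      (univ.filter (fun r => B0 L A r c ≠ B1 L g s i A r c)).card ≤ (n / L + 1) * (s * g) := by
    intro c _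
    have : (univ.filter (fun r => B0 L A r c ≠ B1 L g s i A r c)).card
        ≤ (range (n / L + 1) ×ˢ range (s * g)).card := by
      have key1 : ∀ r : Fin n, B0 L A r c ≠ B1 L g s i A r c →
          rho L A r < kk L A (r.val / L) c ∧ kk L A (r.val / L) c < rho L A r + s * g := by
        intro r hr
        have hgt := mm_gt L g s i hi A r
        have hle := mm_le L g s i hi A r
        unfold B0 B1 at hr
        by_cases h1 : mm L g s i A r ≤ kk L A (r.val / L) c / g
        · exfalso
          have h2 : rho L A r < kk L A (r.val / L) c := by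
            by_contra hcon
            have := Nat.div_le_div_right (c := g) (not_lt.mp hcon)
            omega
          simp [h1, h2] at hr
        · have h2 : rho L A r < kk L A (r.val / L) c := by
            by_contra hcon
            simp [h1, hcon] at hr
          refine ⟨h2, ?_⟩
          have h3 := Nat.lt_mul_div_succ (kk L A (r.val / L) c) hg
          have h4 := Nat.div_mul_le_self (rho L A r) g
          have h5 : kk L A (r.val / L) c / g + 1 ≤ rho L A r / g + s := by omega
          have h6 := Nat.mul_le_mul_left g h5
          have h7 : g * (rho L A r / g + s) = rho L A r / g * g + s * g := by ring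
          omega
      apply card_le_card_of_injOn (fun r => (r.val / L, kk L A (r.val / L) c - 1 - rho L A r))
      · intro r hr
        simp only [coe_filter, mem_univ, true_and, Set.mem_setOf_eq] at hr
        obtain ⟨h1, h2⟩ := key1 r hr
        simp only [coe_product, Set.mem_prod, mem_coe, mem_range]
        exact ⟨strip_lt L hL r, by omega⟩
      · intro r hr r' hr' h
        simp only [coe_filter, mem_univ, true_and, Set.mem_setOf_eq] at hr hr'
        obtain ⟨h1, h2⟩ := key1 r hr
        obtain ⟨h1', h2'⟩ := key1 r' hr'
        simp only [Prod.mk.injEq] at h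
        obtain ⟨hs, hk⟩ := h
        rw [← hs] at hk h1'
        have hrho : rho L A r = rho L A r' := by omega
        unfold rho at hrho
        rw [← hs] at hrho
        exact rk_injOn (Istrip n L (r.val / L)) (key A) (key_inj A _)
          (by simp [mem_Istrip]) (by simp [mem_Istrip, hs]) hrho
    simpa using this
  have := sum_le_sum hcol
  simpa using this

end Vale.Agent.Lib.P037
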