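import Vale.Agent.Lib.P037.Basic

namespace Vale.Agent.Lib.P037

open Finset

variable {n : ℕ}

/-- few elements have few predecessors -/
lemma card_filter_pred_lt_le (O : Finset (Fin n)) (m : ℕ) :
    (O.filter (fun o => (O.filter (fun o' => o' < o)).card < m)).card ≤ m := by
  have h := card_filter_rk_lt_le O (fun o : Fin n => n - o.val)
    (by
      intro a _ b _ hab
      apply Fin.ext
      have := a.isLt
      have := b.isLt
      simp only at hab
      omega) m
  have hrk : ∀ o : Fin n, rk O (fun o : Fin n => n - o.val) o = (O.filter (fun o' => o' < o)).card := by
    intro o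
    unfold rk
    congr 1
    apply filter_congr
    intro x _
    have := x.isLt
    have := o.isLt
    rw [Fin.lt_def]
    show n - o.val < n - x.val ↔ x.val < o.val
    omega
  simpa [hrk] using h

lemma T_bound (L : ℕ) (hL : 0 < L) (O Z : Finset (Fin n)) (hdisj : Disjoint O Z) :
    ((O ×ˢ Z).filter (fun p => p.1.val / L = p.2.val / L)).card
      ≤ 2 * ((O ×ˢ Z).filter (fun p => p.1 < p.2)).card + 2 * L ^ 2 := by
  classical
  set O2 := O.filter (fun o => (O.filter (fun o' => o' < o)).card < 2 * L) with hO2
  have hO2card : O2.card ≤ 2 * L := card_filter_pred_lt_le O (2 * L)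
  rw [card_filter_product' O Z (fun o z => o.val / L = z.val / L),
    card_filter_product' O Z (fun o z => o < z)]
  have hpt : ∀ z ∈ Z, (O.filter (fun o => o.val / L = z.val / L)).card
      ≤ 2 * (O.filter (fun o => o < z)).card + (O2.filter (fun o => o.val / L = z.val / L)).card := by
    intro z hz
    have hsub : O.filter (fun o => o.val / L = z.val / L)
        ⊆ O.filter (fun o => o < z) ∪ O.filter (fun o => o.val / L = z.val / L ∧ z < o) := by
      intro o ho
      simp only [mem_filter, mem_union] at ho ⊢
      rcases lt_trichotomy o z with h | h | h
      · exact Or.inl ⟨ho.1, h⟩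
      · exfalso
        subst h
        exact (disjoint_left.mp hdisj) ho.1 hz
      · exact Or.inr ⟨ho.1, ho.2, h⟩
    have h1 := le_trans (card_le_card hsub) (card_union_le _ _)
    have h2 : (O.filter (fun o => o.val / L = z.val / L ∧ z < o)).card
        ≤ (O.filter (fun o => o < z)).card + (O2.filter (fun o => o.val / L = z.val / L)).card := by
      by_cases hb : L ≤ (O.filter (fun o => o < z)).card
      · have : (O.filter (fun o => o.val / L = z.val / L ∧ z < o)).card ≤ L := by
          refine le_trans (card_le_card ?_) (card_strip_le (n := n) L hL (z.val / L))
          intro o ho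
          simp only [mem_filter, mem_univ, true_and] at ho ⊢
          exact ho.2.1
        omega
      · have : (O.filter (fun o => o.val / L = z.val / L ∧ z < o))
            ⊆ O2.filter (fun o => o.val / L = z.val / L) := by
          intro o ho
          simp only [mem_filter] at ho
          obtain ⟨hoO, hos, hzo⟩ := ho
          simp only [hO2, mem_filter]
          refine ⟨⟨hoO, ?_⟩, hos⟩
          have hs : O.filter (fun o' => o' < o) ⊆ O.filter (fun o' => o' < z)
              ∪ (univ : Finset (Fin n)).filter (fun r => r.val / L = z.val / L) := by
            intro o' ho'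
            simp only [mem_filter, mem_union, mem_univ, true_and] at ho' ⊢
            by_cases hlt : o' < z
            · exact Or.inl ⟨ho'.1, hlt⟩
            · right
              have h3 : z.val ≤ o'.val := by
                have := not_lt.mp hlt
                exact this
              have h4 : o'.val ≤ o.val := le_of_lt ho'.2
              have h5 := Nat.div_le_div_right (c := L) h3
              have h6 := Nat.div_le_div_right (c := L) h4
              omega
          have h7 := le_trans (card_le_card hs) (card_union_le _ _)
          have h8 := card_strip_le (n := n) L hL (z.val / L)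
          omega
        have := card_le_card this
        omega
    omega
  have hsum := sum_le_sum hpt
  have hw : ∑ z ∈ Z, (O2.filter (fun o => o.val / L = z.val / L)).card ≤ 2 * L ^ 2 := by
    rw [← card_filter_product' O2 Z (fun o z => o.val / L = z.val / L),
      card_filter_product O2 Z (fun o z => o.val / L = z.val / L)]
    have : ∀ o ∈ O2, (Z.filter (fun z => o.val / L = z.val / L)).card ≤ L := by
      intro o _
      refine le_trans (card_le_card ?_) (card_strip_le (n := n) L hL (o.val / L))
      intro z hz
      simp only [mem_filter, mem_univ, true_and] at hz ⊢
      exact hz.2.symm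
    have h9 := sum_le_sum this
    simp only [sum_const, smul_eq_mul] at h9
    nlinarith
  rw [sum_add_distrib, ← mul_sum] at hsum
  omega

end Vale.Agent.Lib.P037
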